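import Mathlib

open MeasureTheory
open scoped NNReal ENNReal

namespace Vale.Agent.P331

variable {α : Type} [Fintype α] [DecidableEq α]

/-- The offline optimum: the largest total value of an independent set. -/
noncomputable def opt (M : Matroid α) (v : α → ℝ≥0) : ℝ≥0∞ :=
  ⨆ (I : Finset α) (_ : M.Indep (I : Set α)), ∑ e ∈ I, (v e : ℝ≥0∞)

/-- An arrival order lists every element exactly once. -/
def IsOrder (π : List α) : Prop := π.Nodup ∧ ∀ e, e ∈ π

/-- The elements that arrive strictly before `e` in the order `π`, in their order. -/
def before (π : List α) (e : α) : List α := π.takeWhile (fun x => decide (x ≠ e))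

/-- The values known when `e` arrives after the elements of `l`; all others are hidden. -/
def reveal (l : List α) (e : α) (v : α → ℝ≥0) : α → ℝ≥0 :=
  fun x => if x ∈ l ∨ x = e then v x else 0

/-- A decision procedure: given the list of earlier arrivals, the current element, the samples,
the values revealed so far and the seed, accept or not. -/
abbrev Decision (α Ω : Type) : Type := List α → α → (α → ℝ≥0) → (α → ℝ≥0) → Ω → Prop

/-- An input: samples, values, seed. -/
abbrev Input (α Ω : Type) : Type := ((α → ℝ≥0) × (α → ℝ≥0)) × Ω

/-- The set accepted on the input `z` when the elements arrive in the order `π`. -/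
def accepted {Ω : Type} (d : Decision α Ω) (π : List α) (z : Input α Ω) : Set α :=
  {e | e ∈ π ∧ d (before π e) e z.1.1 (reveal (before π e) e z.1.2) z.2}

/-- An online rule for `M`: measurable decisions, and the accepted set is always independent. -/
def IsRule {Ω : Type} [MeasurableSpace Ω] (M : Matroid α) (d : Decision α Ω) : Prop :=
  (∀ l e, MeasurableSet {z : Input α Ω | d l e z.1.1 z.1.2 z.2}) ∧
  ∀ π : List α, π.Nodup → ∀ z, M.Indep (accepted d π z)

/-- The total value of the accepted elements. -/
noncomputable def gain {Ω : Type} (d : Decision α Ω) (π : List α) (z : Input α Ω) : ℝ≥0∞ :=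
  ∑ e, (accepted d π z).indicator (fun x => (z.1.2 x : ℝ≥0∞)) e

/-- An adversary: a measurable choice of an arrival order for each input. -/
def IsAdversary {Ω : Type} [MeasurableSpace Ω] (π : Input α Ω → List α) : Prop :=
  (∀ z, IsOrder (π z)) ∧ ∀ l, MeasurableSet {z | π z = l}

/-- The adversary chooses each next arrival from the earlier arrivals, the accept or reject
decisions on them, and the values of the accepted ones. -/
def SeesOnlyDecisions {Ω : Type} (d : Decision α Ω) (π : Input α Ω → List α) : Prop :=
  ∀ z z' k, (π z).take k = (π z').take k →
    (∀ e ∈ (π z).take k, (e ∈ accepted d (π z) z ↔ e ∈ accepted d (π z') z') ∧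
      (e ∈ accepted d (π z) z → z.1.2 e = z'.1.2 e)) →
    (π z).take (k + 1) = (π z').take (k + 1)

/-- The law of the input: samples and values independent with laws `D e`, independent seed. -/
noncomputable def inputLaw {Ω : Type} [MeasurableSpace Ω] (D : α → Measure ℝ≥0)
    (μ : Measure Ω) : Measure (Input α Ω) :=
  ((Measure.pi D).prod (Measure.pi D)).prod μ

end Vale.Agent.P331
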