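import Mathlib

open Finset
open Classical

namespace Vale.Agent.P331

/-- An abstract matroid rank function on finite sets. -/
structure Rk (α : Type) [DecidableEq α] where
  r : Finset α → ℕ
  r_empty : r ∅ = 0
  mono : ∀ {X Y : Finset α}, X ⊆ Y → r X ≤ r Y
  ins : ∀ (x : α) (X : Finset α), r (insert x X) ≤ r X + 1
  sub : ∀ X Y : Finset α, r (X ∪ Y) + r (X ∩ Y) ≤ r X + r Y

variable {α : Type} [Fintype α] [DecidableEq α]

namespace Rk

variable (ρ : Rk α)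

noncomputable def cl (X : Finset α) : Finset α :=
  univ.filter (fun x => ρ.r (insert x X) = ρ.r X)

def obj (κ : ℕ) (D F : Finset α) : ℤ := ((D ∩ F).card : ℤ) - (κ : ℤ) * (ρ.r F : ℤ)

def IsMax (κ : ℕ) (D X F : Finset α) : Prop :=
  X ⊆ F ∧ ∀ F', X ⊆ F' → ρ.obj κ D F' ≤ ρ.obj κ D F

/-- The density expansion: the largest maximizer of `|D ∩ F| - κ r(F)` over `F ⊇ X`. -/
noncomputable def Ex (κ : ℕ) (D X : Finset α) : Finset α :=
  univ.filter (fun x => ∃ F, ρ.IsMax κ D X F ∧ x ∈ F)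

variable {ρ}

lemma mem_cl {X : Finset α} {x : α} : x ∈ ρ.cl X ↔ ρ.r (insert x X) = ρ.r X := by
  simp [cl]

lemma subset_cl (X : Finset α) : X ⊆ ρ.cl X := fun x hx => by
  rw [mem_cl, insert_eq_of_mem hx]

omit [Fintype α] in
/-- diminishing returns -/
lemma dim {X Y : Finset α} (h : X ⊆ Y) (Z : Finset α) :
    ρ.r (Y ∪ Z) + ρ.r X ≤ ρ.r (X ∪ Z) + ρ.r Y := by
  have h1 := ρ.sub (X ∪ Z) Y
  have h2 : X ∪ Z ∪ Y = Y ∪ Z := by
    ext a; simp only [mem_union]; constructor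
    · rintro ((h1 | h1) | h1)
      · exact Or.inl (h h1)
      · exact Or.inr h1
      · exact Or.inl h1
    · rintro (h1 | h1)
      · exact Or.inr h1
      · exact Or.inl (Or.inr h1)
  have h3 : ρ.r X ≤ ρ.r ((X ∪ Z) ∩ Y) := ρ.mono (subset_inter subset_union_left h)
  rw [h2] at h1
  omega

lemma cl_mono {X Y : Finset α} (h : X ⊆ Y) : ρ.cl X ⊆ ρ.cl Y := by
  intro x hx
  rw [mem_cl] at hx ⊢
  have h1 := dim (ρ := ρ) h {x}
  have h2 : ρ.r Y ≤ ρ.r (insert x Y) := ρ.mono (subset_insert _ _)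
  rw [union_comm Y, union_comm X, ← insert_eq, ← insert_eq] at h1
  omega

omit [Fintype α] in
lemma r_union_le_card (X J : Finset α) : ρ.r (X ∪ J) ≤ ρ.r X + J.card := by
  induction J using Finset.induction_on with
  | empty => simp
  | insert a J ha ih =>
    rw [union_insert, card_insert_of_notMem ha]
    have := ρ.ins a (X ∪ J)
    omega

omit [Fintype α] in
lemma r_le_card (J : Finset α) : ρ.r J ≤ J.card := by
  have := r_union_le_card (ρ := ρ) ∅ J
  simpa [ρ.r_empty] using this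

omit [Fintype α] in
lemma r_union_le (X Y : Finset α) : ρ.r (X ∪ Y) ≤ ρ.r X + ρ.r Y := by
  have := ρ.sub X Y
  omega

lemma r_union_of_subset_cl {X Z : Finset α} (h : Z ⊆ ρ.cl X) : ρ.r (X ∪ Z) = ρ.r X := by
  induction Z using Finset.induction_on with
  | empty => simp
  | insert a J ha ih =>
    rw [union_insert]
    have h1 : a ∈ ρ.cl (X ∪ J) := cl_mono subset_union_left (h (mem_insert_self _ _))
    rw [mem_cl.1 h1, ih (fun x hx => h (mem_insert_of_mem hx))]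

lemma r_cl (X : Finset α) : ρ.r (ρ.cl X) = ρ.r X := by
  have := r_union_of_subset_cl (ρ := ρ) (X := X) (Z := ρ.cl X) subset_rfl
  rwa [union_eq_right.2 (subset_cl X)] at this

lemma r_le_of_subset_cl {X Z : Finset α} (h : Z ⊆ ρ.cl X) : ρ.r Z ≤ ρ.r X :=
  (ρ.mono h).trans (r_cl X).le

lemma subset_cl_of_r {X Z : Finset α} (h : ρ.r (X ∪ Z) ≤ ρ.r X) : Z ⊆ ρ.cl X := by
  intro x hx
  rw [mem_cl]
  have h1 : ρ.r (insert x X) ≤ ρ.r (X ∪ Z) :=
    ρ.mono (insert_subset (mem_union_right _ hx) subset_union_left)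
  have h2 : ρ.r X ≤ ρ.r (insert x X) := ρ.mono (subset_insert _ _)
  omega

lemma cl_subset_cl {X Y : Finset α} (h : X ⊆ ρ.cl Y) : ρ.cl X ⊆ ρ.cl Y := by
  intro x hx
  have h1 : x ∈ ρ.cl (ρ.cl Y) := cl_mono h hx
  rw [mem_cl] at h1 ⊢
  have h2 : ρ.r (insert x Y) ≤ ρ.r (insert x (ρ.cl Y)) :=
    ρ.mono (insert_subset_insert _ (subset_cl Y))
  have h3 : ρ.r Y ≤ ρ.r (insert x Y) := ρ.mono (subset_insert _ _)
  rw [r_cl] at h1
  omega

lemma cl_cl (X : Finset α) : ρ.cl (ρ.cl X) = ρ.cl X :=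
  Subset.antisymm (cl_subset_cl subset_rfl) (subset_cl _)

lemma notMem_cl {X : Finset α} {x : α} : x ∉ ρ.cl X ↔ ρ.r (insert x X) = ρ.r X + 1 := by
  rw [mem_cl]
  have h2 := ρ.ins x X
  have h3 : ρ.r X ≤ ρ.r (insert x X) := ρ.mono (subset_insert _ _)
  omega

/-- A basis of `J` over `W`. -/
lemma exists_basis (W J : Finset α) :
    ∃ I ⊆ J, ρ.r (W ∪ I) = ρ.r W + I.card ∧ J ⊆ ρ.cl (W ∪ I) ∧ ρ.r (W ∪ I) = ρ.r (W ∪ J) := by
  have key : ∃ I ⊆ J, ρ.r (W ∪ I) = ρ.r W + I.card ∧ J ⊆ ρ.cl (W ∪ I) := by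
    induction J using Finset.induction_on with
    | empty => exact ⟨∅, by simp⟩
    | insert a J ha ih =>
      obtain ⟨I, h1, h2, h3⟩ := ih
      by_cases h : a ∈ ρ.cl (W ∪ I)
      · exact ⟨I, h1.trans (subset_insert _ _), h2, insert_subset h h3⟩
      · refine ⟨insert a I, insert_subset_insert _ h1, ?_, ?_⟩
        · rw [union_insert, notMem_cl.1 h, h2, card_insert_of_notMem (fun h' => ha (h1 h'))]
          ring
        · refine insert_subset (subset_cl _ (by simp)) (h3.trans (cl_mono ?_))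
          exact union_subset_union subset_rfl (subset_insert _ _)
  obtain ⟨I, h1, h2, h3⟩ := key
  refine ⟨I, h1, h2, h3, le_antisymm (ρ.mono (union_subset_union subset_rfl h1)) ?_⟩
  exact r_le_of_subset_cl (union_subset (subset_union_left.trans (subset_cl _)) h3)

omit [Fintype α] in
/-- independence over `W` passes to subsets and to smaller `W`. -/
lemma indep_mono {W W' I I' : Finset α} (h : ρ.r (W ∪ I) = ρ.r W + I.card) (hW : W' ⊆ W)
    (hI : I' ⊆ I) : ρ.r (W' ∪ I') = ρ.r W' + I'.card := by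
  have h1 := r_union_le_card (ρ := ρ) (W ∪ I') (I \ I')
  have h2 : W ∪ I' ∪ (I \ I') = W ∪ I := by
    rw [union_assoc, union_sdiff_of_subset hI]
  have h3 := card_sdiff_add_card_eq_card hI
  have h4 := dim (ρ := ρ) hW I'
  have h5 := r_union_le_card (ρ := ρ) W' I'
  rw [h2] at h1
  omega

/-! ### density expansion -/

omit [Fintype α] in
lemma obj_super (κ : ℕ) {D D' : Finset α} (hD : D ⊆ D') (F F' : Finset α) :
    ρ.obj κ D F + ρ.obj κ D' F' ≤ ρ.obj κ D (F ∩ F') + ρ.obj κ D' (F ∪ F') := by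
  unfold obj
  have h1 := ρ.sub F F'
  have h2 : (D ∩ F).card + (D' ∩ F').card ≤ (D ∩ (F ∩ F')).card + (D' ∩ (F ∪ F')).card := by
    have a1 : (D ∩ F).card = (D ∩ (F ∩ F')).card + ((D ∩ F) \ F').card := by
      rw [← inter_assoc, add_comm, card_sdiff_add_card_inter]
    have a2 : (D' ∩ F').card + ((D ∩ F) \ F').card ≤ (D' ∩ (F ∪ F')).card := by
      rw [← card_union_of_disjoint]
      · refine card_le_card fun x hx => ?_
        simp only [mem_union, mem_inter, mem_sdiff] at hx ⊢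
        rcases hx with hx | hx
        · exact ⟨hx.1, Or.inr hx.2⟩
        · exact ⟨hD hx.1.1, Or.inl hx.1.2⟩
      · rw [disjoint_left]
        intro x hx hx'
        exact (mem_sdiff.1 hx').2 (mem_inter.1 hx).2
    omega
  have h3 : (κ : ℤ) * ((ρ.r (F ∪ F') : ℤ) + ρ.r (F ∩ F')) ≤ κ * ((ρ.r F : ℤ) + ρ.r F') :=
    mul_le_mul_of_nonneg_left (by exact_mod_cast h1) (by positivity)
  have h4 : ((D ∩ F).card : ℤ) + (D' ∩ F').card ≤
      (D ∩ (F ∩ F')).card + (D' ∩ (F ∪ F')).card := by exact_mod_cast h2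
  nlinarith

omit [Fintype α] in
lemma IsMax.union {κ : ℕ} {D D' X X' F F' : Finset α} (hD : D ⊆ D') (hX : X ⊆ X')
    (h : ρ.IsMax κ D X F) (h' : ρ.IsMax κ D' X' F') : ρ.IsMax κ D' X' (F ∪ F') := by
  refine ⟨h'.1.trans subset_union_right, fun G hG => (h'.2 G hG).trans ?_⟩
  have h1 := obj_super (ρ := ρ) κ hD F F'
  have h2 := h.2 (F ∩ F') (subset_inter h.1 (hX.trans h'.1))
  linarith

lemma exists_isMax (κ : ℕ) (D X : Finset α) : ∃ F, ρ.IsMax κ D X F := by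
  obtain ⟨F, h1, h2⟩ := exists_max_image (univ.filter (fun F : Finset α => X ⊆ F))
    (ρ.obj κ D) ⟨X, by simp⟩
  exact ⟨F, (mem_filter.1 h1).2, fun G hG => h2 G (by simp [hG])⟩

lemma IsMax.subset_Ex {κ : ℕ} {D X F : Finset α} (h : ρ.IsMax κ D X F) : F ⊆ ρ.Ex κ D X :=
  fun x hx => by simpa [Ex] using ⟨F, h, hx⟩

lemma isMax_Ex (κ : ℕ) (D X : Finset α) : ρ.IsMax κ D X (ρ.Ex κ D X) := by
  obtain ⟨F, h1, h2⟩ := exists_max_image (univ.filter (fun F : Finset α => ρ.IsMax κ D X F))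
    card (by obtain ⟨F, hF⟩ := exists_isMax (ρ := ρ) κ D X; exact ⟨F, by simp [hF]⟩)
  have hF := (mem_filter.1 h1).2
  have : ρ.Ex κ D X = F := by
    refine Subset.antisymm (fun x hx => ?_) hF.subset_Ex
    obtain ⟨G, hG, hxG⟩ : ∃ G, ρ.IsMax κ D X G ∧ x ∈ G := by simpa [Ex] using hx
    have h3 := h2 (G ∪ F) (by simpa using hG.union subset_rfl subset_rfl hF)
    have h4 : F = G ∪ F := eq_of_subset_of_card_le subset_union_right h3
    rw [h4]; exact mem_union_left _ hxG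
  rw [this]; exact hF

lemma subset_Ex (κ : ℕ) (D X : Finset α) : X ⊆ ρ.Ex κ D X := (isMax_Ex κ D X).1

lemma Ex_mono (κ : ℕ) {D D' X X' : Finset α} (hD : D ⊆ D') (hX : X ⊆ X') :
    ρ.Ex κ D X ⊆ ρ.Ex κ D' X' :=
  subset_union_left.trans ((isMax_Ex κ D X).union hD hX (isMax_Ex κ D' X')).subset_Ex

lemma cl_Ex (κ : ℕ) (D X : Finset α) : ρ.cl (ρ.Ex κ D X) = ρ.Ex κ D X := by
  refine Subset.antisymm (IsMax.subset_Ex ⟨(subset_Ex κ D X).trans (subset_cl _), fun G hG => ?_⟩)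
    (subset_cl _)
  refine ((isMax_Ex κ D X).2 G hG).trans ?_
  unfold obj
  rw [r_cl]
  have : (D ∩ ρ.Ex κ D X).card ≤ (D ∩ ρ.cl (ρ.Ex κ D X)).card :=
    card_le_card (inter_subset_inter subset_rfl (subset_cl _))
  omega

lemma cl_subset_Ex (κ : ℕ) (D : Finset α) {X Z : Finset α} (h : Z ⊆ ρ.Ex κ D X) :
    ρ.cl Z ⊆ ρ.Ex κ D X := by
  rw [← cl_Ex]; exact cl_mono h

/-- an expansion only depends on the base up to sandwiching -/
lemma Ex_eq_of_between (κ : ℕ) (D : Finset α) {X W : Finset α} (h1 : X ⊆ W)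
    (h2 : W ⊆ ρ.Ex κ D X) : ρ.Ex κ D W = ρ.Ex κ D X := by
  refine Subset.antisymm (IsMax.subset_Ex ⟨h1.trans (subset_Ex _ _ _), fun G hG => ?_⟩)
    (Ex_mono κ subset_rfl h1)
  exact ((isMax_Ex κ D X).2 G hG).trans ((isMax_Ex κ D W).2 _ h2)

/-- the cost of an expansion is paid by `D` -/
lemma Ex_cost (κ : ℕ) (D : Finset α) {X W : Finset α} (h1 : X ⊆ W) (h2 : W ⊆ ρ.Ex κ D X) :
    κ * ρ.r (ρ.Ex κ D X) ≤ κ * ρ.r W + ((D ∩ ρ.Ex κ D X) \ W).card := by
  have h3 := (isMax_Ex (ρ := ρ) κ D X).2 W h1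
  unfold obj at h3
  have h4 : (D ∩ ρ.Ex κ D X).card = (D ∩ W).card + ((D ∩ ρ.Ex κ D X) \ W).card := by
    have : D ∩ W = D ∩ ρ.Ex κ D X ∩ W := by
      rw [inter_assoc, inter_eq_right.2 h2]
    rw [this, add_comm, card_sdiff_add_card_inter]
  zify at h4 ⊢
  linarith

/-- outside an expansion `D` is sparse -/
lemma Ex_closed (κ : ℕ) (D X : Finset α) {F : Finset α} (h : ρ.Ex κ D X ⊆ F) :
    ((D ∩ F) \ ρ.Ex κ D X).card + κ * ρ.r (ρ.Ex κ D X) ≤ κ * ρ.r F := by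
  have h3 := (isMax_Ex (ρ := ρ) κ D X).2 F ((subset_Ex κ D X).trans h)
  unfold obj at h3
  have h4 : (D ∩ F).card = (D ∩ ρ.Ex κ D X).card + ((D ∩ F) \ ρ.Ex κ D X).card := by
    have : D ∩ ρ.Ex κ D X = D ∩ F ∩ ρ.Ex κ D X := by
      rw [inter_assoc, inter_eq_right.2 h]
    rw [this, add_comm, card_sdiff_add_card_inter]
  zify at h4 ⊢
  linarith

lemma Ex_closed_strict (κ : ℕ) (D X : Finset α) {F : Finset α} (h : ρ.Ex κ D X ⊆ F)
    (hne : ¬ F ⊆ ρ.Ex κ D X) :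
    ((D ∩ F) \ ρ.Ex κ D X).card + κ * ρ.r (ρ.Ex κ D X) < κ * ρ.r F := by
  by_contra hc
  apply hne
  refine IsMax.subset_Ex ⟨(subset_Ex κ D X).trans h, fun G hG => ?_⟩
  refine ((isMax_Ex κ D X).2 G hG).trans ?_
  unfold obj
  have h4 : (D ∩ F).card = (D ∩ ρ.Ex κ D X).card + ((D ∩ F) \ ρ.Ex κ D X).card := by
    have : D ∩ ρ.Ex κ D X = D ∩ F ∩ ρ.Ex κ D X := by
      rw [inter_assoc, inter_eq_right.2 h]
    rw [this, add_comm, card_sdiff_add_card_inter]
  push Not at hc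
  zify at h4 hc ⊢
  linarith

/-- an expansion is spanned by the base and its own `D` elements -/
lemma Ex_subset_cl {κ : ℕ} (hκ : 1 ≤ κ) (D X : Finset α) :
    ρ.Ex κ D X ⊆ ρ.cl (X ∪ (D ∩ ρ.Ex κ D X)) := by
  have h1 : X ∪ (D ∩ ρ.Ex κ D X) ⊆ ρ.Ex κ D X := union_subset (subset_Ex _ _ _) inter_subset_right
  have h2 := Ex_cost (ρ := ρ) κ D subset_union_left h1
  have h3 : (D ∩ ρ.Ex κ D X) \ (X ∪ (D ∩ ρ.Ex κ D X)) = ∅ :=
    sdiff_eq_empty_iff_subset.2 subset_union_right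
  rw [h3, card_empty, add_zero] at h2
  have h4 := Nat.le_of_mul_le_mul_left h2 hκ
  refine subset_cl_of_r ?_
  rwa [union_eq_right.2 h1]

lemma Ex_subset_cl' {κ : ℕ} (hκ : 1 ≤ κ) (D X : Finset α) : ρ.Ex κ D X ⊆ ρ.cl (X ∪ D) :=
  (Ex_subset_cl hκ D X).trans (cl_mono (union_subset_union subset_rfl inter_subset_left))

lemma Ex_empty {κ : ℕ} (hκ : 1 ≤ κ) (X : Finset α) : ρ.Ex κ ∅ X = ρ.cl X :=
  Subset.antisymm (by simpa using Ex_subset_cl' (ρ := ρ) hκ ∅ X)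
    (cl_subset_Ex κ ∅ (subset_Ex κ ∅ X))

end Rk

/-! ### one coordinate of a uniformly random function -/

omit [Fintype α] in
lemma coord_sum [Fintype α] {γ : Type} [Fintype γ] [DecidableEq γ] (x : α) (P Q : Finset γ)
    (hPQ : P ⊆ Q) (f : (α → γ) → ℝ)
    (hf : ∀ ω v, ω x ∈ Q → v ∈ Q → f (Function.update ω x v) = f ω) :
    (Q.card : ℝ) * ∑ ω : α → γ, (if ω x ∈ P then f ω else 0) =
      (P.card : ℝ) * ∑ ω : α → γ, (if ω x ∈ Q then f ω else 0) := by
  have key : ∀ v ∈ Q, ∀ w ∈ Q, ∑ ω : α → γ, (if ω x = v then f ω else 0) =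
      ∑ ω : α → γ, (if ω x = w then f ω else 0) := by
    intro v hv w hw
    rw [← sum_filter, ← sum_filter]
    refine sum_bij' (fun ω _ => Function.update ω x w) (fun ω _ => Function.update ω x v)
      (by simp) (by simp) ?_ ?_ ?_
    · intro ω hω
      have := (mem_filter.1 hω).2
      simp [← this]
    · intro ω hω
      have := (mem_filter.1 hω).2
      simp [← this]
    · intro ω hω
      have := (mem_filter.1 hω).2
      exact (hf ω w (this ▸ hv) hw).symm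
  have split : ∀ R : Finset γ, ∑ ω : α → γ, (if ω x ∈ R then f ω else 0) =
      ∑ v ∈ R, ∑ ω : α → γ, (if ω x = v then f ω else 0) := by
    intro R
    rw [sum_comm]
    refine sum_congr rfl fun ω _ => ?_
    rw [sum_ite_eq]
  rw [split P, split Q, mul_sum, mul_sum]
  calc _ = ∑ v ∈ P, ∑ w ∈ Q, ∑ ω : α → γ, (if ω x = w then f ω else 0) := by
        refine sum_congr rfl fun v hv => ?_
        rw [sum_congr rfl fun w hw => key w hw v (hPQ hv)]
        simp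
    _ = _ := by
        rw [sum_comm]
        refine sum_congr rfl fun w _ => ?_
        simp

end Vale.Agent.P331
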