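import Mathlib
import Vale.Agent.P331.Defs
import Vale.Agent.P331.Rk

open Finset
open Classical

namespace Vale.Agent.P331

variable {α : Type} [Fintype α] [DecidableEq α]

/-- elements of `S` on level `g` (larger level = heavier; `none` = weight zero) -/
def lev (lv : α → Option ℤ) (S : Finset α) (g : ℤ) : Finset α := S.filter (fun x => lv x = some g)

/-- elements of `S` on levels below `g` -/
noncomputable def below (lv : α → Option ℤ) (S : Finset α) (g : ℤ) : Finset α :=
  S.filter (fun x => ∃ j, j < g ∧ lv x = some j)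

/-- all elements on levels at least `g` -/
noncomputable def above (lv : α → Option ℤ) (g : ℤ) : Finset α :=
  univ.filter (fun x => ∃ j, g ≤ j ∧ lv x = some j)

section path

variable (ρ : Rk α) (κ : ℕ)

noncomputable def Xf (Dl Gl : ℤ → Finset α) : ℕ → ℤ → Finset α
  | 0, _ => ρ.cl ∅
  | N + 1, i => ρ.Ex κ (Dl (i - 1)) (Xf Dl Gl N (i - 1)) ∪ Gl (i - 1)

/-- the set built from the levels below `i`, lightest first -/
noncomputable def Xl (Dl Gl : ℤ → Finset α) (i : ℤ) : Finset α :=
  univ.filter (fun x => ∃ N, x ∈ Xf ρ κ Dl Gl N i)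

variable (lv : α → Option ℤ) (D : Finset α)

/-- half the number of depths that matter for level `g` -/
noncomputable def K0 (g : ℤ) : ℕ := (Fintype.card α + 1) * ((below lv D g).card + 1)

/-- the density sample of level `g` that is active at depth `d` -/
noncomputable def act (d : ℕ) (g : ℤ) : Finset α :=
  if d < 2 * ((Fintype.card α + 1) * (below lv D (g + 1)).card) then lev lv D g else ∅

noncomputable def XX (d : ℕ) (G : Finset α) (i : ℤ) : Finset α :=
  Xl ρ κ (act lv D d) (lev lv G) i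

noncomputable def NN (d : ℕ) (G : Finset α) (g : ℤ) : Finset α :=
  ρ.Ex κ (act lv D d g) (XX ρ κ lv D d G g)

variable (C : Finset α)

/-- the guards of depth at least `d` -/
noncomputable def Cd : ℕ → Finset α
  | 0 => C
  | d + 1 => C.filter (fun x => ∃ g, lv x = some g ∧ x ∈ NN ρ κ lv D d (Cd d) g)

noncomputable def Ad (d : ℕ) (g : ℤ) : Finset α := XX ρ κ lv D d (Cd ρ κ lv D C d) g

noncomputable def Nd (d : ℕ) (g : ℤ) : Finset α := NN ρ κ lv D d (Cd ρ κ lv D C d) g

/-- depth at least `d + 1` -/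
def inN (d : ℕ) (x : α) : Prop := ∃ g, lv x = some g ∧ x ∈ Nd ρ κ lv D C d g

/-- depth at least `d` -/
def geD : ℕ → α → Prop
  | 0, _ => True
  | d + 1, x => inN ρ κ lv D C d x

noncomputable def dep (x : α) : ℕ := sInf {d | ¬ inN ρ κ lv D C d x}

/-- the common chain -/
noncomputable def Fd (d : ℕ) : Finset α := univ.filter (fun x => ∃ g, x ∈ Nd ρ κ lv D C d g)

variable (T : Finset α)

noncomputable def Td (d : ℕ) : Finset α :=
  T.filter (fun x => geD ρ κ lv D C d x ∧ ¬ inN ρ κ lv D C d x)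

noncomputable def Bd (d : ℕ) (g : ℤ) : Finset α :=
  XX ρ κ lv D d (Cd ρ κ lv D C (d + 1) ∪ Td ρ κ lv D C T d) g

noncomputable def Bh (d : ℕ) (g : ℤ) : Finset α :=
  NN ρ κ lv D d (Cd ρ κ lv D C (d + 1) ∪ Td ρ κ lv D C T d) g

/-- unblocked elements of `V` on level `g` of depth `d` -/
noncomputable def Jd (V : Finset α) (d : ℕ) (g : ℤ) : Finset α :=
  (lev lv V g).filter (fun x => geD ρ κ lv D C d x ∧ x ∉ Nd ρ κ lv D C d g ∧
    x ∉ Bh ρ κ lv D C T d g)

noncomputable def Psi (V : Finset α) (ε : ℕ) (g : ℤ) : ℝ :=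
  ∑ j ∈ range (K0 lv D g), ((ρ.r (Bh ρ κ lv D C T (2 * j + ε) g ∪ Jd ρ κ lv D C T V (2 * j + ε) g) : ℝ)
    - ρ.r (Bh ρ κ lv D C T (2 * j + ε) g))

end path

/-! ### the online greedy run -/

noncomputable def gstep (ρ : Rk α) (el : α → Prop) (dp : α → ℕ) (F : ℕ → Finset α)
    (A : Finset α) (x : α) : Finset α :=
  if el x ∧ x ∉ ρ.cl (F (dp x + 1) ∪ A.filter (fun y => dp y = dp x)) then insert x A else A

noncomputable def grun (ρ : Rk α) (el : α → Prop) (dp : α → ℕ) (F : ℕ → Finset α)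
    (l : List α) : Finset α := l.foldl (gstep ρ el dp F) ∅

/-! ### the sets read off from the seed -/

noncomputable def idx (x : α) : ℕ := (Fintype.equivFin α x : ℕ)

/-- the listed elements -/
noncomputable def Ul (ρ : Rk α) (lv : α → Option ℤ) (hb : α → Bool) : Finset α :=
  univ.filter (fun x => hb x = false ∧ ∃ g, lv x = some g ∧
    x ∉ ρ.cl (univ.filter (fun y => hb y = true ∧ lv y = some g ∧ idx y < idx x)))

def Ds (U : Finset α) (db : α → Bool) : Finset α := U.filter (fun x => db x = true)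

def Vs (U : Finset α) (db : α → Bool) : Finset α := U.filter (fun x => db x = false)

def Ss {γ : Type} [DecidableEq γ] (V : Finset α) (P : Finset γ) (ct : α → γ) : Finset α :=
  V.filter (fun x => ct x ∈ P)

/-- the accepted set for given sample sets -/
noncomputable def acc (ρ : Rk α) (κ : ℕ) (lv : α → Option ℤ) (D C T : Finset α) (ε : ℕ)
    (l : List α) : Finset α :=
  grun ρ (fun x => x ∈ Td ρ κ lv D C T (dep ρ κ lv D C x) ∧ dep ρ κ lv D C x % 2 = ε)
    (dep ρ κ lv D C) (Fd ρ κ lv D C) l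

abbrev Seed (α γ : Type) : Type := (α → Bool) × (α → Bool) × (α → γ) × Fin 2

/-- the accepted set for a seed -/
noncomputable def accS {γ : Type} [DecidableEq γ] (ρ : Rk α) (κ : ℕ) (PC PT : Finset γ)
    (lv : α → Option ℤ) (s : Seed α γ) (l : List α) : Finset α :=
  acc ρ κ lv (Ds (Ul ρ lv s.1) s.2.1) (Ss (Vs (Ul ρ lv s.1) s.2.1) PC s.2.2.1)
    (Ss (Vs (Ul ρ lv s.1) s.2.1) PT s.2.2.1) s.2.2.2 l

end Vale.Agent.P331
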