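import Mathlib
import Vale.Agent.P331.Alg

open Finset MeasureTheory
open scoped NNReal ENNReal
open Classical

namespace Vale.Agent.P331

variable (α : Type) [Fintype α] [DecidableEq α]

/-- structural facts on the paths (module P) -/
structure PathStmt : Prop where
  Cd_eq : ∀ (ρ : Rk α) (κ : ℕ) (lv : α → Option ℤ) (D C : Finset α) (d : ℕ),
    Cd ρ κ lv D C d = C.filter (geD ρ κ lv D C d)
  NN_mono : ∀ (ρ : Rk α) {κ : ℕ}, 1 ≤ κ → ∀ (lv : α → Option ℤ) (D : Finset α) (d : ℕ)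
    {G G' : Finset α}, G ⊆ G' → ∀ g, NN ρ κ lv D d G g ⊆ NN ρ κ lv D d G' g
  Nd_anti : ∀ (ρ : Rk α) {κ : ℕ}, 1 ≤ κ → ∀ (lv : α → Option ℤ) (D C : Finset α) (d : ℕ) (g : ℤ),
    Nd ρ κ lv D C (d + 1) g ⊆ Nd ρ κ lv D C d g
  Ad_anti : ∀ (ρ : Rk α) {κ : ℕ}, 1 ≤ κ → ∀ (lv : α → Option ℤ) (D C : Finset α) (d : ℕ) (g : ℤ),
    Ad ρ κ lv D C (d + 1) g ⊆ Ad ρ κ lv D C d g
  loc : ∀ (ρ : Rk α) {κ : ℕ}, 1 ≤ κ → ∀ (lv : α → Option ℤ) (D D' C C' T T' : Finset α) (g : ℤ),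
    (∀ x j, j < g → lv x = some j → (x ∈ D ↔ x ∈ D') ∧ (x ∈ C ↔ x ∈ C') ∧ (x ∈ T ↔ x ∈ T')) →
    K0 lv D g = K0 lv D' g ∧ ∀ d, Ad ρ κ lv D C d g = Ad ρ κ lv D' C' d g ∧
      Bd ρ κ lv D C T d g = Bd ρ κ lv D' C' T' d g
  loc_same : ∀ (ρ : Rk α) {κ : ℕ}, 1 ≤ κ → ∀ (lv : α → Option ℤ) (D C C' T T' : Finset α) (g : ℤ),
    (∀ x j, j < g → lv x = some j → (x ∈ C ↔ x ∈ C') ∧ (x ∈ T ↔ x ∈ T')) →
    ∀ d, Nd ρ κ lv D C d g = Nd ρ κ lv D C' d g ∧ Bh ρ κ lv D C T d g = Bh ρ κ lv D C' T' d g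
  inv : ∀ (ρ : Rk α) {κ : ℕ}, 1 ≤ κ → ∀ (lv : α → Option ℤ) (D C C' : Finset α) (d : ℕ) (x : α),
    geD ρ κ lv D C d x → (∀ y, y ≠ x → (y ∈ C ↔ y ∈ C')) →
    ∀ y, geD ρ κ lv D C d y ↔ geD ρ κ lv D C' d y
  act_eq : ∀ (ρ : Rk α) (κ : ℕ) (lv : α → Option ℤ) (D C T : Finset α) (d : ℕ) (g : ℤ),
    d < 2 * K0 lv D g → Nd ρ κ lv D C d g = ρ.Ex κ (lev lv D g) (Ad ρ κ lv D C d g) ∧
      Bh ρ κ lv D C T d g = ρ.Ex κ (lev lv D g) (Bd ρ κ lv D C T d g)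
  A_sub_B : ∀ (ρ : Rk α) {κ : ℕ}, 1 ≤ κ → ∀ (lv : α → Option ℤ) (D C T : Finset α) (d : ℕ) (g : ℤ),
    Ad ρ κ lv D C (d + 1) g ⊆ Bd ρ κ lv D C T d g
  B_sub_A : ∀ (ρ : Rk α) {κ : ℕ}, 1 ≤ κ → ∀ (lv : α → Option ℤ) (D C T : Finset α) (d : ℕ) (g : ℤ),
    Bd ρ κ lv D C T (d + 1) g ⊆ Ad ρ κ lv D C d g
  N_sub_Bh : ∀ (ρ : Rk α) {κ : ℕ}, 1 ≤ κ → ∀ (lv : α → Option ℤ) (D C T : Finset α) (d : ℕ) (g : ℤ),
    Nd ρ κ lv D C (d + 1) g ⊆ Bh ρ κ lv D C T d g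
  Bh_sub_N : ∀ (ρ : Rk α) {κ : ℕ}, 1 ≤ κ → ∀ (lv : α → Option ℤ) (D C T : Finset α) (d : ℕ) (g : ℤ),
    Bh ρ κ lv D C T (d + 1) g ⊆ Nd ρ κ lv D C d g
  Td_sub : ∀ (ρ : Rk α) {κ : ℕ}, 1 ≤ κ → ∀ (lv : α → Option ℤ) (D C T : Finset α) (d : ℕ) (g j : ℤ)
    (x : α), x ∈ Td ρ κ lv D C T d → lv x = some j → j < g → x ∈ Bh ρ κ lv D C T d g
  Fd_anti : ∀ (ρ : Rk α) {κ : ℕ}, 1 ≤ κ → ∀ (lv : α → Option ℤ) (D C : Finset α) {d d' : ℕ},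
    d ≤ d' → Fd ρ κ lv D C d' ⊆ Fd ρ κ lv D C d
  Fd_sub : ∀ (ρ : Rk α) {κ : ℕ}, 1 ≤ κ → ∀ (lv : α → Option ℤ) (D C : Finset α) (d : ℕ) (g : ℤ),
    Fd ρ κ lv D C d ⊆ ρ.cl (Nd ρ κ lv D C d g ∪ (lev lv C g ∪ above lv (g + 1)))
  last : ∀ (ρ : Rk α) {κ : ℕ}, 1 ≤ κ → ∀ (lv : α → Option ℤ) (D C : Finset α) (g : ℤ),
    Nd ρ κ lv D C (2 * K0 lv D g - 1) g ⊆ ρ.Ex κ (lev lv D g) ∅
  dep_eq : ∀ (ρ : Rk α) {κ : ℕ}, 1 ≤ κ → ∀ (lv : α → Option ℤ) (D C : Finset α) (d : ℕ) (x : α),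
    geD ρ κ lv D C d x → ¬ inN ρ κ lv D C d x → dep ρ κ lv D C x = d
  chain : ∀ (ρ : Rk α) {κ : ℕ}, 1 ≤ κ → ∀ (lv : α → Option ℤ) (D C : Finset α) (x y : α),
    dep ρ κ lv D C x % 2 = dep ρ κ lv D C y % 2 → dep ρ κ lv D C x < dep ρ κ lv D C y →
    y ∈ ρ.cl (Fd ρ κ lv D C (dep ρ κ lv D C x + 1))
  congr : ∀ (ρ : Rk α) (κ : ℕ) (lv lv' : α → Option ℤ) (D C : Finset α),
    (∀ x ∈ D ∪ C, lv x = lv' x) → ∀ d g, Nd ρ κ lv D C d g = Nd ρ κ lv' D C d g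

/-- the online greedy run (module R) -/
structure RunStmt : Prop where
  indep : ∀ (ρ : Rk α) (el : α → Prop) (dp : α → ℕ) (F : ℕ → Finset α),
    (∀ x y, el x → el y → dp x < dp y → y ∈ ρ.cl (F (dp x + 1))) →
    ∀ l, ρ.r (grun ρ el dp F l) = (grun ρ el dp F l).card
  sub : ∀ (ρ : Rk α) (el : α → Prop) (dp : α → ℕ) (F : ℕ → Finset α) (l : List α),
    ∀ x ∈ grun ρ el dp F l, el x ∧ x ∈ l
  span : ∀ (ρ : Rk α) (el : α → Prop) (dp : α → ℕ) (F : ℕ → Finset α) (l : List α),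
    ∀ x ∈ l, el x → x ∈ ρ.cl (F (dp x + 1) ∪ (grun ρ el dp F l).filter (fun y => dp y = dp x))
  online : ∀ (ρ : Rk α) (el : α → Prop) (dp : α → ℕ) (F : ℕ → Finset α) (l : List α), l.Nodup →
    ∀ x, x ∈ grun ρ el dp F l ↔ x ∈ l ∧ x ∈ grun ρ el dp F (before l x ++ [x])
  congr : ∀ (ρ : Rk α) (el el' : α → Prop) (dp dp' : α → ℕ) (F : ℕ → Finset α) (l : List α),
    (∀ x ∈ l, (el x ↔ el' x) ∧ (el x → dp x = dp' x)) → grun ρ el dp F l = grun ρ el' dp' F l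

/-- the hybrid inequality (module H) -/
def HybStmt : Prop :=
  ∀ (γ : Type) [Fintype γ] [DecidableEq γ] (PC PT : Finset γ), Disjoint PC PT → PT.card ≤ PC.card →
  ∀ (pos : α → ℕ), Function.Injective pos → ∀ (a b : α → (α → γ) → Prop),
    (∀ y ω, b y ω → a y ω) →
    (∀ x y ω v, pos y ≤ pos x →
      (a y (Function.update ω x v) ↔ a y ω) ∧ (b y (Function.update ω x v) ↔ b y ω)) →
    (∀ x y ω v, a x ω → (a y (Function.update ω x v) ↔ a y ω)) →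
    ∀ Φ : Finset α → Prop, (∀ G G', G ⊆ G' → Φ G → Φ G') →
    ((PC.card : ℝ) - PT.card) * ∑ ω : α → γ,
        (if ¬ Φ (univ.filter fun y => a y ω ∧ ω y ∈ PC) ∧
          Φ (univ.filter fun y => (b y ω ∧ ω y ∈ PC) ∨ (a y ω ∧ ¬ b y ω ∧ ω y ∈ PT))
          then (1 : ℝ) else 0) ≤
      (PT.card : ℝ) * ∑ ω : α → γ,
        ((if Φ (univ.filter fun y => a y ω ∧ ω y ∈ PC) then (1 : ℝ) else 0) -
          (if Φ (univ.filter fun y => (b y ω ∧ ω y ∈ PC) ∨ (a y ω ∧ ¬ b y ω ∧ ω y ∈ PT))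
            then (1 : ℝ) else 0))

/-- an element is rarely blocked (module K, from `PathStmt` and `HybStmt`) -/
def BlockStmt : Prop :=
  ∀ (γ : Type) [Fintype γ] [DecidableEq γ] (PC PT : Finset γ), Disjoint PC PT → PT.card ≤ PC.card →
  ∀ (ρ : Rk α) (κ : ℕ), 1 ≤ κ → ∀ (lv : α → Option ℤ) (D V : Finset α) (g : ℤ) (e : α) (K : ℕ),
    ((PC.card : ℝ) - PT.card) * ∑ ct : α → γ,
        (if ∃ d < K, e ∉ Nd ρ κ lv D (Ss V PC ct) d g ∧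
          e ∈ Bh ρ κ lv D (Ss V PC ct) (Ss V PT ct) d g then (1 : ℝ) else 0) ≤
      (PT.card : ℝ) * Fintype.card (α → γ)

/-- short codes for a chain of expansions (module C) -/
def CodeStmt : Prop :=
  ∀ (ρ : Rk α) (κ : ℕ), 1 ≤ κ → ∀ (Y : ℕ → Finset α), (∀ d, Y (d + 1) ⊆ Y d) → ∀ K : ℕ,
    ∃ code : Finset α → Finset α × (α → ℕ),
      (∀ D, (code D).1 ⊆ D ∧ κ * (code D).1.card ≤ D.card ∧ (∀ x, (code D).2 x ≠ 0 → x ∈ D) ∧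
        ∑ x, (code D).2 x ≤ (code D).1.card) ∧
      ∀ D D', code D = code D' → ∀ d < K, ρ.Ex κ D (Y d) = ρ.Ex κ D' (Y d)

/-- few chains of expansions (module E, from `CodeStmt`) -/
def EncStmt : Prop :=
  ∀ (ρ : Rk α) (κ : ℕ), 1 ≤ κ → ∀ (Y : ℕ → Finset α), (∀ d, Y (d + 1) ⊆ Y d) →
    ∀ (K : ℕ) (U : Finset α) (a : ℝ), 0 < a → a ≤ 1 / 2 →
    ((U.powerset.image (fun D => fun d : Fin K => ρ.Ex κ D (Y d))).card : ℝ) ≤
      Real.exp (U.card * (3 * a + 2 * Real.log (1 / a) / κ))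

/-- the unseen half carries rank (module N, from `EncStmt`) -/
def EntStmt : Prop :=
  ∀ (ρ : Rk α) (κ : ℕ), 1 ≤ κ → ∀ (P Q R : ℕ → Finset α), (∀ j, P (j + 1) ⊆ P j) →
    (∀ j, Q (j + 1) ⊆ Q j) → (∀ j, R (j + 1) ⊆ R j) → (∀ j, P (j + 1) ⊆ Q j) →
    ∀ (K : ℕ) (U : Finset α) (a : ℝ), 0 < a → a ≤ 1 / 2 →
    ∀ J : (α → Bool) → ℕ → Finset α,
    (∀ b j, J b j = (Vs U b).filter (fun x => x ∈ ρ.Ex κ (Ds U b) (P j) ∧
      x ∉ ρ.Ex κ (Ds U b) (Q j) ∧ x ∉ ρ.Ex κ (Ds U b) (R j))) →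
    (1 / 3 : ℝ) * ∑ b : α → Bool, ∑ j ∈ range K, ((J b j).card : ℝ) ≤
      ∑ b : α → Bool, (U.card * (10 * a + 6 * Real.log (1 / a) / κ) +
        (Real.log (1 / a) + κ) * ∑ j ∈ range K,
          ((ρ.r (ρ.Ex κ (Ds U b) (R j) ∪ J b j) : ℝ) - ρ.r (ρ.Ex κ (Ds U b) (R j))))

/-- listing (module L) -/
def ListStmt : Prop :=
  ∀ (ρ : Rk α) (lv : α → Option ℤ) (g : ℤ),
    ∑ hb : α → Bool, ((lev lv (Ul ρ lv hb) g).card : ℝ) ≤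
      Fintype.card (α → Bool) * (ρ.r (lev lv univ g) : ℝ) ∧
    ∃ B : Finset α, ρ.r B = B.card ∧ B.card = ρ.r (lev lv univ g) ∧
      ∀ hb, B.filter (fun x => hb x = false) ⊆ lev lv (Ul ρ lv hb) g

/-- what one level collects (module Y, from `PathStmt` and `RunStmt`) -/
def LayerStmt : Prop :=
  ∀ (γ : Type) [Fintype γ] [DecidableEq γ] (PC PT : Finset γ), Disjoint PC PT →
  ∀ (ρ : Rk α) (κ : ℕ), 1 ≤ κ → ∀ (lv : α → Option ℤ) (D V : Finset α),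
    (∀ x ∈ V, ∃ j, lv x = some j) → ∀ (g : ℤ) (ε : ℕ), ε < 2 →
    ∀ π : (α → γ) → List α, (∀ ct x, x ∈ π ct) →
    (PT.card : ℝ) * ∑ ct : α → γ, (Psi ρ κ lv D (Ss V PC ct) (Ss V PT ct) V ε g -
        (lev lv (Ss V PC ct) g).card - ρ.r (above lv (g + 1))) ≤
      (Fintype.card γ : ℝ) * ∑ ct : α → γ,
        ((lev lv (acc ρ κ lv D (Ss V PC ct) (Ss V PT ct) ε (π ct)) g).card : ℝ)

/-- the expected unblocked rank (module S, from `PathStmt`, `BlockStmt`, `EntStmt`) -/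
def PsiStmt : Prop :=
  ∀ (γ : Type) [Fintype γ] [DecidableEq γ] (PC PT : Finset γ), Disjoint PC PT → 1 ≤ PT.card →
    101 * PT.card ≤ PC.card →
  ∀ (ρ : Rk α) (lv : α → Option ℤ) (U B : Finset α) (g : ℤ), B ⊆ lev lv U g → ρ.r B = B.card →
    (Fintype.card (α → Bool) : ℝ) * Fintype.card (α → γ) *
        ((B.card : ℝ) / 6 - (lev lv U g).card / 40) ≤
      4000000 * ∑ db : α → Bool, ∑ ct : α → γ,
        (Psi ρ 3000000 lv (Ds U db) (Ss (Vs U db) PC ct) (Ss (Vs U db) PT ct) (Vs U db) 0 g +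
          Psi ρ 3000000 lv (Ds U db) (Ss (Vs U db) PC ct) (Ss (Vs U db) PT ct) (Vs U db) 1 g)

/-- the bound for one level (module G, from `ListStmt`, `LayerStmt`, `PsiStmt`) -/
def ClassStmt : Prop :=
  ∀ (γ : Type) [Fintype γ] [DecidableEq γ] (PC PT : Finset γ), Disjoint PC PT → 1 ≤ PT.card →
    101 * PT.card ≤ PC.card → 400000000 * PC.card ≤ Fintype.card γ →
  ∀ (ρ : Rk α) (lv : α → Option ℤ) (g : ℤ) (π : Seed α γ → List α), (∀ s x, x ∈ π s) →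
    (PT.card : ℝ) * Fintype.card (Seed α γ) *
        ((ρ.r (lev lv univ g) : ℝ) / 400000000 - ρ.r (above lv (g + 1))) ≤
      (Fintype.card γ : ℝ) * ∑ s : Seed α γ,
        ((lev lv (accS ρ 3000000 PC PT lv s (π s)) g).card : ℝ)

/-- the rounded weight of a level -/
noncomputable def wt (o : Option ℤ) : ℝ := o.elim 0 (fun g => (1000000000 : ℝ) ^ g)

/-- the bound for fixed weights (module O, from `ClassStmt`) -/
def CoreStmt : Prop :=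
  ∀ (γ : Type) [Fintype γ] [DecidableEq γ] (PC PT : Finset γ), Disjoint PC PT → 1 ≤ PT.card →
    101 * PT.card ≤ PC.card → 400000000 * PC.card ≤ Fintype.card γ →
  ∀ (ρ : Rk α) (lv : α → Option ℤ) (π : Seed α γ → List α), (∀ s x, x ∈ π s) →
    ∀ I : Finset α, ρ.r I = I.card →
    (PT.card : ℝ) * Fintype.card (Seed α γ) * ((∑ x ∈ I, wt (lv x)) / 800000000) ≤
      (Fintype.card γ : ℝ) * ∑ s : Seed α γ, ∑ x ∈ accS ρ 3000000 PC PT lv s (π s), wt (lv x)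

/-- the level of a weight -/
noncomputable def lvl (w : ℝ≥0) : Option ℤ :=
  if w = 0 then none else some (Int.log 1000000000 (w : ℝ))

variable {α}

/-- values on the elements that may be accepted, samples on all others -/
noncomputable def mixW {γ : Type} [DecidableEq γ] (PT : Finset γ) (s : Seed α γ)
    (S V : α → ℝ≥0) : α → ℝ≥0 :=
  fun x => if s.1 x = false ∧ s.2.1 x = false ∧ s.2.2.1 x ∈ PT then V x else S x

noncomputable def decS {γ : Type} [DecidableEq γ] (ρ : Rk α) (κ : ℕ) (PC PT : Finset γ) :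
    Decision α (Seed α γ) :=
  fun l e S V s => e ∈ accS ρ κ PC PT (fun x => lvl (mixW PT s S V x)) s (l ++ [e])

variable (α)

/-- the rule (module U, from `PathStmt` and `RunStmt`) -/
def RuleStmt : Prop :=
  ∀ (M : Matroid α), ∃ ρ : Rk α, (∀ I : Finset α, ρ.r I = I.card ↔ M.Indep (I : Set α)) ∧
    ∀ (K : ℕ) (PC PT : Finset (Fin K)), Disjoint PC PT → ∀ κ : ℕ, 1 ≤ κ →
      IsRule M (decS ρ κ PC PT) ∧
      ∀ π : List α, π.Nodup → ∀ z : Input α (Seed α (Fin K)),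
        accepted (decS ρ κ PC PT) π z =
          (accS ρ κ PC PT (fun x => lvl (mixW PT z.2 z.1.1 z.1.2 x)) z.2 π : Set α) ∧
        ∀ x ∈ accS ρ κ PC PT (fun x => lvl (mixW PT z.2 z.1.1 z.1.2 x)) z.2 π,
          mixW PT z.2 z.1.1 z.1.2 x = z.1.2 x

/-- the theorem with its constant (module W, from `RuleStmt` and `CoreStmt`) -/
def FinalStmt : Prop :=
  ∀ (M : Matroid α), ∃ (Ω : Type) (_ : MeasurableSpace Ω) (μ : Measure Ω)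
    (_ : IsProbabilityMeasure μ) (d : Decision α Ω), IsRule M d ∧
      ∀ (D : α → Measure ℝ≥0), (∀ e, IsProbabilityMeasure (D e)) →
      ∀ π : Input α Ω → List α, IsAdversary π →
        ((1 / 10 ^ 29 : ℝ≥0) : ℝ≥0∞) * ∫⁻ z, opt M z.1.2 ∂(inputLaw D μ) ≤
          ∫⁻ z, gain d (π z) z ∂(inputLaw D μ)

end Vale.Agent.P331
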