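import Mathlib
import Vale.Agent.P331.Spec

open Finset
open Classical

namespace Vale.Agent.P331

variable {α : Type} [Fintype α] [DecidableEq α]

namespace Block

lemma exists_pos (lv : α → Option ℤ) : ∃ pos : α → ℕ, Function.Injective pos ∧
    ∀ x y i j, lv x = some i → lv y = some j → i < j → pos x < pos y := by
  let key : α → ℤ := fun x => (lv x).getD 0
  let c : α → ℕ := fun x => (univ.filter fun y => key y < key x).card
  let n := Fintype.card α
  have hi : ∀ x : α, idx x < n := fun x => (Fintype.equivFin α x).2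
  have hlt : ∀ x y : α, c x < c y → n * c x + idx x < n * c y + idx y := by
    intro x y h
    have := hi x
    have : n * (c x + 1) ≤ n * c y := Nat.mul_le_mul_left _ h
    nlinarith
  refine ⟨fun x => n * c x + idx x, fun x y h => ?_, fun x y i j hx hy hij => hlt x y ?_⟩
  · rcases lt_trichotomy (c x) (c y) with h1 | h1 | h1
    · exact absurd h (hlt x y h1).ne
    · simp only [h1, Nat.add_right_inj] at h
      exact (Fintype.equivFin α).injective (Fin.ext h)
    · exact absurd h.symm (hlt y x h1).ne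
  · have h : key x < key y := by simp [key, hx, hy, hij]
    refine card_lt_card ⟨fun z hz => ?_, fun hz => ?_⟩
    · simp only [mem_filter, mem_univ, true_and] at hz ⊢
      omega
    · have := hz (mem_filter.2 ⟨mem_univ x, h⟩)
      simp at this

end Block

theorem blockStmt (hP : PathStmt α) (hH : HybStmt α) : BlockStmt α := by
  intro γ _ _ PC PT hd hc ρ κ hκ lv D V g e K
  obtain ⟨pos, hpos, hlv⟩ := Block.exists_pos lv
  let C : (α → γ) → Finset α := fun ct => Ss V PC ct
  let T : (α → γ) → Finset α := fun ct => Ss V PT ct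
  have hupd : ∀ (ω : α → γ) x v y, y ≠ x → (y ∈ C (Function.update ω x v) ↔ y ∈ C ω) := by
    intro ω x v y hy
    simp only [C, Ss, mem_filter, Function.update_of_ne hy]
  have hin : ∀ d x y ω v, pos y ≤ pos x →
      (inN ρ κ lv D (C (Function.update ω x v)) d y ↔ inN ρ κ lv D (C ω) d y) := by
    intro d x y ω v hxy
    refine exists_congr fun j => and_congr_right fun hj => ?_
    rw [(hP.loc_same ρ hκ lv D (C (Function.update ω x v)) (C ω) ∅ ∅ j
      (fun z i hi hz => ⟨hupd ω x v z ?_, Iff.rfl⟩) d).1]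
    rintro rfl
    exact absurd (hlv z y i j hz hj hi) (by omega)
  have one : ∀ d, ((PC.card : ℝ) - PT.card) * ∑ ct : α → γ,
      (if e ∉ Nd ρ κ lv D (C ct) d g ∧ e ∈ Bh ρ κ lv D (C ct) (T ct) d g then (1 : ℝ) else 0) ≤
      (PT.card : ℝ) * ∑ ct : α → γ, ((if e ∈ Nd ρ κ lv D (C ct) d g then (1 : ℝ) else 0) -
        (if e ∈ Bh ρ κ lv D (C ct) (T ct) d g then (1 : ℝ) else 0)) := by
    intro d
    have hba : ∀ y ω, inN ρ κ lv D (C ω) d y → geD ρ κ lv D (C ω) d y := by
      intro y ω h
      cases d with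
      | zero => trivial
      | succ d =>
        obtain ⟨j, hj, h⟩ := h
        exact ⟨j, hj, hP.Nd_anti ρ hκ lv D _ d j h⟩
    have h := hH γ PC PT hd hc pos hpos (fun y ω => y ∈ V ∧ geD ρ κ lv D (C ω) d y)
      (fun y ω => y ∈ V ∧ inN ρ κ lv D (C ω) d y) (fun y ω h => ⟨h.1, hba y ω h.2⟩)
      (fun x y ω v hxy => ⟨and_congr_right fun _ => by
        cases d with
        | zero => exact Iff.rfl
        | succ d => exact hin d x y ω v hxy, and_congr_right fun _ => hin d x y ω v hxy⟩)
      (fun x y ω v hx => and_congr_right fun _ =>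
        (hP.inv ρ hκ lv D (C ω) _ d x hx.2 (fun z hz => (hupd ω x v z hz).symm) y).symm)
      (fun G => e ∈ NN ρ κ lv D d G g) (fun G G' hG => fun he => hP.NN_mono ρ hκ lv D d hG g he)
    have e1 : ∀ ω : α → γ, (univ.filter fun y => (y ∈ V ∧ geD ρ κ lv D (C ω) d y) ∧ ω y ∈ PC) =
        Cd ρ κ lv D (C ω) d := by
      intro ω
      rw [hP.Cd_eq]
      ext y
      rw [mem_filter, mem_filter, show y ∈ C ω ↔ y ∈ V ∧ ω y ∈ PC from mem_filter]
      simp only [mem_univ, true_and]
      tauto
    have e2 : ∀ ω : α → γ, (univ.filter fun y => ((y ∈ V ∧ inN ρ κ lv D (C ω) d y) ∧ ω y ∈ PC) ∨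
        ((y ∈ V ∧ geD ρ κ lv D (C ω) d y) ∧ ¬ (y ∈ V ∧ inN ρ κ lv D (C ω) d y) ∧ ω y ∈ PT)) =
        Cd ρ κ lv D (C ω) (d + 1) ∪ Td ρ κ lv D (C ω) (T ω) d := by
      intro ω
      rw [hP.Cd_eq]
      ext y
      simp only [Td, mem_union, mem_filter, mem_univ, true_and]
      simp only [C, T, Ss, mem_filter, geD]
      tauto
    convert h using 4 with ω ω ω
    · simp only [Nd, Bh, ← e1, ← e2]
      congr!
    · simp only [Nd, ← e1]
      congr!
    · simp only [Bh, ← e2]
      congr!
  have h4 : (0 : ℝ) ≤ (PC.card : ℝ) - PT.card := by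
    have : (PT.card : ℝ) ≤ PC.card := by exact_mod_cast hc
    linarith
  calc _ ≤ ((PC.card : ℝ) - PT.card) * ∑ ct : α → γ, ∑ d ∈ range K,
        (if e ∉ Nd ρ κ lv D (C ct) d g ∧ e ∈ Bh ρ κ lv D (C ct) (T ct) d g
          then (1 : ℝ) else 0) := by
        refine mul_le_mul_of_nonneg_left (sum_le_sum fun ct _ => ?_) h4
        split_ifs with h
        · obtain ⟨d, hd, h⟩ := h
          refine le_trans ?_ (single_le_sum (f := fun d =>
            if e ∉ Nd ρ κ lv D (C ct) d g ∧ e ∈ Bh ρ κ lv D (C ct) (T ct) d g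
              then (1 : ℝ) else 0) (fun d _ => by split_ifs <;> norm_num) (mem_range.2 hd))
          exact (if_pos h).ge
        · exact sum_nonneg fun d _ => by split_ifs <;> norm_num
    _ ≤ (PT.card : ℝ) * ∑ ct : α → γ, ∑ d ∈ range K,
        ((if e ∈ Nd ρ κ lv D (C ct) d g then (1 : ℝ) else 0) -
          (if e ∈ Bh ρ κ lv D (C ct) (T ct) d g then (1 : ℝ) else 0)) := by
        rw [sum_comm]
        conv_rhs => rw [sum_comm]
        rw [mul_sum, mul_sum]
        exact sum_le_sum fun d _ => one d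
    _ ≤ (PT.card : ℝ) * ∑ ct : α → γ, (1 : ℝ) := by
        refine mul_le_mul_of_nonneg_left (sum_le_sum fun ct _ => ?_) (by positivity)
        calc _ ≤ ∑ d ∈ range K, ((if e ∈ Nd ρ κ lv D (C ct) d g then (1 : ℝ) else 0) -
              (if e ∈ Nd ρ κ lv D (C ct) (d + 1) g then (1 : ℝ) else 0)) := by
              refine sum_le_sum fun d _ => sub_le_sub_left ?_ _
              have := @hP.N_sub_Bh ρ κ hκ lv D (C ct) (T ct) d g e
              split_ifs with h1 h2
              · exact le_rfl
              · exact absurd (this h1) h2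
              · norm_num
              · exact le_rfl
          _ ≤ 1 := by
              rw [sum_range_sub' (fun d => if e ∈ Nd ρ κ lv D (C ct) d g then (1 : ℝ) else 0)]
              split_ifs <;> norm_num
    _ = _ := by simp

end Vale.Agent.P331
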