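import Vale.Agent.P331.Spec

/-! P331, module G: the bound for one level. -/

open Finset
open Classical

namespace Vale.Agent.P331

variable {α : Type} [Fintype α] [DecidableEq α]

namespace Cls

lemma cnt {γ : Type} [Fintype γ] [DecidableEq γ] (P : Finset γ) (B : Finset α) :
    (Fintype.card γ : ℝ) * ∑ ω : α → γ, ((B.filter (fun x => ω x ∈ P)).card : ℝ) =
      P.card * (Fintype.card (α → γ) * B.card) := by
  have e : ∀ ω : α → γ, ((B.filter (fun x => ω x ∈ P)).card : ℝ) =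
      ∑ x ∈ B, (if ω x ∈ P then (1 : ℝ) else 0) := by
    intro ω
    rw [← sum_filter, sum_const, nsmul_eq_mul, mul_one]
  rw [sum_congr rfl (fun ω _ => e ω), sum_comm, mul_sum]
  have h : ∀ x, (Fintype.card γ : ℝ) * ∑ ω : α → γ, (if ω x ∈ P then (1 : ℝ) else 0) =
      P.card * Fintype.card (α → γ) := by
    intro x
    have h1 := coord_sum x P univ (subset_univ _) (fun _ => 1) (fun _ _ _ _ => rfl)
    simpa only [card_univ, mem_univ, if_true, sum_const, nsmul_eq_mul, mul_one] using h1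
  rw [sum_congr rfl (fun x _ => h x), sum_const, nsmul_eq_mul]
  ring

lemma half (B : Finset α) :
    ∑ hb : α → Bool, ((B.filter (fun x => hb x = false)).card : ℝ) =
      Fintype.card (α → Bool) * B.card / 2 := by
  have h := cnt ({false} : Finset Bool) B
  simp only [mem_singleton, Fintype.card_bool, card_singleton, Nat.cast_ofNat, Nat.cast_one,
    one_mul] at h
  linarith

lemma guard {γ : Type} [Fintype γ] [DecidableEq γ] (PC : Finset γ) (h1 : 1 ≤ PC.card)
    (h4 : 400000000 * PC.card ≤ Fintype.card γ) (lv : α → Option ℤ) (U : Finset α)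
    (db : α → Bool) (g : ℤ) :
    ∑ ct : α → γ, ((lev lv (Ss (Vs U db) PC ct) g).card : ℝ) ≤
      Fintype.card (α → γ) * (lev lv U g).card / 400000000 := by
  have h := cnt PC (lev lv U g)
  have hle : ∑ ct : α → γ, ((lev lv (Ss (Vs U db) PC ct) g).card : ℝ) ≤
      ∑ ct : α → γ, (((lev lv U g).filter (fun x => ct x ∈ PC)).card : ℝ) := by
    refine sum_le_sum (fun ct _ => Nat.cast_le.2 (card_le_card (fun x hx => ?_)))
    simp only [lev, Ss, Vs, mem_filter] at hx ⊢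
    exact ⟨⟨hx.1.1.1, hx.2⟩, hx.1.2⟩
  refine hle.trans ?_
  have h0 : 0 ≤ ∑ ct : α → γ, (((lev lv U g).filter (fun x => ct x ∈ PC)).card : ℝ) :=
    sum_nonneg (fun _ _ => Nat.cast_nonneg _)
  have h5 : (400000000 : ℝ) * PC.card ≤ Fintype.card γ := by exact_mod_cast h4
  have h6 : (1 : ℝ) ≤ PC.card := by exact_mod_cast h1
  have h7 := mul_le_mul_of_nonneg_right h5 h0
  rw [h, mul_comm (400000000 : ℝ), mul_assoc] at h7
  have h8 := le_of_mul_le_mul_left h7 (by linarith)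
  linarith

end Cls

theorem classStmt (hL : ListStmt α) (hY : LayerStmt α) (hS : PsiStmt α) : ClassStmt α := by
  intro γ _ _ PC PT hdis h1 h101 h4 ρ lv g π hπ
  obtain ⟨hU, B, hBr, hBc, hBs⟩ := hL ρ lv g
  have hS' := hS γ PC PT hdis h1 h101 ρ lv
  obtain ⟨κ, hκ⟩ : ∃ κ : ℕ, κ = 3000000 := ⟨_, rfl⟩
  rw [← hκ] at hS' ⊢
  have hκ1 : 1 ≤ κ := by omega
  set N1 : ℝ := (Fintype.card (α → Bool) : ℝ) with hN1
  set N2 : ℝ := (Fintype.card (α → γ) : ℝ) with hN2
  set r : ℝ := (ρ.r (lev lv univ g) : ℝ) with hr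
  set R : ℝ := (ρ.r (above lv (g + 1)) : ℝ) with hR
  set Ψ : (α → Bool) → (α → Bool) → (α → γ) → ℕ → ℝ := fun hb db ct ε =>
    Psi ρ κ lv (Ds (Ul ρ lv hb) db) (Ss (Vs (Ul ρ lv hb) db) PC ct)
      (Ss (Vs (Ul ρ lv hb) db) PT ct) (Vs (Ul ρ lv hb) db) ε g with hΨ
  set n : (α → Bool) → ℝ := fun hb => ((lev lv (Ul ρ lv hb) g).card : ℝ) with hn
  set A : Seed α γ → ℝ := fun s => ((lev lv (accS ρ κ PC PT lv s (π s)) g).card : ℝ) with hA
  have hN10 : 0 ≤ N1 := Nat.cast_nonneg _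
  have hN20 : 0 ≤ N2 := Nat.cast_nonneg _
  have hT0 : (0 : ℝ) ≤ PT.card := Nat.cast_nonneg _
  have hlay : ∀ hb db (ε : Fin 2), (PT.card : ℝ) * (∑ ct, Ψ hb db ct ε -
      (N2 * n hb / 400000000 + N2 * R)) ≤ Fintype.card γ * ∑ ct, A (hb, db, ct, ε) := by
    intro hb db ε
    have h := hY γ PC PT hdis ρ κ hκ1 lv (Ds (Ul ρ lv hb) db) (Vs (Ul ρ lv hb) db)
      (fun x hx => by
        obtain ⟨j, hj, -⟩ := (mem_filter.1 (mem_filter.1 hx).1).2.2
        exact ⟨j, hj⟩) g ε ε.2 (fun ct => π (hb, db, ct, ε)) (fun ct x => hπ _ x)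
    refine le_trans (mul_le_mul_of_nonneg_left ?_ hT0) h
    have h2 := Cls.guard PC (by omega) h4 lv (Ul ρ lv hb) db g
    rw [sum_sub_distrib, sum_sub_distrib, sum_const, card_univ, nsmul_eq_mul]
    simp only [hΨ, hn]
    linarith
  have hpsi : ∀ hb, N1 * N2 * (((B.filter (fun x => hb x = false)).card : ℝ) / 6 - n hb / 40) ≤
      4000000 * ∑ db, ∑ ct, (Ψ hb db ct 0 + Ψ hb db ct 1) := by
    intro hb
    refine hS' (Ul ρ lv hb) _ g (hBs hb) ?_
    have a1 := Rk.indep_mono (ρ := ρ) (W := ∅) (W' := ∅) (I := B)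
      (I' := B.filter (fun x => hb x = false)) (by rw [empty_union, ρ.r_empty, zero_add, hBr])
      subset_rfl (filter_subset _ _)
    rwa [empty_union, ρ.r_empty, zero_add] at a1
  have hhb : ∀ hb, (PT.card : ℝ) * (N1 * N2 * (((B.filter (fun x => hb x = false)).card : ℝ) /
      24000000 - n hb / 160000000 - n hb / 200000000 - 2 * R)) ≤
      Fintype.card γ * ∑ db, ∑ ct, ∑ ε, A (hb, db, ct, ε) := by
    intro hb
    have a1 : ∀ db, (PT.card : ℝ) * (∑ ct, (Ψ hb db ct 0 + Ψ hb db ct 1) -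
        2 * (N2 * n hb / 400000000 + N2 * R)) ≤ Fintype.card γ * ∑ ct, ∑ ε, A (hb, db, ct, ε) := by
      intro db
      have b0 := hlay hb db 0
      have b1 := hlay hb db 1
      simp only [Fin.sum_univ_two, sum_add_distrib]
      simp only [Fin.val_zero, Fin.val_one] at b0 b1
      linarith
    have a2 := sum_le_sum (s := univ) (fun db _ => a1 db)
    rw [← mul_sum, ← mul_sum, sum_sub_distrib, sum_const, card_univ, nsmul_eq_mul, ← hN1] at a2
    refine le_trans (mul_le_mul_of_nonneg_left ?_ hT0) a2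
    have a3 := hpsi hb
    linarith
  have hfin := sum_le_sum (s := univ) (fun hb _ => hhb hb)
  rw [← mul_sum, ← mul_sum, ← mul_sum, sum_sub_distrib, sum_sub_distrib, sum_sub_distrib,
    ← sum_div, ← sum_div, ← sum_div, Cls.half, sum_const, card_univ, nsmul_eq_mul, hBc,
    ← hN1, ← hr] at hfin
  have hc : (Fintype.card (Seed α γ) : ℝ) = N1 * (N1 * (N2 * 2)) := by
    simp only [Seed, Fintype.card_prod, Fintype.card_fin, Nat.cast_mul, Nat.cast_ofNat, hN1, hN2]
  have hs : ∑ s : Seed α γ, A s = ∑ hb, ∑ db, ∑ ct, ∑ ε, A (hb, db, ct, ε) := by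
    simp only [Fintype.sum_prod_type]
  rw [hc, hs, mul_assoc]
  refine le_trans (mul_le_mul_of_nonneg_left ?_ hT0) hfin
  have hr0 : 0 ≤ N1 * r := mul_nonneg hN10 (Nat.cast_nonneg _)
  have h9 : N1 * (2 * (r / 400000000 - R)) ≤ N1 * r / 2 / 24000000 -
      (∑ hb, n hb) / 160000000 - (∑ hb, n hb) / 200000000 - N1 * (2 * R) := by
    linarith
  calc _ = N1 * N2 * (N1 * (2 * (r / 400000000 - R))) := by ring
    _ ≤ _ := mul_le_mul_of_nonneg_left h9 (mul_nonneg hN10 hN20)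

end Vale.Agent.P331
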