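import Mathlib
import Vale.Agent.P331.Spec

open Finset
open Classical

namespace Vale.Agent.P331

variable {α : Type} [Fintype α] [DecidableEq α]

namespace Code

variable {ρ : Rk α} {κ : ℕ}

lemma cl_inter {W S J1 J2 : Finset α} (h : ρ.r (W ∪ S) = ρ.r W + S.card) (h1 : J1 ⊆ S)
    (h2 : J2 ⊆ S) {z : α} (hz1 : z ∈ ρ.cl (W ∪ J1)) (hz2 : z ∈ ρ.cl (W ∪ J2)) :
    z ∈ ρ.cl (W ∪ (J1 ∩ J2)) := by
  rw [Rk.mem_cl] at hz1 hz2 ⊢
  have a1 := Rk.indep_mono h subset_rfl h1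
  have a2 := Rk.indep_mono h subset_rfl h2
  have a3 := Rk.indep_mono h subset_rfl (union_subset h1 h2)
  have a4 := Rk.indep_mono h subset_rfl (inter_subset_left.trans h1 : J1 ∩ J2 ⊆ S)
  have a5 := ρ.sub (insert z (W ∪ J1)) (insert z (W ∪ J2))
  have a6 : ρ.r (W ∪ (J1 ∪ J2)) ≤ ρ.r (insert z (W ∪ J1) ∪ insert z (W ∪ J2)) := by
    refine ρ.mono fun x hx => ?_
    simp only [mem_union, mem_insert] at hx ⊢
    tauto
  have a7 : ρ.r (insert z (W ∪ (J1 ∩ J2))) ≤ ρ.r (insert z (W ∪ J1) ∩ insert z (W ∪ J2)) := by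
    refine ρ.mono fun x hx => ?_
    simp only [mem_union, mem_insert, mem_inter] at hx ⊢
    tauto
  have a8 := card_union_add_card_inter J1 J2
  have a9 : ρ.r (W ∪ (J1 ∩ J2)) ≤ ρ.r (insert z (W ∪ (J1 ∩ J2))) := ρ.mono (subset_insert _ _)
  omega

noncomputable def supp (ρ : Rk α) (W S : Finset α) (z : α) : Finset α :=
  S.filter (fun s => z ∉ ρ.cl (W ∪ S.erase s))

lemma supp_subset {W S J : Finset α} {z : α} (hJ : J ⊆ S) (hz : z ∈ ρ.cl (W ∪ J)) :
    supp ρ W S z ⊆ J := by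
  intro s hs
  by_contra hc
  refine (mem_filter.1 hs).2 (Rk.cl_mono (union_subset_union subset_rfl fun x hx => ?_) hz)
  exact mem_erase.2 ⟨fun h => hc (h ▸ hx), hJ hx⟩

lemma mem_cl_supp {W S : Finset α} (h : ρ.r (W ∪ S) = ρ.r W + S.card) {z : α}
    (hz : z ∈ ρ.cl (W ∪ S)) : z ∈ ρ.cl (W ∪ supp ρ W S z) := by
  obtain ⟨J, h1, h2⟩ := exists_min_image (S.powerset.filter (fun J => z ∈ ρ.cl (W ∪ J))) card
    ⟨S, by simp [hz]⟩
  rw [mem_filter, mem_powerset] at h1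
  refine Rk.cl_mono (union_subset_union subset_rfl fun s hs => ?_) h1.2
  refine mem_filter.2 ⟨h1.1 hs, fun hc => ?_⟩
  have h3 := cl_inter h h1.1 (erase_subset s S) h1.2 hc
  have h4 := h2 (J ∩ S.erase s) (mem_filter.2 ⟨mem_powerset.2 (inter_subset_left.trans h1.1), h3⟩)
  have h5 : (J ∩ S.erase s).card < J.card :=
    card_lt_card ⟨inter_subset_left, fun hc => by simpa using hc hs⟩
  omega

lemma claim (hκ : 1 ≤ κ) (D W S S' T P : Finset α) (b : Prop) (hS : S ⊆ W ∪ S')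
    (hI : ρ.r (W ∪ S') = ρ.r W + S'.card) (hT : T ⊆ S')
    (hcost : ∀ J ⊆ T, κ * (T \ J).card ≤ ((D ∩ ρ.cl (W ∪ T)) \ ρ.cl (W ∪ J)).card)
    (hP : b → P ⊆ ρ.cl W ∧ ∀ F, P ⊆ F → ¬ F ⊆ P → ((D ∩ F) \ P).card + κ * ρ.r P < κ * ρ.r F) :
    ∀ n, ∀ J ⊆ T, (T \ J).card = n → ∃ c : α → ℕ,
      (∀ z, c z ≠ 0 → z ∈ D ∧ z ∈ ρ.cl (W ∪ T) ∧ z ∉ ρ.cl (W ∪ J)) ∧ ∑ z, c z ≤ n ∧
      (b → ∀ z, c z ≠ 0 → ∀ J' ⊆ S, J'.card ≤ c z → z ∉ ρ.cl (P ∪ J')) ∧
      ∀ I', J ⊆ I' → I' ⊆ S' →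
        (∀ z, c z ≠ 0 → (∃ J' ⊆ S', J'.card ≤ c z ∧ z ∈ ρ.cl (W ∪ I' ∪ J')) → z ∈ ρ.cl (W ∪ I')) →
        T ⊆ I' := by
  intro n
  induction n using Nat.strong_induction_on with
  | _ n ih =>
  intro J hJ hn
  rcases Nat.eq_zero_or_pos n with rfl | hpos
  · refine ⟨fun _ => 0, by simp, by simp, by simp, fun I' h1 _ _ => ?_⟩
    exact (sdiff_eq_empty_iff_subset.1 (card_eq_zero.1 hn)).trans h1
  have hc := hcost J hJ
  have hz : ∃ z ∈ (D ∩ ρ.cl (W ∪ T)) \ ρ.cl (W ∪ J),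
      b → ∀ J' ⊆ S, J'.card ≤ (supp ρ W S' z \ J).card → z ∉ ρ.cl (P ∪ J') := by
    have hne : ((D ∩ ρ.cl (W ∪ T)) \ ρ.cl (W ∪ J)).Nonempty := by
      rw [← card_pos]
      have : 0 < κ * (T \ J).card := Nat.mul_pos hκ (by omega)
      omega
    by_cases hb : b
    swap
    · obtain ⟨z, hz⟩ := hne
      exact ⟨z, hz, fun h => absurd h hb⟩
    by_contra hcon
    push Not at hcon
    obtain ⟨hP1, hP2⟩ := hP hb
    have hall : ∀ z ∈ (D ∩ ρ.cl (W ∪ T)) \ ρ.cl (W ∪ J), z ∈ ρ.cl (P ∪ (T \ J)) := by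
      intro z hz
      obtain ⟨_, J', h1, h2, h3⟩ := hcon z hz
      have h4 : z ∈ ρ.cl (W ∪ (J' ∩ S')) := by
        refine Rk.cl_subset_cl (union_subset (hP1.trans (Rk.cl_mono subset_union_left))
          (Subset.trans (fun x hx => ?_) (Rk.subset_cl _))) h3
        rcases mem_union.1 (hS (h1 hx)) with h | h
        · exact mem_union_left _ h
        · exact mem_union_right _ (mem_inter.2 ⟨hx, h⟩)
      have h5 := (supp_subset inter_subset_right h4).trans inter_subset_left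
      have h6 : supp ρ W S' z \ J = J' :=
        eq_of_subset_of_card_le (sdiff_subset.trans h5) h2
      have h7 : supp ρ W S' z ⊆ T := supp_subset hT (mem_inter.1 (mem_sdiff.1 hz).1).2
      refine Rk.cl_mono (union_subset_union subset_rfl ?_) h3
      rw [← h6]
      exact sdiff_subset_sdiff h7 subset_rfl
    have hPW : P ⊆ ρ.cl (W ∪ J) := hP1.trans (Rk.cl_mono subset_union_left)
    obtain ⟨z0, hz0⟩ := hne
    have h8 := hP2 (ρ.cl (P ∪ (T \ J))) (subset_union_left.trans (Rk.subset_cl _))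
      (fun h => (mem_sdiff.1 hz0).2 (hPW (h (hall z0 hz0))))
    have h9 : ((D ∩ ρ.cl (W ∪ T)) \ ρ.cl (W ∪ J)).card ≤ ((D ∩ ρ.cl (P ∪ (T \ J))) \ P).card := by
      refine card_le_card fun z hz => mem_sdiff.2 ⟨mem_inter.2
        ⟨(mem_inter.1 (mem_sdiff.1 hz).1).1, hall z hz⟩, fun h => (mem_sdiff.1 hz).2 (hPW h)⟩
    rw [Rk.r_cl] at h8
    have h10 := Nat.mul_le_mul_left κ (Rk.r_union_le_card (ρ := ρ) P (T \ J))
    rw [mul_add] at h10
    omega
  obtain ⟨z, hz1, hz2⟩ := hz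
  obtain ⟨hz3, hz4⟩ := mem_sdiff.1 hz1
  obtain ⟨hzD, hzT⟩ := mem_inter.1 hz3
  have h7 : supp ρ W S' z ⊆ T := supp_subset hT hzT
  have h8 : z ∈ ρ.cl (W ∪ supp ρ W S' z) :=
    mem_cl_supp hI (Rk.cl_mono (union_subset_union subset_rfl hT) hzT)
  have h9 : z ∈ ρ.cl (W ∪ (J ∪ supp ρ W S' z)) :=
    Rk.cl_mono (union_subset_union subset_rfl subset_union_right) h8
  have h10 : (supp ρ W S' z \ J).card ≠ 0 := by
    intro h
    exact hz4 (Rk.cl_mono (union_subset_union subset_rfl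
      (sdiff_eq_empty_iff_subset.1 (card_eq_zero.1 h))) h8)
  have h11 : (T \ (J ∪ supp ρ W S' z)).card + (supp ρ W S' z \ J).card = n := by
    rw [← hn, ← card_union_of_disjoint]
    · congr 1
      ext x
      simp only [mem_union, mem_sdiff]
      have := @h7 x
      tauto
    · rw [disjoint_left]
      intro x hx hx'
      exact (mem_sdiff.1 hx).2 (mem_union_right _ (mem_sdiff.1 hx').1)
  obtain ⟨c, c1, c2, c3, c4⟩ := ih _ (by omega) (J ∪ supp ρ W S' z) (union_subset hJ h7) rfl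
  have hcz : c z = 0 := by
    by_contra h
    exact (c1 z h).2.2 h9
  refine ⟨Function.update c z (supp ρ W S' z \ J).card, fun y hy => ?_, ?_, fun hb y hy => ?_,
    fun I' h1 h2 h3 => ?_⟩
  · by_cases hyz : y = z
    · subst hyz; exact ⟨hzD, hzT, hz4⟩
    · rw [Function.update_of_ne hyz] at hy
      exact ⟨(c1 y hy).1, (c1 y hy).2.1, fun h => (c1 y hy).2.2
        (Rk.cl_mono (union_subset_union subset_rfl subset_union_left) h)⟩
  · rw [sum_update_of_mem (mem_univ z)]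
    have : ∑ x ∈ univ \ {z}, c x ≤ ∑ x, c x := sum_le_sum_of_subset (subset_univ _)
    omega
  · by_cases hyz : y = z
    · subst hyz
      rw [Function.update_self]
      exact hz2 hb
    · rw [Function.update_of_ne hyz] at hy ⊢
      exact c3 hb y hy
  · have h12 : z ∈ ρ.cl (W ∪ I') := by
      refine h3 z (by rwa [Function.update_self]) ⟨supp ρ W S' z \ J,
        sdiff_subset.trans (h7.trans hT), by rw [Function.update_self], ?_⟩
      refine Rk.cl_mono (fun x hx => ?_) h8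
      have := @h1 x
      simp only [mem_union, mem_sdiff] at hx ⊢
      tauto
    refine c4 I' (union_subset h1 (supp_subset h2 h12)) h2 fun y hy hy' => ?_
    have hyz : y ≠ z := fun h => hy (h ▸ hcz)
    exact h3 y (by rwa [Function.update_of_ne hyz]) (by rwa [Function.update_of_ne hyz])

noncomputable def bas (ρ : Rk α) (W J : Finset α) : Finset α :=
  Classical.choose (Rk.exists_basis (ρ := ρ) W J)

lemma bas_spec (W J : Finset α) : bas ρ W J ⊆ J ∧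
    ρ.r (W ∪ bas ρ W J) = ρ.r W + (bas ρ W J).card ∧ J ⊆ ρ.cl (W ∪ bas ρ W J) :=
  let h := Classical.choose_spec (Rk.exists_basis (ρ := ρ) W J)
  ⟨h.1, h.2.1, h.2.2.1⟩

noncomputable def II (ρ : Rk α) (κ : ℕ) (Z : ℕ → Finset α) (D : Finset α) : ℕ → Finset α
  | 0 => ∅
  | k + 1 => II ρ κ Z D k ∪ bas ρ (Z k ∪ II ρ κ Z D k) (D ∩ ρ.Ex κ D (Z k))

variable {Z : ℕ → Finset α}

lemma II_mono (D : Finset α) : Monotone (II ρ κ Z D) :=
  monotone_nat_of_le_succ fun _ => subset_union_left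

lemma II_sub (hZ : Monotone Z) (D : Finset α) (k : ℕ) : II ρ κ Z D k ⊆ D ∩ ρ.Ex κ D (Z k) ∧
    II ρ κ Z D (k + 1) ⊆ D ∩ ρ.Ex κ D (Z k) := by
  induction k with
  | zero => exact ⟨empty_subset _, union_subset (empty_subset _) (bas_spec _ _).1⟩
  | succ k ih =>
    have : II ρ κ Z D (k + 1) ⊆ D ∩ ρ.Ex κ D (Z (k + 1)) :=
      ih.2.trans (inter_subset_inter subset_rfl (Rk.Ex_mono κ subset_rfl (hZ (Nat.le_succ k))))
    exact ⟨this, union_subset this (bas_spec _ _).1⟩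

lemma Ex_eq (hκ : 1 ≤ κ) (hZ : Monotone Z) (D : Finset α) (k : ℕ) :
    ρ.Ex κ D (Z k) = ρ.cl (Z k ∪ II ρ κ Z D (k + 1)) := by
  refine Subset.antisymm ((Rk.Ex_subset_cl hκ D _).trans (Rk.cl_subset_cl (union_subset
    (subset_union_left.trans (Rk.subset_cl _)) ?_))) (Rk.cl_subset_Ex κ D
    (union_subset (Rk.subset_Ex _ _ _) ((II_sub hZ D k).2.trans inter_subset_right)))
  rw [II, ← union_assoc]
  exact (bas_spec _ _).2.2

lemma II_step (D : Finset α) (k : ℕ) : ρ.r (Z k ∪ II ρ κ Z D (k + 1)) =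
    ρ.r (Z k ∪ II ρ κ Z D k) + (II ρ κ Z D (k + 1) \ II ρ κ Z D k).card := by
  have h := Rk.indep_mono (bas_spec (ρ := ρ) (Z k ∪ II ρ κ Z D k) (D ∩ ρ.Ex κ D (Z k))).2.1
    subset_rfl (I' := II ρ κ Z D (k + 1) \ II ρ κ Z D k) (by
      rw [II, union_sdiff_left]; exact sdiff_subset)
  rwa [union_assoc, union_sdiff_of_subset (II_mono D (Nat.le_succ k))] at h

lemma II_ind (hZ : Monotone Z) (D : Finset α) (k m : ℕ) :
    ρ.r (Z k ∪ II ρ κ Z D k ∪ (II ρ κ Z D (k + m) \ II ρ κ Z D k)) =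
      ρ.r (Z k ∪ II ρ κ Z D k) + (II ρ κ Z D (k + m) \ II ρ κ Z D k).card := by
  induction m generalizing k with
  | zero => simp
  | succ m ih =>
    have h1 := Rk.indep_mono (ih (k + 1)) (W' := Z k ∪ II ρ κ Z D (k + 1))
      (union_subset_union (hZ (Nat.le_succ k)) subset_rfl) subset_rfl
    have e : k + 1 + m = k + (m + 1) := by ring
    rw [e] at h1
    have s1 : II ρ κ Z D k ⊆ II ρ κ Z D (k + 1) := II_mono D (Nat.le_succ k)
    have s2 : II ρ κ Z D (k + 1) ⊆ II ρ κ Z D (k + (m + 1)) := II_mono D (by omega)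
    rw [union_assoc, union_sdiff_of_subset s2, II_step] at h1
    rw [union_assoc, union_sdiff_of_subset (s1.trans s2), h1]
    have := card_sdiff_add_card_eq_card s1
    have := card_sdiff_add_card_eq_card s2
    have := card_sdiff_add_card_eq_card (s1.trans s2)
    omega

lemma II_cost (hκ : 1 ≤ κ) (hZ : Monotone Z) (D : Finset α) (k : ℕ) {J : Finset α}
    (hJ : J ⊆ II ρ κ Z D (k + 1) \ II ρ κ Z D k) :
    κ * ((II ρ κ Z D (k + 1) \ II ρ κ Z D k) \ J).card ≤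
      ((D ∩ ρ.Ex κ D (Z k)) \ ρ.cl (Z k ∪ II ρ κ Z D k ∪ J)).card := by
  have s1 : II ρ κ Z D k ⊆ II ρ κ Z D (k + 1) := II_mono D (Nat.le_succ k)
  have h1 := Rk.Ex_cost (ρ := ρ) κ D (X := Z k) (W := ρ.cl (Z k ∪ II ρ κ Z D k ∪ J))
    ((subset_union_left.trans subset_union_left).trans (Rk.subset_cl _)) (by
      rw [Ex_eq hκ hZ]
      refine Rk.cl_mono (union_subset (union_subset_union subset_rfl s1) ?_)
      exact (hJ.trans sdiff_subset).trans subset_union_right)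
  have h2 := Rk.r_union_le_card (ρ := ρ) (Z k ∪ II ρ κ Z D k) J
  have h3 : ρ.r (ρ.Ex κ D (Z k)) = ρ.r (Z k ∪ II ρ κ Z D (k + 1)) := by
    rw [Ex_eq hκ hZ, Rk.r_cl]
  rw [Rk.r_cl, h3, II_step] at h1
  have h4 := card_sdiff_add_card_eq_card hJ
  have h5 := Nat.mul_le_mul_left κ h2
  rw [← h4] at h1
  simp only [mul_add] at h1 h5
  omega

lemma II_card (hκ : 1 ≤ κ) (hZ : Monotone Z) (D : Finset α) (k : ℕ) :
    κ * (II ρ κ Z D k).card ≤ (D ∩ ρ.cl (Z k ∪ II ρ κ Z D k)).card := by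
  induction k with
  | zero => simp [II]
  | succ k ih =>
    have h1 := II_cost (ρ := ρ) hκ hZ D k (empty_subset _)
    have s1 : II ρ κ Z D k ⊆ II ρ κ Z D (k + 1) := II_mono D (Nat.le_succ k)
    rw [sdiff_empty, union_empty] at h1
    have h2 := card_sdiff_add_card_eq_card s1
    have h3 : ρ.cl (Z k ∪ II ρ κ Z D k) ⊆ ρ.Ex κ D (Z k) := by
      rw [Ex_eq hκ hZ]; exact Rk.cl_mono (union_subset_union subset_rfl s1)
    have h4 := card_sdiff_add_card_inter (D ∩ ρ.Ex κ D (Z k)) (ρ.cl (Z k ∪ II ρ κ Z D k))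
    rw [inter_assoc, inter_eq_right.2 h3] at h4
    have h5 : (D ∩ ρ.Ex κ D (Z k)).card ≤ (D ∩ ρ.cl (Z (k + 1) ∪ II ρ κ Z D (k + 1))).card := by
      rw [Ex_eq hκ hZ]
      exact card_le_card (inter_subset_inter subset_rfl
        (Rk.cl_mono (union_subset_union (hZ (Nat.le_succ k)) subset_rfl)))
    rw [← h2, mul_add]
    omega

lemma enc (hκ : 1 ≤ κ) (hZ : Monotone Z) (K : ℕ) (D : Finset α) : ∃ c : α → ℕ,
    (∀ z, c z ≠ 0 → z ∈ D) ∧ ∑ z, c z ≤ (II ρ κ Z D K).card ∧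
    (∀ k < K, ∀ z, c z ≠ 0 → (∃ J' ⊆ II ρ κ Z D K, J'.card ≤ c z ∧
      z ∈ ρ.cl (Z k ∪ II ρ κ Z D (k + 1) ∪ J')) → z ∈ ρ.cl (Z k ∪ II ρ κ Z D (k + 1))) ∧
    ∀ k < K, ∀ I, II ρ κ Z D k ⊆ I → I ⊆ II ρ κ Z D K →
      (∀ z, c z ≠ 0 → (∃ J' ⊆ II ρ κ Z D K, J'.card ≤ c z ∧ z ∈ ρ.cl (Z k ∪ I ∪ J')) →
        z ∈ ρ.cl (Z k ∪ I)) → II ρ κ Z D (k + 1) ⊆ I := by
  have hprev : ∀ k, 1 ≤ k → ρ.Ex κ D (Z (k - 1)) ⊆ ρ.cl (Z k ∪ II ρ κ Z D k) := by
    intro k hk
    rw [Ex_eq hκ hZ, Nat.sub_add_cancel hk]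
    exact Rk.cl_mono (union_subset_union (hZ (Nat.sub_le _ _)) subset_rfl)
  have hWT : ∀ k, Z k ∪ II ρ κ Z D k ∪ (II ρ κ Z D (k + 1) \ II ρ κ Z D k) =
      Z k ∪ II ρ κ Z D (k + 1) := fun k => by
    rw [union_assoc, union_sdiff_of_subset (II_mono D (Nat.le_succ k))]
  have h : ∀ k, k < K → _ := fun k hk => claim (ρ := ρ) hκ D (Z k ∪ II ρ κ Z D k) (II ρ κ Z D K)
    (II ρ κ Z D K \ II ρ κ Z D k) (II ρ κ Z D (k + 1) \ II ρ κ Z D k) (ρ.Ex κ D (Z (k - 1)))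
    (1 ≤ k) (by
      rw [union_assoc, union_sdiff_of_subset (II_mono D hk.le)]; exact subset_union_right)
    (by
      have := II_ind (ρ := ρ) (κ := κ) hZ D k (K - k)
      rwa [Nat.add_sub_cancel' hk.le] at this)
    (sdiff_subset_sdiff (II_mono D hk) subset_rfl)
    (fun J hJ => by
      rw [hWT, ← Ex_eq hκ hZ]; exact II_cost hκ hZ D k hJ)
    (fun hb => ⟨hprev k hb, fun F h1 h2 => Rk.Ex_closed_strict κ D _ h1 h2⟩)
    _ ∅ (empty_subset _) rfl
  choose! c c1 c2 c3 c4 using h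
  simp only [hWT, union_empty, sdiff_empty] at c1 c2
  have hN : ∀ k e, k < e → ρ.cl (Z k ∪ II ρ κ Z D (k + 1)) ⊆ ρ.Ex κ D (Z (e - 1)) := by
    intro k e hke
    rw [← Ex_eq hκ hZ]
    exact Rk.Ex_mono κ subset_rfl (hZ (by omega))
  have huniq : ∀ k < K, ∀ z, c k z ≠ 0 → ∑ e ∈ range K, c e z = c k z := by
    intro k hk z hz
    refine sum_eq_single k (fun e he hek => ?_) (fun h => absurd (mem_range.2 hk) h)
    by_contra hc
    rw [mem_range] at he
    rcases lt_or_gt_of_ne hek with h | h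
    · exact (c1 k hk z hz).2.2 (hprev k (by omega) (hN e k h (c1 e he z hc).2.1))
    · exact (c1 e he z hc).2.2 (hprev e (by omega) (hN k e h (c1 k hk z hz).2.1))
  have hex : ∀ z, ∑ e ∈ range K, c e z ≠ 0 → ∃ e < K, c e z ≠ 0 := by
    intro z hz
    obtain ⟨e, he, h⟩ := exists_ne_zero_of_sum_ne_zero hz
    exact ⟨e, mem_range.1 he, h⟩
  refine ⟨fun z => ∑ e ∈ range K, c e z, fun z hz => ?_, ?_, fun k hk z hz hf => ?_,
    fun k hk I h1 h2 h3 => ?_⟩
  · obtain ⟨e, he, h⟩ := hex z hz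
    exact (c1 e he z h).1
  · rw [sum_comm]
    have : ∀ m ≤ K, ∑ e ∈ range m, ∑ z, c e z ≤ (II ρ κ Z D m).card := by
      intro m
      induction m with
      | zero => simp
      | succ m ih =>
        intro hm
        rw [sum_range_succ]
        have := card_sdiff_add_card_eq_card (II_mono (ρ := ρ) (κ := κ) (Z := Z) D (Nat.le_succ m))
        have := c2 m hm
        have := ih (by omega)
        simp only [Nat.succ_eq_add_one] at *
        omega
    exact this K le_rfl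
  · obtain ⟨e, he, h⟩ := hex z hz
    obtain ⟨J', j1, j2, j3⟩ := hf
    simp only [huniq e he z h] at j2
    by_cases hek : k < e
    · refine absurd (Rk.cl_mono (union_subset_union ?_ subset_rfl) j3)
        (c3 e he (by omega) z h J' j1 j2)
      exact (Rk.subset_cl _).trans (hN k e hek)
    · refine Rk.cl_mono (union_subset_union (hZ (by omega)) (II_mono D (by omega)))
        (c1 e he z h).2.1
  · have hI : Z k ∪ II ρ κ Z D k ∪ (I \ II ρ κ Z D k) = Z k ∪ I := by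
      rw [union_assoc, union_sdiff_of_subset h1]
    have h4 := c4 k hk (I \ II ρ κ Z D k) (empty_subset _) (sdiff_subset_sdiff h2 subset_rfl) (by
      intro z hz hf
      obtain ⟨J', j1, j2, j3⟩ := hf
      rw [hI] at j3 ⊢
      refine h3 z (by simpa only [huniq k hk z hz] using hz) ⟨J', j1.trans sdiff_subset, ?_, j3⟩
      simpa only [huniq k hk z hz] using j2)
    intro x hx
    by_cases hx' : x ∈ II ρ κ Z D k
    · exact h1 hx'
    · exact (mem_sdiff.1 (h4 (mem_sdiff.2 ⟨hx, hx'⟩))).1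

end Code

open Code in
theorem codeStmt : CodeStmt α := by
  intro ρ κ hκ Y hY K
  have hY' : Antitone Y := antitone_nat_of_succ_le hY
  have hZ : Monotone (fun k => Y (K - 1 - k)) := fun a b hab => hY' (by omega)
  choose c c1 c2 c3 c4 using enc (ρ := ρ) hκ hZ K
  refine ⟨fun D => (II ρ κ (fun k => Y (K - 1 - k)) D K, c D), fun D => ⟨?_, ?_, c1 D, c2 D⟩,
    fun D D' h d hd => ?_⟩
  · exact (II_sub hZ D K).1.trans inter_subset_left
  · exact (II_card hκ hZ D K).trans (card_le_card inter_subset_left)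
  · obtain ⟨h1, h2⟩ := Prod.ext_iff.1 h
    simp only at h1 h2
    have key : ∀ k ≤ K, II ρ κ (fun k => Y (K - 1 - k)) D k =
        II ρ κ (fun k => Y (K - 1 - k)) D' k := by
      intro k
      induction k with
      | zero => intro _; rfl
      | succ k ih =>
        intro hk
        have e := ih (by omega)
        refine Subset.antisymm (c4 D k hk _ (e ▸ II_mono D' (Nat.le_succ k))
          (h1 ▸ II_mono D' hk) ?_) (c4 D' k hk _ (e ▸ II_mono D (Nat.le_succ k))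
          (h1 ▸ II_mono D hk) ?_)
        · rw [h1, h2]; exact c3 D' k hk
        · rw [← h1, ← h2]; exact c3 D k hk
    have e1 := Ex_eq (ρ := ρ) hκ hZ D (K - 1 - d)
    have e2 := Ex_eq (ρ := ρ) hκ hZ D' (K - 1 - d)
    have e3 : K - 1 - (K - 1 - d) = d := by omega
    simp only [e3] at e1 e2
    rw [e1, e2, key _ (by omega)]

end Vale.Agent.P331
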