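import Mathlib
import Vale.Agent.P331.Spec

open Finset
open Classical

namespace Vale.Agent.P331

variable {α : Type} [Fintype α] [DecidableEq α]

namespace CoreAux

omit [DecidableEq α] in
lemma exists_range (lv : α → Option ℤ) :
    ∃ (m : ℤ) (N : ℕ), ∀ x j, lv x = some j → m ≤ j ∧ j < m + N := by
  refine ⟨-((univ.sup fun x => ((lv x).getD 0).natAbs : ℕ) : ℤ),
    2 * (univ.sup fun x => ((lv x).getD 0).natAbs) + 1, fun x j h => ?_⟩
  have h1 : ((lv x).getD 0).natAbs ≤ univ.sup fun x => ((lv x).getD 0).natAbs :=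
    le_sup (f := fun x => ((lv x).getD 0).natAbs) (mem_univ x)
  rw [h] at h1
  simp only [Option.getD_some] at h1
  generalize (univ.sup fun x => ((lv x).getD 0).natAbs) = b at h1 ⊢
  push_cast
  omega

omit [Fintype α] [DecidableEq α] in
lemma sum_wt (lv : α → Option ℤ) (m : ℤ) (N : ℕ)
    (h : ∀ x j, lv x = some j → m ≤ j ∧ j < m + N) (A : Finset α) :
    ∑ x ∈ A, wt (lv x) =
      ∑ k ∈ range N, (1000000000 : ℝ) ^ (m + k) * ((lev lv A (m + k)).card : ℝ) := by
  have h1 : ∀ k : ℕ, (1000000000 : ℝ) ^ (m + k) * ((lev lv A (m + k)).card : ℝ) =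
      ∑ x ∈ A, (if lv x = some (m + k) then (1000000000 : ℝ) ^ (m + k) else 0) := by
    intro k
    rw [← sum_filter, sum_const, nsmul_eq_mul, mul_comm]
    rfl
  rw [sum_congr rfl fun k _ => h1 k, sum_comm]
  refine sum_congr rfl fun x _ => ?_
  cases hx : lv x with
  | none => simp [wt]
  | some j =>
    obtain ⟨h2, h3⟩ := h x j hx
    rw [sum_eq_single (j - m).toNat]
    · have : m + ((j - m).toNat : ℤ) = j := by omega
      rw [this, if_pos rfl]
      rfl
    · intro k _ hk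
      rw [if_neg]
      intro he
      have := Option.some_injective _ he
      omega
    · intro hk
      exact absurd (mem_range.2 (by omega)) hk

lemma r_above (ρ : Rk α) (lv : α → Option ℤ) (g : ℤ) :
    ρ.r (above lv g) ≤ ρ.r (lev lv univ g) + ρ.r (above lv (g + 1)) := by
  refine le_trans (ρ.mono fun x hx => ?_) (Rk.r_union_le _ _)
  unfold above lev at *
  simp only [mem_filter, mem_univ, true_and, mem_union] at hx ⊢
  obtain ⟨j, h1, h2⟩ := hx
  rcases eq_or_lt_of_le h1 with h | h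
  · left; rw [h]; exact h2
  · right; exact ⟨j, h, h2⟩

lemma lev_le (ρ : Rk α) (lv : α → Option ℤ) (g : ℤ) (I : Finset α) (hI : ρ.r I = I.card) :
    (lev lv I g).card ≤ ρ.r (above lv g) := by
  have h1 : ρ.r (∅ ∪ I) = ρ.r ∅ + I.card := by simp [ρ.r_empty, hI]
  have h2 := Rk.indep_mono (ρ := ρ) h1 (subset_refl ∅)
    (show lev lv I g ⊆ I from filter_subset _ _)
  simp only [empty_union, ρ.r_empty, zero_add] at h2
  rw [← h2]
  refine ρ.mono fun x hx => ?_
  unfold above
  exact mem_filter.2 ⟨mem_univ _, g, le_rfl, (mem_filter.1 hx).2⟩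

lemma shift (R : ℕ → ℝ) (hR : ∀ k, 0 ≤ R k) (m : ℤ) (N : ℕ) (hN : R N = 0) :
    1000000000 * ∑ k ∈ range N, (1000000000 : ℝ) ^ (m + k) * R (k + 1) ≤
      ∑ k ∈ range N, (1000000000 : ℝ) ^ (m + k) * R k := by
  have h1 := sum_range_succ' (fun k : ℕ => (1000000000 : ℝ) ^ (m + k) * R k) N
  have h2 := sum_range_succ (fun k : ℕ => (1000000000 : ℝ) ^ (m + k) * R k) N
  rw [hN, mul_zero, add_zero] at h2
  have h3 : 1000000000 * ∑ k ∈ range N, (1000000000 : ℝ) ^ (m + k) * R (k + 1) =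
      ∑ k ∈ range N, (1000000000 : ℝ) ^ (m + ((k + 1 : ℕ) : ℤ)) * R (k + 1) := by
    rw [mul_sum]
    refine sum_congr rfl fun k _ => ?_
    push_cast
    rw [← add_assoc, zpow_add_one₀ (by norm_num)]
    ring
  have h4 : 0 ≤ (1000000000 : ℝ) ^ (m + ((0 : ℕ) : ℤ)) * R 0 :=
    mul_nonneg (by positivity) (hR 0)
  rw [h3]
  linarith

end CoreAux

open CoreAux in
theorem coreStmt (hG : ClassStmt α) : CoreStmt α := by
  intro γ _ _ PC PT hd h1 h2 h3 ρ lv π hπ I hI
  obtain ⟨m, N, hmN⟩ := exists_range lv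
  set R : ℕ → ℝ := fun k => (ρ.r (above lv (m + k)) : ℝ) with hR
  have hR0 : ∀ k, 0 ≤ R k := fun k => by positivity
  have hRN : R N = 0 := by
    have : above lv (m + N) = ∅ := by
      unfold above
      refine filter_eq_empty_iff.2 fun x _ => ?_
      rintro ⟨j, hj, hx⟩
      have := (hmN x j hx).2
      omega
    simp only [hR, this, ρ.r_empty, Nat.cast_zero]
  have hsh := shift R hR0 m N hRN
  have hL : ∀ k : ℕ, 0 < (1000000000 : ℝ) ^ (m + k) := fun k => by positivity
  have hP : (0 : ℝ) ≤ (PT.card : ℝ) * Fintype.card (Seed α γ) := by positivity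
  have hI' : ∑ x ∈ I, wt (lv x) ≤ ∑ k ∈ range N, (1000000000 : ℝ) ^ (m + k) * R k := by
    rw [sum_wt lv m N hmN]
    refine sum_le_sum fun k _ => mul_le_mul_of_nonneg_left ?_ (hL k).le
    simp only [hR]
    exact_mod_cast lev_le ρ lv (m + k) I hI
  have hS0 : 0 ≤ ∑ k ∈ range N, (1000000000 : ℝ) ^ (m + k) * R k :=
    sum_nonneg fun k _ => mul_nonneg (hL k).le (hR0 k)
  have hlow : (∑ x ∈ I, wt (lv x)) / 800000000 ≤ ∑ k ∈ range N, (1000000000 : ℝ) ^ (m + k) *
      ((ρ.r (lev lv univ (m + k)) : ℝ) / 400000000 - ρ.r (above lv (m + k + 1))) := by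
    have a1 : ∑ k ∈ range N, ((1000000000 : ℝ) ^ (m + k) * R k / 400000000 -
        (1 + 1 / 400000000) * ((1000000000 : ℝ) ^ (m + k) * R (k + 1))) ≤
        ∑ k ∈ range N, (1000000000 : ℝ) ^ (m + k) *
          ((ρ.r (lev lv univ (m + k)) : ℝ) / 400000000 - ρ.r (above lv (m + k + 1))) := by
      refine sum_le_sum fun k _ => ?_
      have b1 : R k ≤ (ρ.r (lev lv univ (m + k)) : ℝ) + ρ.r (above lv (m + k + 1)) := by
        simp only [hR]
        exact_mod_cast r_above ρ lv (m + k)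
      have b2 : R (k + 1) = ρ.r (above lv (m + k + 1)) := by
        simp only [hR]
        push_cast
        rw [add_assoc]
      rw [b2]
      have b3 := mul_le_mul_of_nonneg_left b1 (hL k).le
      linarith
    rw [sum_sub_distrib, ← sum_div, ← mul_sum] at a1
    linarith
  calc _ ≤ (PT.card : ℝ) * Fintype.card (Seed α γ) * ∑ k ∈ range N, (1000000000 : ℝ) ^ (m + k) *
      ((ρ.r (lev lv univ (m + k)) : ℝ) / 400000000 - ρ.r (above lv (m + k + 1))) :=
        mul_le_mul_of_nonneg_left hlow hP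
    _ = ∑ k ∈ range N, (1000000000 : ℝ) ^ (m + k) * ((PT.card : ℝ) * Fintype.card (Seed α γ) *
      ((ρ.r (lev lv univ (m + k)) : ℝ) / 400000000 - ρ.r (above lv (m + k + 1)))) := by
        rw [mul_sum]
        exact sum_congr rfl fun k _ => by ring
    _ ≤ ∑ k ∈ range N, (1000000000 : ℝ) ^ (m + k) * ((Fintype.card γ : ℝ) * ∑ s : Seed α γ,
        ((lev lv (accS ρ 3000000 PC PT lv s (π s)) (m + k)).card : ℝ)) :=
        sum_le_sum fun k _ => mul_le_mul_of_nonneg_left
          (hG γ PC PT hd h1 h2 h3 ρ lv (m + k) π hπ) (hL k).le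
    _ = _ := by
        rw [sum_congr rfl fun s _ => sum_wt lv m N hmN (accS ρ 3000000 PC PT lv s (π s)),
          sum_comm, mul_sum]
        refine sum_congr rfl fun k _ => ?_
        rw [← mul_sum]
        ring

end Vale.Agent.P331
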