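import Mathlib
import Vale.Agent.P331.Spec

open Finset
open Classical

namespace Vale.Agent.P331

variable {α : Type} [Fintype α] [DecidableEq α]

namespace Enc

lemma card_image_le_of_factor {A B C : Type} [DecidableEq B] [DecidableEq C] (s : Finset A)
    (f : A → B) (c : A → C) (a0 : A) (h : ∀ x y, c x = c y → f x = f y) :
    (s.image f).card ≤ (s.image c).card := by
  let g : C → B := fun z => if H : ∃ x, c x = z then f H.choose else f a0
  have hg : ∀ x, g (c x) = f x := by
    intro x
    have H : ∃ y, c y = c x := ⟨x, rfl⟩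
    simp only [g, dif_pos H]
    exact h _ _ H.choose_spec
  have : s.image f = (s.image c).image g := by
    rw [image_image]
    exact image_congr fun x _ => (hg x).symm
  rw [this]
  exact card_image_le

lemma geom_two {a : ℝ} (h0 : 0 < a) (h1 : a ≤ 1 / 2) (N : ℕ) : ∑ k ∈ range N, a ^ k ≤ 2 := by
  induction N with
  | zero => simp
  | succ N ih =>
    rw [geom_sum_succ]
    have : a * ∑ k ∈ range N, a ^ k ≤ 1 / 2 * 2 :=
      mul_le_mul h1 ih (sum_nonneg fun k _ => by positivity) (by norm_num)
    linarith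

lemma geom_exp {a : ℝ} (h0 : 0 < a) (h1 : a ≤ 1 / 2) (N : ℕ) :
    ∑ k ∈ range (N + 1), a ^ k ≤ Real.exp (2 * a) := by
  rw [geom_sum_succ]
  have h2 := mul_le_mul_of_nonneg_left (geom_two h0 h1 N) h0.le
  have h3 := Real.add_one_le_exp (2 * a)
  linarith

omit [Fintype α] [DecidableEq α] in
lemma sum_pow_card (U : Finset α) {a : ℝ} (h0 : 0 < a) :
    ∑ S ∈ U.powerset, a ^ S.card ≤ Real.exp (U.card * a) := by
  have h1 : ∑ S ∈ U.powerset, a ^ S.card = ∏ _x ∈ U, (1 + a) := by
    rw [prod_one_add]
    exact sum_congr rfl fun S _ => by rw [prod_const]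
  rw [h1, prod_const, Real.exp_nat_mul]
  refine pow_le_pow_left₀ (by positivity) ?_ _
  have := Real.add_one_le_exp a
  linarith

lemma sum_pow_fun (U : Finset α) {a : ℝ} (h0 : 0 < a) (h1 : a ≤ 1 / 2) (n : ℕ) :
    ∑ c ∈ Fintype.piFinset (fun x : α => if x ∈ U then range (n + 1) else {0}),
      a ^ (∑ x, c x) ≤ Real.exp (U.card * (2 * a)) := by
  have h2 : ∑ c ∈ Fintype.piFinset (fun x : α => if x ∈ U then range (n + 1) else {0}),
      a ^ (∑ x, c x) = ∏ x : α, ∑ k ∈ (if x ∈ U then range (n + 1) else {0}), a ^ k := by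
    rw [prod_univ_sum]
    exact sum_congr rfl fun c _ => by rw [prod_pow_eq_pow_sum]
  rw [h2, Real.exp_nat_mul]
  calc _ ≤ ∏ x : α, (if x ∈ U then Real.exp (2 * a) else 1) := by
        refine prod_le_prod (fun x _ => sum_nonneg fun k _ => by positivity) fun x _ => ?_
        by_cases hx : x ∈ U
        · simp only [if_pos hx]; exact geom_exp h0 h1 n
        · simp [hx]
    _ = _ := by
        rw [← prod_filter, prod_const]
        congr 2
        ext x; simp

end Enc

open Enc in
theorem encStmt (hC : CodeStmt α) : EncStmt α := by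
  intro ρ κ hκ Y hY K U a h0 h1
  obtain ⟨code, hc1, hc2⟩ := hC ρ κ hκ Y hY K
  have hle : (U.powerset.image (fun D => fun d : Fin K => ρ.Ex κ D (Y d))).card ≤
      (U.powerset.image code).card :=
    card_image_le_of_factor _ _ _ ∅ fun D D' h => funext fun d => hc2 D D' h d d.2
  set T := U.powerset.image code with hT
  set n := U.card with hn
  have hκ' : (0 : ℝ) < κ := by exact_mod_cast hκ
  have hlog : 0 ≤ Real.log (1 / a) := Real.log_nonneg (by rw [le_div_iff₀ h0]; linarith)
  set E := Real.exp (-(n * (2 * Real.log (1 / a) / κ))) with hE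
  have hsub : T ⊆ U.powerset ×ˢ
      Fintype.piFinset (fun x : α => if x ∈ U then range (n + 1) else {0}) := by
    intro z hz
    obtain ⟨D, hD, rfl⟩ := mem_image.1 hz
    have hDU := mem_powerset.1 hD
    obtain ⟨a1, a2, a3, a4⟩ := hc1 D
    refine mem_product.2 ⟨mem_powerset.2 (a1.trans hDU), Fintype.mem_piFinset.2 fun x => ?_⟩
    by_cases hx : x ∈ U
    · rw [if_pos hx, mem_range]
      have b1 : (code D).2 x ≤ ∑ y, (code D).2 y :=
        single_le_sum (f := (code D).2) (fun y _ => Nat.zero_le _) (mem_univ x)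
      have b2 : (code D).1.card ≤ n := card_le_card (a1.trans hDU)
      omega
    · rw [if_neg hx, mem_singleton]
      by_contra hne
      exact hx (hDU (a3 x hne))
  have hw : ∀ z ∈ T, E ≤ a ^ z.1.card * a ^ (∑ x, z.2 x) := by
    intro z hz
    obtain ⟨D, hD, rfl⟩ := mem_image.1 hz
    have hDU := mem_powerset.1 hD
    obtain ⟨a1, a2, a3, a4⟩ := hc1 D
    rw [← pow_add]
    set m := (code D).1.card + ∑ x, (code D).2 x with hm
    have b1 : κ * m ≤ 2 * n := by
      have b2 : D.card ≤ n := card_le_card hDU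
      have b3 : κ * m ≤ κ * (2 * (code D).1.card) := Nat.mul_le_mul_left _ (by omega)
      nlinarith
    have b4 : (m : ℝ) ≤ 2 * n / κ := by
      rw [le_div_iff₀ hκ']
      have : ((κ * m : ℕ) : ℝ) ≤ ((2 * n : ℕ) : ℝ) := by exact_mod_cast b1
      push_cast at this
      linarith
    have b5 : a ^ m = Real.exp (-(m * Real.log (1 / a))) := by
      rw [one_div, Real.log_inv, mul_neg, neg_neg, Real.exp_nat_mul, Real.exp_log h0]
    rw [b5, hE]
    refine Real.exp_le_exp.2 (neg_le_neg ?_)
    calc (m : ℝ) * Real.log (1 / a) ≤ 2 * n / κ * Real.log (1 / a) :=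
          mul_le_mul_of_nonneg_right b4 hlog
      _ = _ := by ring
  have hmain : (T.card : ℝ) * E ≤ Real.exp (n * a) * Real.exp (n * (2 * a)) := by
    calc (T.card : ℝ) * E = ∑ _z ∈ T, E := by rw [sum_const, nsmul_eq_mul]
      _ ≤ ∑ z ∈ T, a ^ z.1.card * a ^ (∑ x, z.2 x) := sum_le_sum hw
      _ ≤ ∑ z ∈ U.powerset ×ˢ
            Fintype.piFinset (fun x : α => if x ∈ U then range (n + 1) else {0}),
            a ^ z.1.card * a ^ (∑ x, z.2 x) :=
          sum_le_sum_of_subset_of_nonneg hsub fun z _ _ => by positivity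
      _ = (∑ S ∈ U.powerset, a ^ S.card) *
            ∑ c ∈ Fintype.piFinset (fun x : α => if x ∈ U then range (n + 1) else {0}),
              a ^ (∑ x, c x) := by
          rw [sum_mul_sum, sum_product]
      _ ≤ _ := mul_le_mul (sum_pow_card U h0) (sum_pow_fun U h0 h1 n)
          (sum_nonneg fun c _ => by positivity) (Real.exp_pos _).le
  have hfin : (T.card : ℝ) ≤ Real.exp (n * (3 * a + 2 * Real.log (1 / a) / κ)) := by
    have hEpos : 0 < E := Real.exp_pos _
    have : Real.exp (n * a) * Real.exp (n * (2 * a)) =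
        Real.exp (n * (3 * a + 2 * Real.log (1 / a) / κ)) * E := by
      rw [hE, ← Real.exp_add, ← Real.exp_add]
      congr 1
      ring
    rw [this] at hmain
    exact le_of_mul_le_mul_right hmain hEpos
  exact le_trans (by exact_mod_cast hle) hfin

end Vale.Agent.P331
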