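import Vale.Agent.P331.Spec

/-! P331, module N: the unseen half carries rank. -/

open Finset
open Classical

namespace Vale.Agent.P331

variable {α : Type} [Fintype α] [DecidableEq α]

namespace Ent

lemma split_sum {U Z : Finset α} (hZ : Z ⊆ U) :
    ∑ b : α → Bool, (3 / 2 : ℝ) ^ (Z \ Ds U b).card * (1 / 2 : ℝ) ^ (Z ∩ Ds U b).card =
      Fintype.card (α → Bool) := by
  have e : ∀ b : α → Bool, (3 / 2 : ℝ) ^ (Z \ Ds U b).card * (1 / 2 : ℝ) ^ (Z ∩ Ds U b).card =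
      ∏ x, (if x ∈ Z then (if b x = true then (1 / 2 : ℝ) else 3 / 2) else 1) := by
    intro b
    have h1 : Z \ Ds U b = Z.filter (fun x => ¬ b x = true) := by
      ext x
      simp only [Ds, mem_sdiff, mem_filter, not_and]
      exact ⟨fun h => ⟨h.1, h.2 (hZ h.1)⟩, fun h => ⟨h.1, fun _ => h.2⟩⟩
    have h2 : Z ∩ Ds U b = Z.filter (fun x => b x = true) := by
      ext x
      simp only [Ds, mem_inter, mem_filter]
      exact ⟨fun h => ⟨h.1, h.2.2⟩, fun h => ⟨h.1, hZ h.1, h.2⟩⟩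
    rw [Finset.prod_ite_mem, univ_inter, Finset.prod_ite, prod_const, prod_const, h1, h2, mul_comm]
  have h := Finset.prod_univ_sum (fun _ : α => (univ : Finset Bool))
    (fun x t => if x ∈ Z then (if t = true then (1 / 2 : ℝ) else 3 / 2) else 1)
  rw [Fintype.piFinset_univ] at h
  rw [sum_congr rfl (fun b _ => e b), ← h]
  have h2 : ∀ x, ∑ t : Bool, (if x ∈ Z then (if t = true then (1 / 2 : ℝ) else 3 / 2) else 1) =
      2 := by
    intro x
    by_cases hx : x ∈ Z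
    · simp [hx]
      norm_num
    · simp [hx]
  rw [prod_congr rfl (fun x _ => h2 x)]
  simp

lemma gibbs {S : Type} (𝒮 : Finset S) (sz : S → ℕ) (Z : S → Finset α) (U : Finset α)
    (σ : (α → Bool) → S) (a Lm : ℝ) (ha : 0 < a) (hZ : ∀ s, Z s ⊆ U) (hσ : ∀ b, σ b ∈ 𝒮)
    (hM : ∑ s ∈ 𝒮, a ^ sz s ≤ Real.exp Lm) :
    ∑ b : α → Bool, ((1 / 3 : ℝ) * (Z (σ b) \ Ds U b).card - (Z (σ b) ∩ Ds U b).card -
      Real.log (1 / a) * sz (σ b)) ≤ ∑ _b : α → Bool, Lm := by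
  set X : S → (α → Bool) → ℝ := fun s b =>
    a ^ sz s * ((3 / 2 : ℝ) ^ (Z s \ Ds U b).card * (1 / 2 : ℝ) ^ (Z s ∩ Ds U b).card) with hX
  have hX0 : ∀ s b, 0 < X s b := fun s b => by positivity
  have h1 : ∑ b, X (σ b) b ≤ Fintype.card (α → Bool) * Real.exp Lm := by
    calc ∑ b, X (σ b) b ≤ ∑ b, ∑ s ∈ 𝒮, X s b :=
          sum_le_sum (fun b _ => single_le_sum (f := fun s => X s b)
            (fun s _ => (hX0 s b).le) (hσ b))
      _ = ∑ s ∈ 𝒮, a ^ sz s * Fintype.card (α → Bool) := by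
          rw [sum_comm]
          refine sum_congr rfl (fun s _ => ?_)
          rw [← split_sum (hZ s), mul_sum]
      _ ≤ _ := by
          rw [← sum_mul, mul_comm]
          exact mul_le_mul_of_nonneg_left hM (Nat.cast_nonneg _)
  have hl1 : (1 / 3 : ℝ) ≤ Real.log (3 / 2) := by
    have := Real.one_sub_inv_le_log_of_pos (show (0 : ℝ) < 3 / 2 by norm_num)
    linarith
  have hl2 : (-1 : ℝ) ≤ Real.log (1 / 2) := by
    have := Real.one_sub_inv_le_log_of_pos (show (0 : ℝ) < 1 / 2 by norm_num)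
    linarith
  have h2 : ∀ b, (1 / 3 : ℝ) * (Z (σ b) \ Ds U b).card - (Z (σ b) ∩ Ds U b).card -
      Real.log (1 / a) * sz (σ b) ≤ Lm + (X (σ b) b / Real.exp Lm - 1) := by
    intro b
    have h3 := Real.log_le_sub_one_of_pos (div_pos (hX0 (σ b) b) (Real.exp_pos Lm))
    rw [Real.log_div (hX0 _ _).ne' (Real.exp_pos _).ne', Real.log_exp] at h3
    have h4 : Real.log (X (σ b) b) = sz (σ b) * Real.log a +
        ((Z (σ b) \ Ds U b).card * Real.log (3 / 2) +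
          (Z (σ b) ∩ Ds U b).card * Real.log (1 / 2)) := by
      simp only [hX]
      rw [Real.log_mul (by positivity) (by positivity), Real.log_mul (by positivity) (by positivity),
        Real.log_pow, Real.log_pow, Real.log_pow]
    have h5 := mul_le_mul_of_nonneg_left hl1 (Nat.cast_nonneg (α := ℝ) (Z (σ b) \ Ds U b).card)
    have h6 := mul_le_mul_of_nonneg_left hl2 (Nat.cast_nonneg (α := ℝ) (Z (σ b) ∩ Ds U b).card)
    rw [one_div a, Real.log_inv]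
    linarith
  refine (sum_le_sum (fun b _ => h2 b)).trans ?_
  rw [sum_add_distrib, sum_sub_distrib, ← sum_div]
  have h3 : (∑ b, X (σ b) b) / Real.exp Lm ≤ Fintype.card (α → Bool) := by
    rw [div_le_iff₀ (Real.exp_pos _)]
    exact h1
  simp only [sum_const, card_univ, nsmul_eq_mul, mul_one] at h3 ⊢
  linarith

abbrev Desc (α : Type) (K : ℕ) : Type :=
  (Fin K → Finset α) × (Fin K → Finset α) × (Fin K → Finset α) × Finset α

/-- the set decoded from a description -/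
noncomputable def ZZ (ρ : Rk α) (U : Finset α) {K : ℕ} (s : Desc α K) : Finset α :=
  univ.biUnion (fun j : Fin K => U.filter (fun x => x ∈ s.1 j ∧ x ∉ s.2.1 j ∧ x ∉ s.2.2.1 j ∧
    x ∈ ρ.cl (s.2.2.1 j ∪ s.2.2.2.filter (fun y => y ∈ s.1 j ∧ y ∉ s.2.1 j))))

lemma ZZ_sub (ρ : Rk α) (U : Finset α) {K : ℕ} (s : Desc α K) : ZZ ρ U s ⊆ U :=
  biUnion_subset.2 (fun _ _ => filter_subset _ _)

omit [Fintype α] [DecidableEq α] in
lemma wsum {K : ℕ} (A B C : Finset (Fin K → Finset α)) (U : Finset α) (a η : ℝ) (ha : 0 < a)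
    (hA : (A.card : ℝ) ≤ Real.exp η) (hB : (B.card : ℝ) ≤ Real.exp η)
    (hC : (C.card : ℝ) ≤ Real.exp η) :
    ∑ s ∈ A ×ˢ B ×ˢ C ×ˢ U.powerset, a ^ s.2.2.2.card ≤ Real.exp (3 * η + U.card * a) := by
  have h1 : ∑ S ∈ U.powerset, a ^ S.card ≤ Real.exp (U.card * a) := by
    have h2 := Finset.prod_one_add (f := fun _ : α => a) U
    simp only [prod_const] at h2
    rw [← h2, Real.exp_nat_mul]
    exact pow_le_pow_left₀ (by linarith) (by linarith [Real.add_one_le_exp a]) _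
  have h0 : 0 ≤ ∑ S ∈ U.powerset, a ^ S.card := sum_nonneg (fun _ _ => by positivity)
  simp only [sum_product, sum_const, nsmul_eq_mul]
  have e : Real.exp (3 * η + U.card * a) =
      Real.exp η * (Real.exp η * (Real.exp η * Real.exp (U.card * a))) := by
    rw [← Real.exp_add, ← Real.exp_add, ← Real.exp_add]
    congr 1
    ring
  rw [e]
  gcongr

/-- the pointwise estimate -/
lemma point (ρ : Rk α) (κ K : ℕ) (U D : Finset α) (P Q R J : Fin K → Finset α)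
    (hPQ : ∀ i j, j < i → P i ⊆ Q j)
    (hJ : ∀ j, ∀ x ∈ J j, x ∈ U ∧ x ∉ D ∧ x ∈ ρ.Ex κ D (P j) ∧ x ∉ ρ.Ex κ D (Q j) ∧
      x ∉ ρ.Ex κ D (R j)) :
    ∃ S ⊆ U, (S.card : ℝ) ≤ ∑ j, ((ρ.r (ρ.Ex κ D (R j) ∪ J j) : ℝ) - ρ.r (ρ.Ex κ D (R j))) ∧
      ∑ j, ((J j).card : ℝ) ≤ (ZZ ρ U (fun j => ρ.Ex κ D (P j), fun j => ρ.Ex κ D (Q j),
        fun j => ρ.Ex κ D (R j), S) \ D).card ∧
      ((ZZ ρ U (fun j => ρ.Ex κ D (P j), fun j => ρ.Ex κ D (Q j),
        fun j => ρ.Ex κ D (R j), S) ∩ D).card : ℝ) ≤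
        κ * ∑ j, ((ρ.r (ρ.Ex κ D (R j) ∪ J j) : ℝ) - ρ.r (ρ.Ex κ D (R j))) := by
  choose I hI hr hcl hre using fun j => Rk.exists_basis (ρ := ρ) (ρ.Ex κ D (R j)) (J j)
  have hΨ : ∑ j, ((ρ.r (ρ.Ex κ D (R j) ∪ J j) : ℝ) - ρ.r (ρ.Ex κ D (R j))) =
      ((∑ j, (I j).card : ℕ) : ℝ) := by
    push_cast
    refine sum_congr rfl (fun j _ => ?_)
    rw [← hre, hr]
    push_cast
    ring
  have hlay : ∀ i j x, x ∈ J i → x ∈ ρ.Ex κ D (P j) → x ∉ ρ.Ex κ D (Q j) → i = j := by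
    intro i j x hx h1 h2
    obtain ⟨-, -, h3, h4, -⟩ := hJ i x hx
    rcases lt_trichotomy i j with h | h | h
    · exact absurd (Rk.Ex_mono κ subset_rfl (hPQ j i h) h1) h4
    · exact h
    · exact absurd (Rk.Ex_mono κ subset_rfl (hPQ i j h) h3) h2
  have hfil : ∀ j, (univ.biUnion I).filter (fun y => y ∈ ρ.Ex κ D (P j) ∧ y ∉ ρ.Ex κ D (Q j)) =
      I j := by
    intro j
    ext y
    simp only [mem_filter, mem_biUnion, mem_univ, true_and]
    constructor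
    · rintro ⟨⟨i, hi⟩, h1, h2⟩
      rw [← hlay i j y (hI i hi) h1 h2]
      exact hi
    · intro hy
      obtain ⟨-, -, h3, h4, -⟩ := hJ j y (hI j hy)
      exact ⟨⟨j, hy⟩, h3, h4⟩
  refine ⟨univ.biUnion I, biUnion_subset.2 (fun j _ x hx => (hJ j x (hI j hx)).1), ?_, ?_, ?_⟩
  · rw [hΨ]
    exact_mod_cast card_biUnion_le
  · have h1 : (univ.biUnion J).card = ∑ j, (J j).card := by
      refine card_biUnion (fun i _ j _ hij => ?_)
      refine disjoint_left.2 (fun x hx hx' => hij ?_)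
      obtain ⟨-, -, h3, h4, -⟩ := hJ j x hx'
      exact hlay i j x hx h3 h4
    rw [← Nat.cast_sum, ← h1]
    refine Nat.cast_le.2 (card_le_card (biUnion_subset.2 (fun j _ x hx => ?_)))
    obtain ⟨h0, h2, h3, h4, h5⟩ := hJ j x hx
    refine mem_sdiff.2 ⟨mem_biUnion.2 ⟨j, mem_univ _, mem_filter.2 ⟨h0, h3, h4, h5, ?_⟩⟩, h2⟩
    simp only [hfil]
    exact hcl j hx
  · rw [hΨ, ← Nat.cast_mul, mul_sum]
    refine Nat.cast_le.2 ?_
    have h1 : ZZ ρ U (fun j => ρ.Ex κ D (P j), fun j => ρ.Ex κ D (Q j),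
        fun j => ρ.Ex κ D (R j), univ.biUnion I) ∩ D ⊆
        univ.biUnion (fun j => (D ∩ ρ.cl (ρ.Ex κ D (R j) ∪ I j)) \ ρ.Ex κ D (R j)) := by
      intro x hx
      obtain ⟨hx1, hx2⟩ := mem_inter.1 hx
      obtain ⟨j, -, hj⟩ := mem_biUnion.1 hx1
      obtain ⟨-, -, -, h5, h6⟩ := mem_filter.1 hj
      simp only [hfil] at h6
      exact mem_biUnion.2 ⟨j, mem_univ _, mem_sdiff.2 ⟨mem_inter.2 ⟨hx2, h6⟩, h5⟩⟩
    refine (card_le_card h1).trans (card_biUnion_le.trans (sum_le_sum (fun j _ => ?_)))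
    have h2 := Rk.Ex_closed (ρ := ρ) κ D (R j) (F := ρ.cl (ρ.Ex κ D (R j) ∪ I j))
      (subset_union_left.trans (Rk.subset_cl _))
    rw [Rk.r_cl, hr, mul_add] at h2
    omega

end Ent

theorem entStmt (hE : EncStmt α) : EntStmt α := by
  intro ρ κ hκ P Q R hP hQ hR hPQ K U a ha ha2 J hJ
  have hanti : Antitone P := antitone_nat_of_succ_le hP
  have hpt := fun b : α → Bool => Ent.point ρ κ K U (Ds U b) (fun j => P j) (fun j => Q j)
    (fun j => R j) (fun j => J b j)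
    (fun i j hij => (hanti (Nat.succ_le_of_lt hij)).trans (hPQ j)) (fun j x hx => by
      rw [hJ] at hx
      obtain ⟨h1, h2⟩ := mem_filter.1 hx
      obtain ⟨h3, h4⟩ := mem_filter.1 h1
      refine ⟨h3, fun h5 => ?_, h2⟩
      rw [(mem_filter.1 h5).2] at h4
      exact absurd h4 (by decide))
  choose S hSU h1 h2 h3 using hpt
  have hDU : ∀ b, Ds U b ∈ U.powerset := fun b => mem_powerset.2 (filter_subset _ _)
  have hex : ∀ Y : ℕ → Finset α, (∀ d, Y (d + 1) ⊆ Y d) → ∃ A : Finset (Fin K → Finset α),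
      (A.card : ℝ) ≤ Real.exp (U.card * (3 * a + 2 * Real.log (1 / a) / κ)) ∧
        ∀ b, (fun j : Fin K => ρ.Ex κ (Ds U b) (Y j)) ∈ A := fun Y hY =>
    ⟨_, hE ρ κ hκ Y hY K U a ha ha2, fun b => mem_image.2 ⟨Ds U b, hDU b, rfl⟩⟩
  obtain ⟨A, hA, hA'⟩ := hex P hP
  obtain ⟨B, hB, hB'⟩ := hex Q hQ
  obtain ⟨C, hC, hC'⟩ := hex R hR
  have hg := Ent.gibbs (A ×ˢ B ×ˢ C ×ˢ U.powerset) (fun s : Ent.Desc α K => s.2.2.2.card)
    (Ent.ZZ ρ U) U
    (fun b => (fun j => ρ.Ex κ (Ds U b) (P j), fun j => ρ.Ex κ (Ds U b) (Q j),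
      fun j => ρ.Ex κ (Ds U b) (R j), S b)) a _ ha (Ent.ZZ_sub ρ U)
    (fun b => mem_product.2 ⟨hA' b, mem_product.2 ⟨hB' b, mem_product.2 ⟨hC' b,
        mem_powerset.2 (hSU b)⟩⟩⟩) (Ent.wsum A B C U a _ ha hA hB hC)
  have hl : 0 ≤ Real.log (1 / a) := Real.log_nonneg (by rw [le_div_iff₀ ha]; linarith)
  rw [mul_sum, sum_add_distrib]
  have e : ∀ b : α → Bool, (U.card : ℝ) * (10 * a + 6 * Real.log (1 / a) / κ) =
      3 * (U.card * (3 * a + 2 * Real.log (1 / a) / κ)) + U.card * a := fun _ => by ring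
  rw [sum_congr rfl (fun b _ => e b), ← sub_le_iff_le_add, ← sum_sub_distrib]
  refine le_trans (sum_le_sum (fun b _ => ?_)) hg
  rw [sum_range, sum_range]
  have h4 := mul_le_mul_of_nonneg_left (h1 b) hl
  have h5 := h2 b
  have h6 := h3 b
  simp only at h4 h5 h6 ⊢
  linarith

end Vale.Agent.P331
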