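import Mathlib
import Vale.Agent.P331.Spec

open Finset MeasureTheory ProbabilityTheory
open scoped NNReal ENNReal
open Classical

namespace Vale.Agent.P331

variable {α : Type} [Fintype α] [DecidableEq α]

namespace FinW

lemma wt_le (w : ℝ≥0) : wt (lvl w) ≤ w := by
  unfold lvl
  split_ifs with h
  · simp [wt]
  · have : (0 : ℝ) < w := by exact_mod_cast pos_iff_ne_zero.2 h
    have := Int.zpow_log_le_self (R := ℝ) (b := 1000000000) (by norm_num) this
    simpa [wt] using this

lemma le_wt (w : ℝ≥0) : (w : ℝ) ≤ 1000000000 * wt (lvl w) := by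
  unfold lvl
  split_ifs with h
  · simp [wt, h]
  · have := Int.lt_zpow_succ_log_self (R := ℝ) (b := 1000000000) (by norm_num) (w : ℝ)
    rw [zpow_add_one₀ (by norm_num)] at this
    simp only [wt, Option.elim]
    push_cast at this
    linarith

lemma wt_nonneg (o : Option ℤ) : 0 ≤ wt o := by
  cases o with
  | none => simp [wt]
  | some g => simp only [wt, Option.elim]; positivity

lemma lvl_meas : @Measurable _ _ _ ⊤ lvl := by
  letI : MeasurableSpace (Option ℤ) := ⊤
  refine measurable_to_countable' fun o => ?_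
  cases o with
  | none =>
    have : lvl ⁻¹' {none} = {0} := by
      ext w; by_cases h : w = 0 <;> simp [lvl, h]
    rw [this]; exact measurableSet_singleton _
  | some g =>
    have : lvl ⁻¹' {some g} = (fun w : ℝ≥0 => (w : ℝ)) ⁻¹'
        Set.Ico ((1000000000 : ℝ) ^ g) ((1000000000 : ℝ) ^ (g + 1)) := by
      ext w
      by_cases h : w = 0
      · have : (0 : ℝ) < (1000000000 : ℝ) ^ g := by positivity
        simp [lvl, h, this]
      · have h0 : (0 : ℝ) < w := by exact_mod_cast pos_iff_ne_zero.2 h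
        have h1 := Int.zpow_le_iff_le_log (R := ℝ) (b := 1000000000) (by norm_num) (x := g) h0
        have h2 := Int.lt_zpow_iff_log_lt (R := ℝ) (b := 1000000000) (by norm_num) (x := g + 1) h0
        push_cast at h1 h2
        simp only [lvl, h, if_false, Set.mem_preimage, Set.mem_singleton_iff, Option.some.injEq,
          Set.mem_Ico, h1, h2]
        omega
    rw [this]
    exact measurableSet_Ico.preimage (by fun_prop)

lemma opt_meas (M : Matroid α) : Measurable (opt M) := by
  unfold opt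
  refine Measurable.iSup fun I => Measurable.iSup_Prop _ ?_
  fun_prop

lemma mix_pres (D : α → Measure ℝ≥0) [∀ e, IsProbabilityMeasure (D e)] (c : α → Prop) :
    MeasurePreserving (fun p : (α → ℝ≥0) × (α → ℝ≥0) => fun x => if c x then p.2 x else p.1 x)
      ((Measure.pi D).prod (Measure.pi D)) (Measure.pi D) := by
  have h2 : ∀ x, MeasurePreserving
      (fun y : ℝ≥0 × ℝ≥0 => if c x then y.2 else y.1) ((D x).prod (D x)) (D x) := by
    intro x
    by_cases h : c x
    · simpa [h] using measurePreserving_snd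
    · simpa [h] using measurePreserving_fst
  have h3 := measurePreserving_pi _ _ h2
  have h4 := measurePreserving_arrowProdEquivProdArrow ℝ≥0 ℝ≥0 α D D
  exact h3.comp h4.symm

end FinW

open FinW in
theorem finalStmt (hU : RuleStmt α) (hO : CoreStmt α) : FinalStmt α := by
  intro M
  obtain ⟨ρ, hρ, hR⟩ := hU M
  obtain ⟨K, hK⟩ : ∃ K : ℕ, K = 40400000000 := ⟨_, rfl⟩
  obtain ⟨Q, -, hQ⟩ := exists_subset_card_eq (s := (univ : Finset (Fin K))) (n := 102)
    (by simp [hK])
  obtain ⟨PT, hPT, hT⟩ := exists_subset_card_eq (s := Q) (n := 1) (by omega)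
  have hC : (Q \ PT).card = 101 := by rw [card_sdiff_of_subset hPT]; omega
  generalize hPC : Q \ PT = PC at hC
  have hd : Disjoint PC PT := hPC ▸ sdiff_disjoint
  obtain ⟨hrule, hacc⟩ := hR K PC PT hd 3000000 (by norm_num)
  haveI : NeZero K := ⟨by omega⟩
  letI : MeasurableSpace (Option ℤ) := ⊤
  haveI : DiscreteMeasurableSpace (Option ℤ) := ⟨fun _ => trivial⟩
  let μ : Measure (Seed α (Fin K)) := uniformOn Set.univ
  refine ⟨Seed α (Fin K), inferInstance, μ, inferInstance, decS ρ 3000000 PC PT, hrule, ?_⟩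
  intro D hD π hπ
  let F : (α → Option ℤ) → Seed α (Fin K) → List α → ℝ := fun lv s l =>
    ∑ x ∈ accS ρ 3000000 PC PT lv s l, wt (lv x)
  have hmin : ∀ lv s, ∃ l, IsOrder l ∧ ∀ l', IsOrder l' → F lv s l ≤ F lv s l' := by
    intro lv s
    obtain ⟨A, hA, hA'⟩ := exists_min_image (univ.filter fun A : Finset α =>
      ∃ l, IsOrder l ∧ accS ρ 3000000 PC PT lv s l = A) (fun A => ∑ x ∈ A, wt (lv x))
      ⟨_, mem_filter.2 ⟨mem_univ _, univ.toList, ⟨nodup_toList _, by simp⟩, rfl⟩⟩
    obtain ⟨l, hl, rfl⟩ := (mem_filter.1 hA).2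
    exact ⟨l, hl, fun l' hl' => hA' _ (mem_filter.2 ⟨mem_univ _, l', hl', rfl⟩)⟩
  choose pm hpm1 hpm2 using hmin
  let wg : (α → Option ℤ) → Seed α (Fin K) → ℝ≥0∞ := fun lv s => ENNReal.ofReal (F lv s (pm lv s))
  have hF : ∀ lv s l, 0 ≤ F lv s l := fun lv s l => sum_nonneg fun x _ => wt_nonneg _
  have hlv : Measurable fun (v : α → ℝ≥0) x => lvl (v x) :=
    measurable_pi_lambda _ fun x => lvl_meas.comp (measurable_pi_apply x)
  have hw : ∀ s, Measurable fun v : α → ℝ≥0 => wg (fun x => lvl (v x)) s := fun s =>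
    (Measurable.of_discrete (f := fun lv => wg lv s)).comp hlv
  have hmp : ∀ s : Seed α (Fin K), MeasurePreserving
      (fun p : (α → ℝ≥0) × (α → ℝ≥0) => mixW PT s p.1 p.2)
      ((Measure.pi D).prod (Measure.pi D)) (Measure.pi D) := by
    intro s
    convert mix_pres D (fun x => s.1 x = false ∧ s.2.1 x = false ∧ s.2.2.1 x ∈ PT) using 3
    simp only [mixW]
    congr
  have stepA : ∀ z : Input α (Seed α (Fin K)),
      wg (fun x => lvl (mixW PT z.2 z.1.1 z.1.2 x)) z.2 ≤ gain (decS ρ 3000000 PC PT) (π z) z := by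
    intro z
    obtain ⟨h1, h2⟩ := hacc (π z) (hπ.1 z).1 z
    refine (ENNReal.ofReal_le_ofReal (hpm2 _ _ _ (hπ.1 z))).trans ?_
    unfold gain
    rw [h1, ENNReal.ofReal_sum_of_nonneg fun x _ => wt_nonneg _]
    simp only [Set.indicator, mem_coe]
    rw [sum_ite_mem, univ_inter]
    refine sum_le_sum fun x hx => ?_
    rw [h2 x hx, ← ENNReal.ofReal_coe_nnreal]
    exact ENNReal.ofReal_le_ofReal (wt_le _)
  have stepC : ∀ v : α → ℝ≥0, ((1 / 10 ^ 29 : ℝ≥0) : ℝ≥0∞) * opt M v ≤
      ∑ s, wg (fun x => lvl (v x)) s * μ {s} := by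
    intro v
    unfold opt
    simp only [ENNReal.mul_iSup]
    refine iSup₂_le fun I hI => ?_
    have h1 := hO (Fin K) PC PT hd (by omega) (by omega) (by simp [hC, hK]) ρ
      (fun x => lvl (v x)) (pm fun x => lvl (v x)) (fun s => (hpm1 _ s).2) I ((hρ I).2 hI)
    have hn : (0 : ℝ) < Fintype.card (Seed α (Fin K)) := by exact_mod_cast Fintype.card_pos
    have hμ : ∀ s, μ {s} = ENNReal.ofReal (1 / Fintype.card (Seed α (Fin K))) := by
      intro s
      rw [ENNReal.ofReal_div_of_pos hn]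
      simp [μ, uniformOn_univ]
    simp only [hμ, wg]
    rw [← sum_mul, ← ENNReal.ofReal_sum_of_nonneg fun s _ => hF _ _ _,
      ← ENNReal.ofReal_mul (sum_nonneg fun s _ => hF _ _ _), ← ENNReal.coe_finset_sum,
      ← ENNReal.coe_mul, ← ENNReal.ofReal_coe_nnreal]
    refine ENNReal.ofReal_le_ofReal ?_
    have h2 : ∑ x ∈ I, (v x : ℝ) ≤ 1000000000 * ∑ x ∈ I, wt (lvl (v x)) := by
      rw [mul_sum]; exact sum_le_sum fun x _ => le_wt _
    have h3 : 0 ≤ ∑ s, F (fun x => lvl (v x)) s (pm (fun x => lvl (v x)) s) :=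
      sum_nonneg fun s _ => hF _ _ _
    rw [hT, Fintype.card_fin] at h1
    change _ ≤ _ * ∑ s, F (fun x => lvl (v x)) s (pm (fun x => lvl (v x)) s) at h1
    push_cast
    rw [mul_one_div, le_div_iff₀ hn]
    have hK' : (K : ℝ) = 40400000000 := by exact_mod_cast hK
    rw [hK'] at h1
    have h4 := mul_le_mul_of_nonneg_right h2 hn.le
    push_cast at h1
    nlinarith
  have hsnd : MeasurePreserving (fun z : Input α (Seed α (Fin K)) => z.1.2) (inputLaw D μ)
      (Measure.pi D) := measurePreserving_snd.comp measurePreserving_fst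
  calc _ = ∫⁻ v, ((1 / 10 ^ 29 : ℝ≥0) : ℝ≥0∞) * opt M v ∂(Measure.pi D) := by
        rw [lintegral_const_mul _ (opt_meas M), hsnd.lintegral_comp (opt_meas M)]
    _ ≤ ∫⁻ v, ∑ s, wg (fun x => lvl (v x)) s * μ {s} ∂(Measure.pi D) := lintegral_mono stepC
    _ = ∑ s, (∫⁻ v, wg (fun x => lvl (v x)) s ∂(Measure.pi D)) * μ {s} := by
        rw [lintegral_finsetSum _ fun s _ => (hw s).mul_const _]
        exact sum_congr rfl fun s _ => lintegral_mul_const _ (hw s)
    _ = ∫⁻ z, wg (fun x => lvl (mixW PT z.2 z.1.1 z.1.2 x)) z.2 ∂(inputLaw D μ) := by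
        unfold inputLaw
        rw [lintegral_prod_symm' _ (measurable_from_prod_countable_left fun s =>
          (hw s).comp (hmp s).measurable), lintegral_fintype]
        exact sum_congr rfl fun s _ => by rw [← (hmp s).lintegral_comp (hw s)]
    _ ≤ _ := lintegral_mono stepA

end Vale.Agent.P331
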