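import Mathlib
import Vale.Agent.P331.Defs

open scoped NNReal ENNReal
open Classical

namespace Vale.Agent.P331

variable {α : Type} [Fintype α] [DecidableEq α]

/-- strict priority: larger value first, ties broken by a fixed enumeration -/
def Above (w : α → ℝ≥0) (x e : α) : Prop :=
  w e < w x ∨ (w x = w e ∧ Fintype.equivFin α x < Fintype.equivFin α e)

omit [DecidableEq α] in
lemma above_irrefl (w : α → ℝ≥0) (x : α) : ¬ Above w x x := by
  rintro (h | ⟨_, h⟩) <;> exact lt_irrefl _ h

omit [DecidableEq α] in
lemma above_trans {w : α → ℝ≥0} {x y z : α} (h1 : Above w x y) (h2 : Above w y z) :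
    Above w x z := by
  rcases h1 with h1 | ⟨h1, h1'⟩ <;> rcases h2 with h2 | ⟨h2, h2'⟩
  · exact Or.inl (h2.trans h1)
  · exact Or.inl (h2 ▸ h1)
  · exact Or.inl (h1 ▸ h2)
  · exact Or.inr ⟨h1.trans h2, h1'.trans h2'⟩

omit [DecidableEq α] in
lemma above_total (w : α → ℝ≥0) {x y : α} (h : x ≠ y) : Above w x y ∨ Above w y x := by
  rcases lt_trichotomy (w x) (w y) with h1 | h1 | h1
  · exact Or.inr (Or.inl h1)
  · rcases lt_trichotomy (Fintype.equivFin α x) (Fintype.equivFin α y) with h2 | h2 | h2
    · exact Or.inl (Or.inr ⟨h1, h2⟩)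
    · exact absurd ((Fintype.equivFin α).injective h2) h
    · exact Or.inr (Or.inr ⟨h1.symm, h2⟩)
  · exact Or.inl (Or.inl h1)

omit [DecidableEq α] in
lemma above_le {w : α → ℝ≥0} {x y : α} (h : Above w x y) : w y ≤ w x := by
  rcases h with h | ⟨h, _⟩
  · exact h.le
  · exact h.ge

omit [DecidableEq α] in
lemma above_wf (w : α → ℝ≥0) : WellFounded (Above w) := by
  haveI : IsTrans α (Above w) := ⟨fun _ _ _ => above_trans⟩
  haveI : Std.Irrefl (Above w) := ⟨above_irrefl w⟩
  exact Finite.wellFounded_of_trans_of_irrefl _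

omit [DecidableEq α] in
lemma above_wf' (w : α → ℝ≥0) : WellFounded (fun x y => Above w y x) := by
  haveI : IsTrans α (fun x y => Above w y x) := ⟨fun _ _ _ h1 h2 => above_trans h2 h1⟩
  haveI : Std.Irrefl (fun x y => Above w y x) := ⟨above_irrefl w⟩
  exact Finite.wellFounded_of_trans_of_irrefl _

/-- the greedy base -/
noncomputable def greedy (M : Matroid α) (w : α → ℝ≥0) : Finset α :=
  Finset.univ.filter (fun e => e ∈ M.E ∧ e ∉ M.closure {x | Above w x e})

omit [DecidableEq α] in
lemma mem_greedy {M : Matroid α} {w : α → ℝ≥0} {e : α} :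
    e ∈ greedy M w ↔ e ∈ M.E ∧ e ∉ M.closure {x | Above w x e} := by
  simp [greedy]

omit [DecidableEq α] in
lemma mem_closure_greedy (M : Matroid α) (w : α → ℝ≥0) (e : α) (he : e ∈ M.E) :
    e ∈ M.closure ((greedy M w : Set α) ∩ {x | Above w x e ∨ x = e}) := by
  induction e using (above_wf w).induction with
  | _ e ih =>
    by_cases hg : e ∈ greedy M w
    · exact M.mem_closure_of_mem' ⟨by exact_mod_cast hg, Or.inr rfl⟩ he
    · have h1 : e ∈ M.closure {x | Above w x e} := by
        by_contra h
        exact hg (mem_greedy.2 ⟨he, h⟩)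
      rw [← M.closure_inter_ground] at h1
      refine M.closure_subset_closure_of_subset_closure ?_ h1
      rintro x ⟨hx, hxE⟩
      refine M.closure_subset_closure ?_ (ih x hx hxE)
      rintro y ⟨hy1, hy2⟩
      refine ⟨hy1, Or.inl ?_⟩
      rcases hy2 with hy2 | rfl
      · exact above_trans hy2 hx
      · exact hx

omit [DecidableEq α] in
lemma closure_above (M : Matroid α) (w : α → ℝ≥0) (e : α) :
    M.closure {x | Above w x e} ⊆ M.closure ((greedy M w : Set α) ∩ {x | Above w x e}) := by
  rw [← M.closure_inter_ground]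
  refine M.closure_subset_closure_of_subset_closure ?_
  rintro x ⟨hx, hxE⟩
  refine M.closure_subset_closure ?_ (mem_closure_greedy M w x hxE)
  rintro y ⟨hy1, hy2⟩
  refine ⟨hy1, ?_⟩
  rcases hy2 with hy2 | rfl
  · exact above_trans hy2 hx
  · exact hx

lemma greedy_indep (M : Matroid α) (w : α → ℝ≥0) : M.Indep (greedy M w : Set α) := by
  have key : ∀ n, ∀ S : Finset α, S.card = n → S ⊆ greedy M w → M.Indep (S : Set α) := by
    intro n
    induction n with
    | zero =>
      intro S hS _
      rw [Finset.card_eq_zero.1 hS]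
      simp
    | succ n ih =>
      intro S hS hsub
      have hne : (S : Set α).Nonempty := by
        have : S.Nonempty := Finset.card_pos.1 (by omega)
        exact_mod_cast this
      obtain ⟨e, heS, hmin⟩ := (above_wf' w).has_min (S : Set α) hne
      have heS' : e ∈ S := by exact_mod_cast heS
      have h1 : M.Indep ((S.erase e : Finset α) : Set α) :=
        ih _ (by rw [Finset.card_erase_of_mem heS']; omega) ((Finset.erase_subset _ _).trans hsub)
      have h2 : (S : Set α) = insert e ((S.erase e : Finset α) : Set α) := by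
        rw [← Finset.coe_insert, Finset.insert_erase heS']
      rw [h2]
      have hg := mem_greedy.1 (hsub heS')
      refine (h1.insert_indep_iff_of_notMem (by simp)).2 ⟨hg.1, fun hc => hg.2 ?_⟩
      refine M.closure_subset_closure ?_ hc
      intro x hx
      have hx' : x ∈ S.erase e := by exact_mod_cast hx
      obtain ⟨hxe, hxS⟩ := Finset.mem_erase.1 hx'
      rcases above_total w hxe with h | h
      · exact h
      · exact absurd h (hmin x (by exact_mod_cast hxS))
  exact key _ _ rfl subset_rfl

lemma greedy_isBase (M : Matroid α) (w : α → ℝ≥0) : M.IsBase (greedy M w : Set α) := by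
  refine (greedy_indep M w).isBase_of_ground_subset_closure ?_
  intro e he
  exact M.closure_subset_closure Set.inter_subset_left (mem_closure_greedy M w e he)

lemma greedy_card (M : Matroid α) (w w' : α → ℝ≥0) : (greedy M w).card = (greedy M w').card := by
  have := (greedy_isBase M w).ncard_eq_ncard_of_isBase (greedy_isBase M w')
  simpa using this

lemma sum_le_greedy (M : Matroid α) (w : α → ℝ≥0) (I : Finset α) (hI : M.Indep (I : Set α)) :
    ∑ e ∈ I, w e ≤ ∑ e ∈ greedy M w, w e := by
  have key : ∀ n, ∀ I : Finset α, (I \ greedy M w).card = n → M.Indep (I : Set α) →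
      ∑ e ∈ I, w e ≤ ∑ e ∈ greedy M w, w e := by
    intro n
    induction n with
    | zero =>
      intro I h _
      have : I ⊆ greedy M w := by
        rw [Finset.card_eq_zero, Finset.sdiff_eq_empty_iff_subset] at h
        exact h
      exact Finset.sum_le_sum_of_subset this
    | succ n ih =>
      intro I h hI
      obtain ⟨i, hi⟩ : (I \ greedy M w).Nonempty := Finset.card_pos.1 (by omega)
      obtain ⟨hiI, hig⟩ := Finset.mem_sdiff.1 hi
      have hiE : i ∈ M.E := hI.subset_ground (by exact_mod_cast hiI)
      have h1 : i ∈ M.closure ((greedy M w : Set α) ∩ {x | Above w x i}) := by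
        apply closure_above
        by_contra hc
        exact hig (mem_greedy.2 ⟨hiE, hc⟩)
      have hJ : M.Indep ((I.erase i : Finset α) : Set α) :=
        hI.subset (by exact_mod_cast Finset.erase_subset _ _)
      have h2 : i ∉ M.closure ((I.erase i : Finset α) : Set α) := by
        have := hI.notMem_closure_diff_of_mem (e := i) (by exact_mod_cast hiI)
        simpa using this
      have h3 : ∃ g, g ∈ (greedy M w : Set α) ∩ {x | Above w x i} ∧
          g ∉ M.closure ((I.erase i : Finset α) : Set α) := by
        by_contra hc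
        push Not at hc
        exact h2 (M.closure_subset_closure_of_subset_closure hc h1)
      obtain ⟨g, ⟨hg1, hg2⟩, hg3⟩ := h3
      have hg1' : g ∈ greedy M w := by exact_mod_cast hg1
      have hgE : g ∈ M.E := (mem_greedy.1 hg1').1
      have hgJ : g ∉ I.erase i := fun hc =>
        hg3 (M.mem_closure_of_mem' (by exact_mod_cast hc) hgE)
      have hK : M.Indep ((insert g (I.erase i) : Finset α) : Set α) := by
        rw [Finset.coe_insert]
        exact (hJ.insert_indep_iff_of_notMem (by exact_mod_cast hgJ)).2 ⟨hgE, hg3⟩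
      have hcard : ((insert g (I.erase i)) \ greedy M w).card = n := by
        have : (insert g (I.erase i)) \ greedy M w = (I \ greedy M w).erase i := by
          ext x
          simp only [Finset.mem_sdiff, Finset.mem_insert, Finset.mem_erase]
          constructor
          · rintro ⟨rfl | ⟨h1, h2⟩, h3⟩
            · exact absurd hg1' h3
            · exact ⟨h1, h2, h3⟩
          · rintro ⟨h1, h2, h3⟩
            exact ⟨Or.inr ⟨h1, h2⟩, h3⟩
        rw [this, Finset.card_erase_of_mem hi]
        omega
      refine le_trans ?_ (ih _ hcard hK)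
      rw [Finset.sum_insert hgJ, ← Finset.add_sum_erase I w hiI]
      gcongr
      exact above_le hg2
  exact key _ I rfl hI

lemma opt_le_greedy (M : Matroid α) (w : α → ℝ≥0) :
    opt M w ≤ ∑ e ∈ greedy M w, (w e : ℝ≥0∞) := by
  refine iSup_le fun I => iSup_le fun hI => ?_
  have := sum_le_greedy M w I hI
  exact_mod_cast this

/-- raising the value of `e` only removes other elements from the greedy base -/
lemma greedy_mono (M : Matroid α) {w w' : α → ℝ≥0} {e : α} (h : ∀ x, x ≠ e → w x = w' x)
    (hle : w e ≤ w' e) :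
    (greedy M w').erase e ⊆ (greedy M w).erase e ∧ (e ∈ greedy M w → e ∈ greedy M w') := by
  constructor
  · intro x hx
    obtain ⟨hxe, hx⟩ := Finset.mem_erase.1 hx
    rw [mem_greedy] at hx
    refine Finset.mem_erase.2 ⟨hxe, mem_greedy.2 ⟨hx.1, fun hc => hx.2 ?_⟩⟩
    refine M.closure_subset_closure ?_ hc
    intro y hy
    simp only [Set.mem_setOf_eq, Above] at hy ⊢
    by_cases hye : y = e
    · subst hye
      rw [← h x hxe]
      rcases hy with hy | ⟨hy, hy'⟩
      · exact Or.inl (hy.trans_le hle)
      · rcases hle.eq_or_lt with h1 | h1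
        · exact Or.inr ⟨h1 ▸ hy, hy'⟩
        · exact Or.inl (hy ▸ h1)
    · rw [← h x hxe, ← h y hye]
      exact hy
  · intro he
    rw [mem_greedy] at he ⊢
    refine ⟨he.1, fun hc => he.2 ?_⟩
    refine M.closure_subset_closure ?_ hc
    intro y hy
    have hye : y ≠ e := fun h' => above_irrefl w' e (h' ▸ hy)
    simp only [Set.mem_setOf_eq, Above] at hy ⊢
    rw [← h y hye] at hy
    rcases hy with hy | ⟨hy, hy'⟩
    · exact Or.inl (hle.trans_lt hy)
    · rcases hle.eq_or_lt with h1 | h1
      · exact Or.inr ⟨hy.trans h1.symm, hy'⟩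
      · exact Or.inl (hy ▸ h1)

/-- the exchange pattern of two sets -/
def Exch (O O' : Finset α) (e : α) : Prop :=
  O.erase e = O'.erase e ∨
  (∃ f, f ≠ e ∧ f ∈ O ∧ e ∉ O ∧ f ∉ O' ∧ e ∈ O' ∧ ∀ x, x ≠ e → x ≠ f → (x ∈ O ↔ x ∈ O')) ∨
  (∃ f, f ≠ e ∧ f ∈ O' ∧ e ∉ O' ∧ f ∉ O ∧ e ∈ O ∧ ∀ x, x ≠ e → x ≠ f → (x ∈ O' ↔ x ∈ O))

omit [Fintype α] in
lemma Exch.symm {O O' : Finset α} {e : α} (h : Exch O O' e) : Exch O' O e := by
  rcases h with h | h | h
  · exact Or.inl h.symm
  · exact Or.inr (Or.inr h)
  · exact Or.inr (Or.inl h)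

lemma greedy_exch_of_le (M : Matroid α) {w w' : α → ℝ≥0} {e : α} (h : ∀ x, x ≠ e → w x = w' x)
    (hle : w e ≤ w' e) : Exch (greedy M w) (greedy M w') e := by
  obtain ⟨h1, h2⟩ := greedy_mono M h hle
  have hc := greedy_card M w w'
  by_cases he : e ∈ greedy M w
  · left
    refine (Finset.eq_of_subset_of_card_le h1 ?_).symm
    rw [Finset.card_erase_of_mem he, Finset.card_erase_of_mem (h2 he), hc]
  · by_cases he' : e ∈ greedy M w'
    · right; left
      rw [Finset.erase_eq_of_notMem he] at h1
      have hpos : 0 < (greedy M w').card := Finset.card_pos.2 ⟨e, he'⟩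
      have hd : (greedy M w \ (greedy M w').erase e).card = 1 := by
        rw [Finset.card_sdiff_of_subset h1, Finset.card_erase_of_mem he', hc]
        omega
      obtain ⟨f, hf⟩ := Finset.card_eq_one.1 hd
      have hfm : f ∈ greedy M w \ (greedy M w').erase e := by rw [hf]; simp
      obtain ⟨hf1, hf2⟩ := Finset.mem_sdiff.1 hfm
      have hfe : f ≠ e := fun h' => he (h' ▸ hf1)
      refine ⟨f, hfe, hf1, he, fun hc' => hf2 (Finset.mem_erase.2 ⟨hfe, hc'⟩), he', ?_⟩
      intro x hxe hxf
      constructor
      · intro hx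
        by_contra hx'
        have : x ∈ greedy M w \ (greedy M w').erase e :=
          Finset.mem_sdiff.2 ⟨hx, fun hc' => hx' (Finset.mem_erase.1 hc').2⟩
        rw [hf] at this
        exact hxf (Finset.mem_singleton.1 this)
      · intro hx
        exact h1 (Finset.mem_erase.2 ⟨hxe, hx⟩)
    · left
      refine (Finset.eq_of_subset_of_card_le h1 ?_).symm
      rw [Finset.erase_eq_of_notMem he, Finset.erase_eq_of_notMem he', hc]

lemma greedy_exch (M : Matroid α) {w w' : α → ℝ≥0} {e : α} (h : ∀ x, x ≠ e → w x = w' x) :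
    Exch (greedy M w) (greedy M w') e := by
  rcases le_total (w e) (w' e) with hle | hle
  · exact greedy_exch_of_le M h hle
  · exact (greedy_exch_of_le M (fun x hx => (h x hx).symm) hle).symm

end Vale.Agent.P331
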