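import Mathlib
import Vale.Agent.P331.Spec

open Finset
open Classical

namespace Vale.Agent.P331

variable {α : Type} [Fintype α] [DecidableEq α]

namespace Hyb

lemma tele (pos : α → ℕ) (hpos : Function.Injective pos) (S E : α → Prop)
    [DecidablePred S] [DecidablePred E] (f : Finset α → ℝ) :
    f (univ.filter E) - f (univ.filter S) =
      ∑ x, (f ((univ.filter fun y => (pos y < pos x ∧ E y) ∨ (pos x < pos y ∧ S y)) ∪
            ({x} : Finset α).filter E) -
          f ((univ.filter fun y => (pos y < pos x ∧ E y) ∨ (pos x < pos y ∧ S y)) ∪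
            ({x} : Finset α).filter S)) := by
  obtain ⟨N, hN⟩ : ∃ N, ∀ x, pos x < N :=
    ⟨univ.sup pos + 1, fun x => Nat.lt_succ_of_le (le_sup (f := pos) (mem_univ x))⟩
  let H : ℕ → Finset α := fun s => univ.filter fun y => (pos y < s ∧ E y) ∨ (s ≤ pos y ∧ S y)
  have h0 : H 0 = univ.filter S := by ext y; simp [H]
  have h1 : H N = univ.filter E := by
    ext y
    have := hN y
    simp only [H, mem_filter, mem_univ, true_and]
    exact ⟨fun h => h.elim (fun h => h.2) (fun h => absurd h.1 (by omega)), fun h => Or.inl ⟨this, h⟩⟩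
  rw [← h0, ← h1, ← sum_range_sub (fun s => f (H s)) N]
  rw [← sum_fiberwise_of_maps_to (s := univ) (t := range N) (g := pos)
    (fun x _ => mem_range.2 (hN x))]
  refine sum_congr rfl fun s _ => ?_
  by_cases hs : ∃ x, pos x = s
  · obtain ⟨x, rfl⟩ := hs
    have : univ.filter (fun y => pos y = pos x) = {x} := by
      ext y; simp [hpos.eq_iff]
    rw [this, sum_singleton]
    congr 2
    · ext y
      simp only [H, mem_filter, mem_univ, true_and, mem_union, mem_singleton]
      by_cases hy : y = x
      · subst hy; simp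
      · have : pos y ≠ pos x := fun h => hy (hpos h)
        have e1 : pos y < pos x + 1 ↔ pos y < pos x := by omega
        simp [hy, e1, Nat.succ_le_iff]
    · ext y
      simp only [H, mem_filter, mem_univ, true_and, mem_union, mem_singleton]
      by_cases hy : y = x
      · subst hy; simp
      · have : pos y ≠ pos x := fun h => hy (hpos h)
        have e1 : pos x ≤ pos y ↔ pos x < pos y := by omega
        simp [hy, e1]
  · push Not at hs
    have : univ.filter (fun y => pos y = s) = ∅ := by
      ext y; simp [hs y]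
    rw [this, sum_empty, sub_eq_zero]
    congr 1
    ext y
    have := hs y
    have e1 : pos y < s + 1 ↔ pos y < s := by omega
    have e2 : s + 1 ≤ pos y ↔ s ≤ pos y := by omega
    simp only [H, mem_filter, e1, e2]

end Hyb

theorem hybStmt : HybStmt α := by
  intro γ _ _ PC PT hd hc pos hpos a b hba h1 h2 Φ hΦ
  let f : Finset α → ℝ := fun G => if Φ G then 1 else 0
  let S : (α → γ) → α → Prop := fun ω y => a y ω ∧ ω y ∈ PC
  let E : (α → γ) → α → Prop := fun ω y => (b y ω ∧ ω y ∈ PC) ∨ (a y ω ∧ ¬ b y ω ∧ ω y ∈ PT)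
  let K : α → (α → γ) → Finset α := fun x ω =>
    univ.filter fun y => (pos y < pos x ∧ E ω y) ∨ (pos x < pos y ∧ S ω y)
  let p : α → (α → γ) → ℝ := fun x ω =>
    if a x ω ∧ ¬ b x ω then f (K x ω ∪ {x}) - f (K x ω) else 0
  have p0 : ∀ x ω, 0 ≤ p x ω := by
    intro x ω
    simp only [p, f]
    split_ifs with h3 h4 h5 h6
    · simp
    · simp
    · exact absurd (hΦ _ _ subset_union_left h6) h4
    · simp
    · simp
  have pinv : ∀ x ω v, p x (Function.update ω x v) = p x ω := by
    intro x ω v
    have h3 := h1 x x ω v le_rfl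
    simp only [p, h3.1, h3.2]
    split_ifs with h4
    · have : K x (Function.update ω x v) = K x ω := by
        refine filter_congr fun y _ => ?_
        by_cases hy : y = x
        · subst hy; simp
        · refine or_congr (and_congr_right fun h5 => ?_) (and_congr_right fun h5 => ?_)
          · have h6 := h1 x y ω v h5.le
            simp only [E, h6.1, h6.2, Function.update_of_ne hy]
          · simp only [S, h2 x y ω v h4.1, Function.update_of_ne hy]
      rw [this]
    · rfl
  have key : ∀ ω, f (univ.filter (E ω)) - f (univ.filter (S ω)) =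
      ∑ x, (if ω x ∈ PT then p x ω else 0) - ∑ x, (if ω x ∈ PC then p x ω else 0) := by
    intro ω
    rw [Hyb.tele pos hpos, ← sum_sub_distrib]
    refine sum_congr rfl fun x _ => ?_
    have h3 : ω x ∈ PC → ω x ∉ PT := fun h => disjoint_left.1 hd h
    have h4 := hba x ω
    change f (K x ω ∪ _) - f (K x ω ∪ _) = _
    simp only [filter_singleton, p, S, E]
    generalize K x ω = G
    clear pinv p0 h1 h2 hba hΦ hd hc
    clear_value f
    by_cases ha : a x ω <;> by_cases hb : b x ω <;> by_cases hC : ω x ∈ PC <;>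
      by_cases hT : ω x ∈ PT <;>
      first
        | exact absurd hT (h3 hC)
        | exact absurd (h4 hb) ha
        | simp [ha, hb, hC, hT]
  have bal : (PC.card : ℝ) * ∑ ω : α → γ, ∑ x, (if ω x ∈ PT then p x ω else 0) =
      PT.card * ∑ ω : α → γ, ∑ x, (if ω x ∈ PC then p x ω else 0) := by
    rw [sum_comm]
    conv_rhs => rw [sum_comm]
    rw [mul_sum, mul_sum]
    refine sum_congr rfl fun x _ => ?_
    have h3 := coord_sum x PT (PC ∪ PT) subset_union_right (p x) fun ω v _ _ => pinv x ω v
    have h4 : ∑ ω : α → γ, (if ω x ∈ PC ∪ PT then p x ω else 0) =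
        ∑ ω : α → γ, (if ω x ∈ PC then p x ω else 0) +
          ∑ ω : α → γ, (if ω x ∈ PT then p x ω else 0) := by
      rw [← sum_add_distrib]
      refine sum_congr rfl fun ω _ => ?_
      have h3 : ω x ∈ PC → ω x ∉ PT := fun h => disjoint_left.1 hd h
      by_cases hC : ω x ∈ PC <;> by_cases hT : ω x ∈ PT <;>
        first
          | exact absurd hT (h3 hC)
          | simp [hC, hT]
    rw [h4, card_union_of_disjoint hd] at h3
    push_cast at h3
    linarith
  have bad : ∀ ω, (if ¬ Φ (univ.filter (S ω)) ∧ Φ (univ.filter (E ω)) then (1 : ℝ) else 0) ≤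
      ∑ x, (if ω x ∈ PT then p x ω else 0) := by
    intro ω
    have h3 : 0 ≤ ∑ x, (if ω x ∈ PT then p x ω else 0) :=
      sum_nonneg fun x _ => by split_ifs; exacts [p0 x ω, le_rfl]
    have h4 : 0 ≤ ∑ x, (if ω x ∈ PC then p x ω else 0) :=
      sum_nonneg fun x _ => by split_ifs; exacts [p0 x ω, le_rfl]
    split_ifs with h5
    · have h6 := key ω
      simp only [f, h5.1, h5.2, if_true, if_false] at h6
      linarith
    · exact h3
  have h3 : ∑ ω : α → γ, (f (univ.filter (S ω)) - f (univ.filter (E ω))) =
      ∑ ω : α → γ, ∑ x, (if ω x ∈ PC then p x ω else 0) -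
        ∑ ω : α → γ, ∑ x, (if ω x ∈ PT then p x ω else 0) := by
    rw [← sum_sub_distrib]
    exact sum_congr rfl fun ω _ => by linarith [key ω]
  have h4 : (0 : ℝ) ≤ (PC.card : ℝ) - PT.card := by
    have : (PT.card : ℝ) ≤ PC.card := by exact_mod_cast hc
    linarith
  have h5 := mul_le_mul_of_nonneg_left (sum_le_sum fun ω (_ : ω ∈ univ) => bad ω) h4
  have h6 : ((PC.card : ℝ) - PT.card) * ∑ ω : α → γ, ∑ x, (if ω x ∈ PT then p x ω else 0) =
      PT.card * ∑ ω : α → γ, (f (univ.filter (S ω)) - f (univ.filter (E ω))) := by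
    rw [h3]; linarith
  rw [h6] at h5
  convert h5

end Vale.Agent.P331
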