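import Mathlib
import Vale.Agent.P331.Spec

open Finset
open Classical

namespace Vale.Agent.P331

variable {α : Type} [Fintype α] [DecidableEq α]

namespace Layer

lemma pivot (ρ : Rk α) (B J : ℕ → Finset α) (Γ : Finset α)
    (h : ∀ j, B (j + 1) ∪ J (j + 1) ⊆ B j) (K : ℕ) :
    ∑ j ∈ range K, ((ρ.r (B j ∪ J j) : ℝ) - ρ.r (B j)) - ρ.r Γ ≤
      ∑ j ∈ range K, ((ρ.r (B j ∪ Γ ∪ J j) : ℝ) - ρ.r (B j ∪ Γ)) := by
  have key : ∀ K, ∑ j ∈ range (K + 1), ((ρ.r (B j ∪ J j) : ℝ) - ρ.r (B j)) -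
      ((ρ.r (B K ∪ Γ) : ℝ) - ρ.r (B K)) ≤
      ∑ j ∈ range (K + 1), ((ρ.r (B j ∪ Γ ∪ J j) : ℝ) - ρ.r (B j ∪ Γ)) := by
    intro K
    induction K with
    | zero =>
      have : ρ.r (B 0 ∪ J 0) ≤ ρ.r (B 0 ∪ Γ ∪ J 0) :=
        ρ.mono (union_subset_union subset_union_left subset_rfl)
      have : (ρ.r (B 0 ∪ J 0) : ℝ) ≤ ρ.r (B 0 ∪ Γ ∪ J 0) := by exact_mod_cast this
      simp only [zero_add, range_one, sum_singleton]
      linarith
    | succ K ih =>
      rw [sum_range_succ, sum_range_succ _ (K + 1)]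
      have h1 := Rk.dim (ρ := ρ) (h K) Γ
      rw [union_right_comm] at h1
      have h2 : (ρ.r (B K ∪ Γ) : ℝ) + ρ.r (B (K + 1) ∪ J (K + 1)) ≤
          ρ.r (B (K + 1) ∪ Γ ∪ J (K + 1)) + ρ.r (B K) := by exact_mod_cast h1
      linarith
  cases K with
  | zero => simp
  | succ K =>
    have h1 : (ρ.r (B K ∪ Γ) : ℝ) ≤ ρ.r (B K) + ρ.r Γ := by exact_mod_cast Rk.r_union_le _ _
    linarith [key K]

omit [Fintype α] in
lemma mem_lev {lv : α → Option ℤ} {S : Finset α} {g : ℤ} {x : α} :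
    x ∈ lev lv S g ↔ x ∈ S ∧ lv x = some g := by simp [lev]

lemma thin {γ : Type} [Fintype γ] [DecidableEq γ] (PC PT : Finset γ) (hd : Disjoint PC PT)
    (I : (α → γ) → Finset α) (h1 : ∀ ct, ∀ x ∈ I ct, ct x ∉ PC)
    (h2 : ∀ ct x v, ct x ∉ PC → v ∉ PC → (x ∈ I (Function.update ct x v) ↔ x ∈ I ct)) :
    (PT.card : ℝ) * ∑ ct, ((I ct).card : ℝ) ≤
      (Fintype.card γ : ℝ) * ∑ ct, (((I ct).filter (fun x => ct x ∈ PT)).card : ℝ) := by
  have e1 : ∀ ct, ((I ct).card : ℝ) =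
      ∑ x, (if ct x ∈ univ \ PC then (if x ∈ I ct then (1 : ℝ) else 0) else 0) := by
    intro ct
    rw [card_eq_sum_ones, Nat.cast_sum, ← sum_ite_mem_eq]
    refine sum_congr rfl fun x _ => ?_
    by_cases hx : x ∈ I ct
    · simp [hx, h1 ct x hx]
    · simp [hx]
  have e2 : ∀ ct, (((I ct).filter (fun x => ct x ∈ PT)).card : ℝ) =
      ∑ x, (if ct x ∈ PT then (if x ∈ I ct then (1 : ℝ) else 0) else 0) := by
    intro ct
    rw [card_eq_sum_ones, Nat.cast_sum, ← sum_ite_mem_eq]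
    refine sum_congr rfl fun x _ => ?_
    by_cases hx : x ∈ I ct <;> by_cases hx' : ct x ∈ PT <;> simp [hx, hx']
  simp only [e1, e2]
  rw [sum_comm]
  conv_rhs => rw [sum_comm]
  rw [mul_sum, mul_sum]
  refine sum_le_sum fun x _ => ?_
  rw [← coord_sum x PT (univ \ PC) (fun v hv => mem_sdiff.2 ⟨mem_univ _,
    fun h => disjoint_left.1 hd h hv⟩) (fun ct => if x ∈ I ct then (1 : ℝ) else 0)]
  · refine mul_le_mul_of_nonneg_right (by exact_mod_cast card_le_univ _)
      (sum_nonneg fun ct _ => ?_)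
    split_ifs <;> norm_num
  · intro ω v hω hv
    simp only [h2 ω x v (mem_sdiff.1 hω).2 (mem_sdiff.1 hv).2]

end Layer

open Layer in
theorem layerStmt (hP : PathStmt α) (hR : RunStmt α) : LayerStmt α := by
  intro γ _ _ PC PT hd ρ κ hκ lv D V hV g ε hε π hπ
  choose bas b1 b2 b3 b4 using Rk.exists_basis (ρ := ρ)
  set C : (α → γ) → Finset α := fun ct => Ss V PC ct with hC
  set T : (α → γ) → Finset α := fun ct => Ss V PT ct with hT
  let Γ : (α → γ) → Finset α := fun ct => lev lv (C ct) g ∪ above lv (g + 1)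
  let Y : ℕ → (α → γ) → Finset α := fun d ct => Bh ρ κ lv D (C ct) (T ct) d g ∪ Γ ct
  let J : ℕ → (α → γ) → Finset α := fun d ct => Jd ρ κ lv D (C ct) (T ct) V d g
  let A : (α → γ) → Finset α := fun ct => acc ρ κ lv D (C ct) (T ct) ε (π ct)
  let I : ℕ → (α → γ) → Finset α := fun d ct => bas (Y d ct) (J d ct)
  have hJ : ∀ d ct x, x ∈ J d ct → x ∈ V ∧ lv x = some g ∧ geD ρ κ lv D (C ct) d x ∧
      x ∉ Nd ρ κ lv D (C ct) d g := by
    intro d ct x hx
    obtain ⟨h1, h2, h3, _⟩ := mem_filter.1 hx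
    exact ⟨(mem_lev.1 h1).1, (mem_lev.1 h1).2, h2, h3⟩
  -- step 1
  have s1 : ∀ ct d, d % 2 = ε → ((I d ct).filter (fun x => ct x ∈ PT)).card ≤
      ((lev lv (A ct) g).filter (fun y => dep ρ κ lv D (C ct) y = d)).card := by
    intro ct d hdε
    have h1 := Rk.indep_mono (b2 (Y d ct) (J d ct)) subset_rfl
      (filter_subset (fun x => ct x ∈ PT) (I d ct))
    have h2 : Y d ct ∪ (I d ct).filter (fun x => ct x ∈ PT) ⊆
        ρ.cl (Y d ct ∪ (lev lv (A ct) g).filter (fun y => dep ρ κ lv D (C ct) y = d)) := by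
      refine union_subset (subset_union_left.trans (Rk.subset_cl _)) fun x hx => ?_
      obtain ⟨h3, h4⟩ := mem_filter.1 hx
      obtain ⟨h5, h6, h7, h8⟩ := hJ d ct x (b1 _ _ h3)
      have h9 : ¬ inN ρ κ lv D (C ct) d x := by
        rintro ⟨i, hi, hi'⟩
        obtain rfl : i = g := by simpa [hi] using h6
        exact h8 hi'
      have h10 := hP.dep_eq ρ hκ lv D (C ct) d x h7 h9
      have h11 := hR.span ρ (fun x => x ∈ Td ρ κ lv D (C ct) (T ct) (dep ρ κ lv D (C ct) x) ∧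
        dep ρ κ lv D (C ct) x % 2 = ε) (dep ρ κ lv D (C ct)) (Fd ρ κ lv D (C ct)) (π ct) x
        (hπ ct x) (by
          rw [h10]
          exact ⟨mem_filter.2 ⟨mem_filter.2 ⟨h5, h4⟩, h7, h9⟩, hdε⟩)
      rw [h10] at h11
      refine Rk.cl_subset_cl (union_subset ?_ (Subset.trans (fun y hy => ?_) (Rk.subset_cl _))) h11
      · refine (hP.Fd_sub ρ hκ lv D (C ct) (d + 1) g).trans (Rk.cl_mono ?_)
        exact (union_subset_union (hP.N_sub_Bh ρ hκ lv D (C ct) (T ct) d g) subset_rfl).trans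
          subset_union_left
      · obtain ⟨y1, y2⟩ := mem_filter.1 hy
        have y3 := (hR.sub ρ _ _ _ _ y y1).1.1
        rw [y2] at y3
        obtain ⟨j, hj⟩ := hV y (mem_filter.1 (mem_filter.1 y3).1).1
        rcases lt_trichotomy j g with h | rfl | h
        · exact mem_union_left _ (mem_union_left _ (hP.Td_sub ρ hκ lv D _ _ d g j y y3 hj h))
        · exact mem_union_right _ (mem_filter.2 ⟨mem_lev.2 ⟨y1, hj⟩, y2⟩)
        · refine mem_union_left _ (mem_union_right _ (mem_union_right _ ?_))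
          simp only [above, mem_filter, mem_univ, true_and]
          exact ⟨j, by omega, hj⟩
    have h3 := (Rk.r_le_of_subset_cl h2).trans (Rk.r_union_le_card _ _)
    omega
  have s1' : ∀ ct, ∑ j ∈ range (K0 lv D g),
      (((I (2 * j + ε) ct).filter (fun x => ct x ∈ PT)).card : ℝ) ≤ (lev lv (A ct) g).card := by
    intro ct
    rw [← Nat.cast_sum, Nat.cast_le]
    refine (sum_le_sum fun j _ => s1 ct (2 * j + ε) (by omega)).trans ?_
    rw [← card_biUnion]
    · exact card_le_card (biUnion_subset.2 fun j _ => filter_subset _ _)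
    · intro i _ j _ hij
      refine disjoint_left.2 fun x hx hx' => hij ?_
      have := (mem_filter.1 hx).2
      have := (mem_filter.1 hx').2
      omega
  -- step 2
  have s2 : ∀ d, (PT.card : ℝ) * ∑ ct, ((I d ct).card : ℝ) ≤
      (Fintype.card γ : ℝ) * ∑ ct, (((I d ct).filter (fun x => ct x ∈ PT)).card : ℝ) := by
    intro d
    refine thin PC PT hd (I d) (fun ct x hx hc => ?_) (fun ct x v h1 h2 => ?_)
    · obtain ⟨h5, h6, _, _⟩ := hJ d ct x (b1 _ _ hx)
      have h7 : x ∈ Y d ct :=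
        mem_union_right _ (mem_union_left _ (mem_lev.2 ⟨mem_filter.2 ⟨h5, hc⟩, h6⟩))
      have h8 := Rk.indep_mono (b2 (Y d ct) (J d ct)) subset_rfl (singleton_subset_iff.2 hx)
      rw [union_eq_left.2 (singleton_subset_iff.2 h7)] at h8
      simp at h8
    · by_cases hx : lv x = some g
      · have e1 : C (Function.update ct x v) = C ct := by
          refine filter_congr fun y _ => ?_
          by_cases hy : y = x
          · subst hy; simp [h1, h2]
          · rw [Function.update_of_ne hy]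
        have e2 : Bh ρ κ lv D (C ct) (T (Function.update ct x v)) d g =
            Bh ρ κ lv D (C ct) (T ct) d g := by
          refine (hP.loc_same ρ hκ lv D _ _ _ _ g (fun y j hj hy => ⟨Iff.rfl, ?_⟩) d).2
          have hyx : y ≠ x := by
            rintro rfl
            rw [hx] at hy
            simp at hy
            omega
          simp only [hT, Ss, mem_filter, Function.update_of_ne hyx]
        simp only [I, Y, J, Γ, Jd, e1, e2]
      · exact ⟨fun h => absurd (hJ _ _ _ (b1 _ _ h)).2.1 hx,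
          fun h => absurd (hJ _ _ _ (b1 _ _ h)).2.1 hx⟩
  -- step 3
  have s3 : ∀ ct, Psi ρ κ lv D (C ct) (T ct) V ε g - (lev lv (C ct) g).card -
      ρ.r (above lv (g + 1)) ≤ ∑ j ∈ range (K0 lv D g), ((I (2 * j + ε) ct).card : ℝ) := by
    intro ct
    have h1 := pivot ρ (fun j => Bh ρ κ lv D (C ct) (T ct) (2 * j + ε) g)
      (fun j => J (2 * j + ε) ct) (Γ ct) (fun j => by
        have e : 2 * (j + 1) + ε = 2 * j + ε + 1 + 1 := by ring
        simp only [e]
        refine Subset.trans (union_subset (hP.Bh_sub_N ρ hκ lv D _ _ _ g) fun x hx => ?_)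
          (hP.N_sub_Bh ρ hκ lv D _ _ _ g)
        obtain ⟨_, h6, ⟨i, hi, hi'⟩, _⟩ := hJ _ ct x hx
        obtain rfl : i = g := by simpa [hi] using h6
        exact hi') (K0 lv D g)
    have h2 : (ρ.r (Γ ct) : ℝ) ≤ (lev lv (C ct) g).card + ρ.r (above lv (g + 1)) := by
      exact_mod_cast (Rk.r_union_le _ _).trans (Nat.add_le_add_right (Rk.r_le_card _) _)
    have h3 : ∑ j ∈ range (K0 lv D g), ((I (2 * j + ε) ct).card : ℝ) =
        ∑ j ∈ range (K0 lv D g), ((ρ.r (Y (2 * j + ε) ct ∪ J (2 * j + ε) ct) : ℝ) -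
          ρ.r (Y (2 * j + ε) ct)) := by
      refine sum_congr rfl fun j _ => ?_
      rw [← b4, b2]
      simp [I]
    rw [h3]
    unfold Psi
    simp only [Y, J] at h1 ⊢
    linarith
  calc _ ≤ (PT.card : ℝ) * ∑ ct, ∑ j ∈ range (K0 lv D g), ((I (2 * j + ε) ct).card : ℝ) :=
        mul_le_mul_of_nonneg_left (sum_le_sum fun ct _ => s3 ct) (by positivity)
    _ ≤ (Fintype.card γ : ℝ) * ∑ ct, ∑ j ∈ range (K0 lv D g),
          (((I (2 * j + ε) ct).filter (fun x => ct x ∈ PT)).card : ℝ) := by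
        rw [sum_comm]
        conv_rhs => rw [sum_comm]
        rw [mul_sum, mul_sum]
        exact sum_le_sum fun j _ => s2 _
    _ ≤ _ := mul_le_mul_of_nonneg_left (sum_le_sum fun ct _ => s1' ct) (by positivity)

end Vale.Agent.P331
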