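import Mathlib
import Vale.Agent.P331.Spec

open Finset
open Classical

namespace Vale.Agent.P331

variable {α : Type} [Fintype α] [DecidableEq α]

namespace Lst

omit [DecidableEq α] in
lemma idx_inj : Function.Injective (idx : α → ℕ) := by
  intro x y h
  unfold idx at h
  exact (Fintype.equivFin α).injective (Fin.ext h)

lemma greedy_indep (ρ : Rk α) (G : Finset α)
    (h : ∀ x ∈ G, x ∉ ρ.cl (G.filter (fun y => idx y < idx x))) : ρ.r G = G.card := by
  induction G using Finset.induction_on_max_value (idx : α → ℕ) with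
  | empty => simp [ρ.r_empty]
  | insert a s ha hmax ih =>
    have h1 : (insert a s).filter (fun y => idx y < idx a) = s := by
      ext y
      simp only [mem_filter, mem_insert]
      constructor
      · rintro ⟨rfl | hy, hlt⟩
        · exact absurd hlt (lt_irrefl _)
        · exact hy
      · intro hy
        refine ⟨Or.inr hy, lt_of_le_of_ne (hmax y hy) fun he => ha ?_⟩
        rw [← idx_inj he]; exact hy
    have h2 := h a (mem_insert_self _ _)
    rw [h1] at h2
    rw [Rk.notMem_cl.1 h2, card_insert_of_notMem ha, ih]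
    intro x hx hc
    exact h x (mem_insert_of_mem hx)
      (Rk.cl_mono (filter_subset_filter _ (subset_insert _ _)) hc)

/-- `x` is a pivot on level `g` for the marked elements -/
def Piv (ρ : Rk α) (lv : α → Option ℤ) (g : ℤ) (x : α) (hb : α → Bool) : Prop :=
  lv x = some g ∧
    x ∉ ρ.cl (univ.filter (fun y => hb y = true ∧ lv y = some g ∧ idx y < idx x))

lemma mem_lev_Ul (ρ : Rk α) (lv : α → Option ℤ) (g : ℤ) (hb : α → Bool) (x : α) :
    x ∈ lev lv (Ul ρ lv hb) g ↔ hb x = false ∧ Piv ρ lv g x hb := by
  unfold lev Ul Piv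
  simp only [mem_filter, mem_univ, true_and]
  constructor
  · rintro ⟨⟨h1, g', h2, h3⟩, h4⟩
    have : g' = g := Option.some_injective _ (h2.symm.trans h4)
    subst this
    exact ⟨h1, h4, h3⟩
  · rintro ⟨h1, h2, h3⟩
    exact ⟨⟨h1, g, h2, h3⟩, h2⟩

lemma piv_update (ρ : Rk α) (lv : α → Option ℤ) (g : ℤ) (x : α) (hb : α → Bool) (v : Bool) :
    Piv ρ lv g x (Function.update hb x v) ↔ Piv ρ lv g x hb := by
  unfold Piv
  have : univ.filter (fun y => Function.update hb x v y = true ∧ lv y = some g ∧ idx y < idx x) =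
      univ.filter (fun y => hb y = true ∧ lv y = some g ∧ idx y < idx x) := by
    refine filter_congr fun y _ => ?_
    by_cases hy : y = x
    · subst hy; simp
    · rw [Function.update_of_ne hy]
  rw [this]

lemma swap_sum (ρ : Rk α) (lv : α → Option ℤ) (g : ℤ) (x : α) :
    ∑ hb : α → Bool, (if hb x = false ∧ Piv ρ lv g x hb then (1 : ℝ) else 0) =
      ∑ hb : α → Bool, (if hb x = true ∧ Piv ρ lv g x hb then (1 : ℝ) else 0) := by
  have key : ∀ v : Bool, (2 : ℝ) * ∑ hb : α → Bool,
      (if hb x = v ∧ Piv ρ lv g x hb then (1 : ℝ) else 0) =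
      ∑ hb : α → Bool, (if Piv ρ lv g x hb then (1 : ℝ) else 0) := by
    intro v
    have h := coord_sum x ({v} : Finset Bool) univ (subset_univ _)
      (fun hb => if Piv ρ lv g x hb then (1 : ℝ) else 0)
      (fun ω w _ _ => by simp only [piv_update])
    simp only [card_univ, Fintype.card_bool, mem_singleton, card_singleton, mem_univ, if_true,
      Nat.cast_ofNat, Nat.cast_one, one_mul] at h
    rw [← h]
    congr 1
    refine sum_congr rfl fun hb _ => ?_
    by_cases h1 : hb x = v <;> simp [h1]
  have h1 := key false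
  have h2 := key true
  linarith

lemma true_le (ρ : Rk α) (lv : α → Option ℤ) (g : ℤ) (hb : α → Bool) :
    (univ.filter (fun x => hb x = true ∧ Piv ρ lv g x hb)).card ≤ ρ.r (lev lv univ g) := by
  rw [← greedy_indep ρ]
  · refine ρ.mono fun x hx => ?_
    unfold lev
    exact mem_filter.2 ⟨mem_univ _, (mem_filter.1 hx).2.2.1⟩
  · intro x hx hc
    refine (mem_filter.1 hx).2.2.2 (Rk.cl_mono (fun y hy => ?_) hc)
    have h1 := mem_filter.1 hy
    have h2 := (mem_filter.1 h1.1).2
    exact mem_filter.2 ⟨mem_univ _, h2.1, h2.2.1, h1.2⟩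

end Lst

open Lst in
theorem listStmt : ListStmt α := by
  intro ρ lv g
  constructor
  · have h1 : ∀ hb : α → Bool, ((lev lv (Ul ρ lv hb) g).card : ℝ) =
        ∑ x : α, (if hb x = false ∧ Piv ρ lv g x hb then (1 : ℝ) else 0) := by
      intro hb
      rw [sum_boole]
      congr 2
      ext x
      rw [mem_lev_Ul, mem_filter]
      simp
    rw [sum_congr rfl fun hb _ => h1 hb, sum_comm, sum_congr rfl fun x _ => swap_sum ρ lv g x,
      sum_comm]
    calc _ ≤ ∑ _hb : α → Bool, (ρ.r (lev lv univ g) : ℝ) := by
          refine sum_le_sum fun hb _ => ?_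
          rw [sum_boole]
          exact_mod_cast true_le ρ lv g hb
      _ = _ := by rw [sum_const, card_univ, nsmul_eq_mul]
  · set B := (lev lv univ g).filter
      (fun x => x ∉ ρ.cl ((lev lv univ g).filter (fun y => idx y < idx x))) with hB
    have hind : ρ.r B = B.card := by
      refine greedy_indep ρ B fun x hx hc => (mem_filter.1 hx).2 (Rk.cl_mono ?_ hc)
      exact filter_subset_filter _ (filter_subset _ _)
    have hspan : ∀ n : ℕ, ∀ x, idx x = n → x ∈ lev lv univ g → x ∈ ρ.cl B := by
      intro n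
      induction n using Nat.strong_induction_on with
      | _ n ih =>
        intro x hx hl
        by_cases hxB : x ∈ B
        · exact Rk.subset_cl _ hxB
        · have h1 : x ∈ ρ.cl ((lev lv univ g).filter (fun y => idx y < idx x)) := by
            by_contra hc
            exact hxB (mem_filter.2 ⟨hl, hc⟩)
          refine Rk.cl_subset_cl (fun y hy => ?_) h1
          have h2 := mem_filter.1 hy
          exact ih (idx y) (hx ▸ h2.2) y rfl h2.1
    refine ⟨B, hind, ?_, fun hb x hx => ?_⟩
    · rw [← hind]
      exact le_antisymm (ρ.mono (filter_subset _ _))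
        (Rk.r_le_of_subset_cl fun x hx => hspan _ x rfl hx)
    · have h1 := mem_filter.1 hx
      have h2 := mem_filter.1 h1.1
      rw [mem_lev_Ul]
      refine ⟨h1.2, (mem_filter.1 h2.1).2, fun hc => h2.2 (Rk.cl_mono (fun y hy => ?_) hc)⟩
      have h3 := (mem_filter.1 hy).2
      exact mem_filter.2 ⟨mem_filter.2 ⟨mem_univ _, h3.2.1⟩, h3.2.2⟩

end Vale.Agent.P331
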