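import Mathlib
import Vale.Agent.P331.Greedy

open Classical

namespace Vale.Agent.P331

variable {α : Type} [DecidableEq α]

def flipAt (e : α) (u : α → Bool) : α → Bool := Function.update u e (!u e)

lemma flipAt_flipAt (e : α) (u : α → Bool) : flipAt e (flipAt e u) = u := by
  funext x
  by_cases h : x = e
  · subst h; simp [flipAt]
  · simp [flipAt, h]

lemma flipAt_ne {e x : α} (h : x ≠ e) (u : α → Bool) : flipAt e u x = u x := by
  simp [flipAt, h]

lemma flipAt_self (e : α) (u : α → Bool) : flipAt e u e = !u e := by
  simp [flipAt]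

/-- one move: whether to switch the value of `e`, and the new marks -/
noncomputable def move (O O' P : Finset α) (e : α) (m : α → Bool) : Bool × (α → Bool) :=
  if h : ∃ f, f ∈ P ∧ f ∈ O ∧ f ∉ O' then
    (if m h.choose then (false, m)
      else (true, Function.update (Function.update m h.choose (m e)) e true))
  else if h : ∃ f, f ∈ P ∧ f ∈ O' ∧ f ∉ O then
    (if m e then (true, Function.update (Function.update m e (m h.choose)) h.choose false)
      else (false, m))
  else (true, m)

lemma move_none {O O' P : Finset α} {e : α} (m : α → Bool) (h : ∀ x ∈ P, x ∈ O ↔ x ∈ O') :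
    move O O' P e m = (true, m) := by
  unfold move
  rw [dif_neg, dif_neg]
  · rintro ⟨f, h1, h2, h3⟩; exact h3 ((h f h1).2 h2)
  · rintro ⟨f, h1, h2, h3⟩; exact h3 ((h f h1).1 h2)

lemma move_out {O O' P : Finset α} {e f : α} (m : α → Bool) (hf : f ∈ P) (h1 : f ∈ O)
    (h2 : f ∉ O') (h : ∀ x ∈ P, x ≠ f → (x ∈ O ↔ x ∈ O')) :
    move O O' P e m = if m f then (false, m)
      else (true, Function.update (Function.update m f (m e)) e true) := by
  unfold move
  have hex : ∃ f, f ∈ P ∧ f ∈ O ∧ f ∉ O' := ⟨f, hf, h1, h2⟩
  rw [dif_pos hex]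
  have : hex.choose = f := by
    by_contra hne
    obtain ⟨a, b, c⟩ := hex.choose_spec
    exact c ((h _ a hne).1 b)
  rw [this]

lemma move_in {O O' P : Finset α} {e f : α} (m : α → Bool) (hf : f ∈ P) (h1 : f ∈ O')
    (h2 : f ∉ O) (h : ∀ x ∈ P, x ≠ f → (x ∈ O' ↔ x ∈ O)) :
    move O O' P e m = if m e then (true, Function.update (Function.update m e (m f)) f false)
      else (false, m) := by
  unfold move
  have hex : ∃ f, f ∈ P ∧ f ∈ O' ∧ f ∉ O := ⟨f, hf, h1, h2⟩
  have hno : ¬ ∃ f, f ∈ P ∧ f ∈ O ∧ f ∉ O' := by
    rintro ⟨x, a, b, c⟩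
    by_cases hx : x = f
    · exact h2 (hx ▸ b)
    · exact c ((h x a hx).2 b)
  rw [dif_neg hno, dif_pos hex]
  have : hex.choose = f := by
    by_contra hne
    obtain ⟨a, b, c⟩ := hex.choose_spec
    exact c ((h _ a hne).1 b)
  rw [this]

abbrev St (α : Type) : Type := (α → Bool) × (α → Bool)

noncomputable def step (g : (α → Bool) → Finset α) (P : Finset α) (e : α) (s : St α) : St α :=
  (if (move (g s.1) (g (flipAt e s.1)) P e s.2).1 then flipAt e s.1 else s.1,
    (move (g s.1) (g (flipAt e s.1)) P e s.2).2)

def Good (g : (α → Bool) → Finset α) : Prop := ∀ u e, Exch (g u) (g (flipAt e u)) e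

def Marked (g : (α → Bool) → Finset α) (s : St α) (x : α) : Prop := x ∈ g s.1 ∧ s.2 x = true

lemma step_cases {g : (α → Bool) → Finset α} (hg : Good g) {P : Finset α} {e : α} (he : e ∉ P)
    (u : α → Bool) :
    (∀ x ∈ P, x ∈ g u ↔ x ∈ g (flipAt e u)) ∨
    (∃ f, f ∈ P ∧ f ≠ e ∧ f ∈ g u ∧ e ∉ g u ∧ f ∉ g (flipAt e u) ∧ e ∈ g (flipAt e u) ∧
      ∀ x ∈ P, x ≠ f → (x ∈ g u ↔ x ∈ g (flipAt e u))) ∨
    (∃ f, f ∈ P ∧ f ≠ e ∧ f ∈ g (flipAt e u) ∧ e ∉ g (flipAt e u) ∧ f ∉ g u ∧ e ∈ g u ∧
      ∀ x ∈ P, x ≠ f → (x ∈ g (flipAt e u) ↔ x ∈ g u)) := by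
  have hne : ∀ x ∈ P, x ≠ e := fun x hx h => he (h ▸ hx)
  rcases hg u e with h | ⟨f, a, b, c, d, e', k⟩ | ⟨f, a, b, c, d, e', k⟩
  · left
    intro x hx
    have := Finset.ext_iff.1 h x
    simpa [hne x hx] using this
  · by_cases hf : f ∈ P
    · exact Or.inr (Or.inl ⟨f, hf, a, b, c, d, e', fun x hx hxf => k x (hne x hx) hxf⟩)
    · exact Or.inl fun x hx => k x (hne x hx) (fun h => hf (h ▸ hx))
  · by_cases hf : f ∈ P
    · exact Or.inr (Or.inr ⟨f, hf, a, b, c, d, e', fun x hx hxf => k x (hne x hx) hxf⟩)
    · exact Or.inl fun x hx => (k x (hne x hx) (fun h => hf (h ▸ hx))).symm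

lemma step_fst_ne (g : (α → Bool) → Finset α) (P : Finset α) {e x : α} (h : x ≠ e) (s : St α) :
    (step g P e s).1 x = s.1 x := by
  unfold step
  dsimp only
  split_ifs
  · exact flipAt_ne h _
  · rfl

lemma step_step {g : (α → Bool) → Finset α} (hg : Good g) {P : Finset α} {e : α} (he : e ∉ P)
    (s : St α) : step g P e (step g P e s) = s := by
  obtain ⟨u, m⟩ := s
  rcases step_cases hg he u with h | ⟨f, hf, a, b, c, d, e', k⟩ | ⟨f, hf, a, b, c, d, e', k⟩
  · have h1 : step g P e (u, m) = (flipAt e u, m) := by
      simp [step, move_none m h]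
    rw [h1]
    have h2 : move (g (flipAt e u)) (g u) P e m = (true, m) :=
      move_none m (fun x hx => (h x hx).symm)
    simp [step, flipAt_flipAt, h2]
  · by_cases hm : m f = true
    · have h1 : step g P e (u, m) = (u, m) := by
        simp [step, move_out m hf b d k, hm]
      rw [h1, h1]
    · have h1 : step g P e (u, m) =
          (flipAt e u, Function.update (Function.update m f (m e)) e true) := by
        simp [step, move_out m hf b d k, hm]
      rw [h1]
      have h2 := move_in (e := e) (Function.update (Function.update m f (m e)) e true) hf b d k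
      simp only [step, flipAt_flipAt, h2, Function.update_self, if_true]
      refine Prod.ext rfl ?_
      funext x
      by_cases hx : x = f
      · subst hx; simpa using hm
      · by_cases hxe : x = e
        · subst hxe; simp [hx, a]
        · simp [hx, hxe]
  · by_cases hm : m e = true
    · have h1 : step g P e (u, m) =
          (flipAt e u, Function.update (Function.update m e (m f)) f false) := by
        simp [step, move_in m hf b d k, hm]
      rw [h1]
      have h2 := move_out (e := e) (Function.update (Function.update m e (m f)) f false) hf b d k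
      simp only [step, flipAt_flipAt, h2, Function.update_self]
      refine Prod.ext (by simp) ?_
      funext x
      by_cases hxe : x = e
      · subst hxe; simp [hm]
      · by_cases hx : x = f
        · subst hx; simp [a, a.symm]
        · simp [hx, hxe]
    · have h1 : step g P e (u, m) = (u, m) := by
        simp [step, move_in m hf b d k, hm]
      rw [h1, h1]

lemma step_marked {g : (α → Bool) → Finset α} (hg : Good g) {P : Finset α} {e : α} (he : e ∉ P)
    (s : St α) {x : α} (hx : x ∈ P) : Marked g (step g P e s) x ↔ Marked g s x := by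
  obtain ⟨u, m⟩ := s
  have hxe : x ≠ e := fun h => he (h ▸ hx)
  rcases step_cases hg he u with h | ⟨f, hf, a, b, c, d, e', k⟩ | ⟨f, hf, a, b, c, d, e', k⟩
  · have h1 : step g P e (u, m) = (flipAt e u, m) := by
      simp [step, move_none m h]
    rw [h1]
    simp [Marked, h x hx]
  · by_cases hm : m f = true
    · have h1 : step g P e (u, m) = (u, m) := by
        simp [step, move_out m hf b d k, hm]
      rw [h1]
    · have h1 : step g P e (u, m) =
          (flipAt e u, Function.update (Function.update m f (m e)) e true) := by
        simp [step, move_out m hf b d k, hm]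
      rw [h1]
      by_cases hxf : x = f
      · subst hxf; simp [Marked, d, hm]
      · simp [Marked, hxe, hxf, k x hx hxf]
  · by_cases hm : m e = true
    · have h1 : step g P e (u, m) =
          (flipAt e u, Function.update (Function.update m e (m f)) f false) := by
        simp [step, move_in m hf b d k, hm]
      rw [h1]
      by_cases hxf : x = f
      · subst hxf; simp [Marked, d]
      · simp [Marked, hxe, hxf, k x hx hxf]
    · have h1 : step g P e (u, m) = (u, m) := by
        simp [step, move_in m hf b d k, hm]
      rw [h1]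

lemma step_accept {g : (α → Bool) → Finset α} (hg : Good g) {P : Finset α} {e : α} (he : e ∉ P)
    (s : St α) (h : Marked g (step g P e s) e) : (step g P e s).1 e = !s.1 e := by
  obtain ⟨u, m⟩ := s
  rcases step_cases hg he u with h' | ⟨f, hf, a, b, c, d, e', k⟩ | ⟨f, hf, a, b, c, d, e', k⟩
  · have h1 : step g P e (u, m) = (flipAt e u, m) := by
      simp [step, move_none m h']
    rw [h1]
    exact flipAt_self e u
  · by_cases hm : m f = true
    · have h1 : step g P e (u, m) = (u, m) := by
        simp [step, move_out m hf b d k, hm]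
      rw [h1] at h
      exact absurd h.1 c
    · have h1 : step g P e (u, m) =
          (flipAt e u, Function.update (Function.update m f (m e)) e true) := by
        simp [step, move_out m hf b d k, hm]
      rw [h1]
      exact flipAt_self e u
  · by_cases hm : m e = true
    · have h1 : step g P e (u, m) =
          (flipAt e u, Function.update (Function.update m e (m f)) f false) := by
        simp [step, move_in m hf b d k, hm]
      rw [h1]
      exact flipAt_self e u
    · have h1 : step g P e (u, m) = (u, m) := by
        simp [step, move_in m hf b d k, hm]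
      rw [h1] at h
      exact absurd h.2 hm

noncomputable def run (g : (α → Bool) → Finset α) : Finset α → List α → St α → St α
  | _, [], s => s
  | P, e :: l, s => run g (insert e P) l (step g P e s)

lemma run_append (g : (α → Bool) → Finset α) (l1 l2 : List α) (P : Finset α) (s : St α) :
    run g P (l1 ++ l2) s = run g (l1.toFinset ∪ P) l2 (run g P l1 s) := by
  induction l1 generalizing P s with
  | nil => simp [run]
  | cons e l ih =>
    simp only [List.cons_append, run, ih, List.toFinset_cons]
    congr 1
    ext x; simp

lemma run_fst (g : (α → Bool) → Finset α) (l : List α) (P : Finset α) (s : St α) {x : α}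
    (hx : x ∉ l) : (run g P l s).1 x = s.1 x := by
  induction l generalizing P s with
  | nil => rfl
  | cons e l ih =>
    simp only [List.mem_cons, not_or] at hx
    simp only [run]
    rw [ih _ _ hx.2, step_fst_ne g P hx.1]

lemma run_marked {g : (α → Bool) → Finset α} (hg : Good g) (l : List α) (hl : l.Nodup)
    (P : Finset α) (hP : ∀ x ∈ l, x ∉ P) (s : St α) {x : α} (hx : x ∈ P) :
    Marked g (run g P l s) x ↔ Marked g s x := by
  induction l generalizing P s with
  | nil => rfl
  | cons e l ih =>
    rw [List.nodup_cons] at hl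
    simp only [run]
    rw [ih hl.2 (insert e P) ?_ _ (Finset.mem_insert_of_mem hx),
      step_marked hg (hP e (by simp)) s hx]
    intro y hy hy'
    rcases Finset.mem_insert.1 hy' with rfl | hy'
    · exact hl.1 hy
    · exact hP y (by simp [hy]) hy'

lemma run_injective {g : (α → Bool) → Finset α} (hg : Good g) (l : List α) (hl : l.Nodup)
    (P : Finset α) (hP : ∀ x ∈ l, x ∉ P) : Function.Injective (run g P l) := by
  induction l generalizing P with
  | nil => intro s t h; exact h
  | cons e l ih =>
    rw [List.nodup_cons] at hl
    intro s t h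
    simp only [run] at h
    have h1 := ih hl.2 (insert e P) ?_ h
    · rw [← step_step hg (hP e (by simp)) s, h1, step_step hg (hP e (by simp)) t]
    · intro y hy hy'
      rcases Finset.mem_insert.1 hy' with rfl | hy'
      · exact hl.1 hy
      · exact hP y (by simp [hy]) hy'

lemma run_local {g g' : (α → Bool) → Finset α} (Q : α → Prop)
    (h : ∀ u, (∀ x, ¬ Q x → u x = false) → g u = g' u) (l : List α) (hl : ∀ x ∈ l, Q x)
    (P : Finset α) (s : St α) (hs : ∀ x, ¬ Q x → s.1 x = false) :
    run g P l s = run g' P l s := by
  induction l generalizing P s with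
  | nil => rfl
  | cons e l ih =>
    have he : Q e := hl e (by simp)
    have h1 : step g P e s = step g' P e s := by
      have a := h s.1 hs
      have b := h (flipAt e s.1) (fun x hx => by
        rw [flipAt_ne (show x ≠ e from fun h' => hx (h' ▸ he))]; exact hs x hx)
      simp only [step, a, b]
    simp only [run]
    rw [← h1]
    refine ih (fun x hx => hl x (by simp [hx])) _ _ ?_
    intro x hx
    rw [step_fst_ne g P (show x ≠ e from fun h' => hx (h' ▸ he))]
    exact hs x hx

def shift (c u : α → Bool) : α → Bool := fun x => xor (c x) (u x)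

lemma shift_flipAt (c u : α → Bool) (e : α) : shift c (flipAt e u) = flipAt e (shift c u) := by
  funext x
  by_cases h : x = e
  · subst h; simp [shift, flipAt]
  · simp [shift, flipAt, h]

lemma run_shift (g : (α → Bool) → Finset α) (c : α → Bool) (l : List α) (P : Finset α)
    (s : St α) :
    (shift c (run (fun u => g (shift c u)) P l s).1, (run (fun u => g (shift c u)) P l s).2) =
      run g P l (shift c s.1, s.2) := by
  induction l generalizing P s with
  | nil => rfl
  | cons e l ih =>
    simp only [run]
    rw [ih]
    congr 1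
    simp only [step, shift_flipAt]
    refine Prod.ext ?_ rfl
    dsimp only
    split_ifs
    · exact shift_flipAt c s.1 e
    · rfl

end Vale.Agent.P331
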