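import Mathlib
import Vale.Agent.P331.Step

open MeasureTheory
open scoped NNReal ENNReal
open Classical

namespace Vale.Agent.P331

variable {α : Type} [Fintype α] [DecidableEq α]

def val (S V : α → ℝ≥0) (u : α → Bool) : α → ℝ≥0 := fun x => if u x then V x else S x

noncomputable def oracle (M : Matroid α) (S V : α → ℝ≥0) : (α → Bool) → Finset α :=
  fun u => greedy M (val S V u)

lemma oracle_good (M : Matroid α) (S V : α → ℝ≥0) : Good (oracle M S V) := by
  intro u e
  refine greedy_exch M fun x hx => ?_
  simp [val, flipAt_ne hx]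

noncomputable def dec (M : Matroid α) : Decision α (α → Bool) := fun l e S V r =>
  Marked (oracle M S V) (run (oracle M S V) ∅ (l ++ [e]) (fun _ => false, r)) e

lemma dec_reveal (M : Matroid α) (l : List α) (e : α) (S V : α → ℝ≥0) (r : α → Bool) :
    dec M l e S (reveal l e V) r ↔ dec M l e S V r := by
  have h : ∀ u : α → Bool, (∀ x, ¬ (x ∈ l ∨ x = e) → u x = false) →
      oracle M S (reveal l e V) u = oracle M S V u := by
    intro u hu
    unfold oracle
    congr 1
    funext x
    by_cases hx : x ∈ l ∨ x = e
    · simp [val, reveal, hx]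
    · simp [val, hu x hx]
  have h1 := run_local (fun x => x ∈ l ∨ x = e) h (l ++ [e]) (by simp) ∅
    (fun _ => false, r) (fun _ _ => rfl)
  unfold dec Marked
  rw [h1, h]
  intro x hx
  rw [run_fst _ _ _ _ (by simpa using hx)]

omit [Fintype α] in
lemma before_split (π : List α) {e : α} (he : e ∈ π) : ∃ t, π = before π e ++ e :: t := by
  induction π with
  | nil => simp at he
  | cons a l ih =>
    by_cases h : a = e
    · subst h
      exact ⟨l, by simp [before]⟩
    · obtain ⟨t, ht⟩ := ih (by simpa [Ne.symm h] using he)
      refine ⟨t, ?_⟩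
      have : before (a :: l) e = a :: before l e := by simp [before, h]
      rw [this, List.cons_append, ← ht]

lemma accepted_iff (M : Matroid α) {π : List α} (hπ : π.Nodup) (z : Input α (α → Bool)) (e : α) :
    (e ∈ accepted (dec M) π z ↔ e ∈ π ∧
      Marked (oracle M z.1.1 z.1.2) (run (oracle M z.1.1 z.1.2) ∅ π (fun _ => false, z.2)) e) ∧
    (e ∈ accepted (dec M) π z →
      (run (oracle M z.1.1 z.1.2) ∅ π (fun _ => false, z.2)).1 e = true) := by
  by_cases he : e ∈ π
  · obtain ⟨t, ht⟩ := before_split π he
    set l := before π e with hl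
    have hnd : ((l ++ [e]) ++ t).Nodup := by
      have : (l ++ [e]) ++ t = π := by rw [ht]; simp
      rw [this]; exact hπ
    have hπ' : π = (l ++ [e]) ++ t := by rw [ht]; simp
    have hg := oracle_good M z.1.1 z.1.2
    have hacc : e ∈ accepted (dec M) π z ↔ dec M l e z.1.1 z.1.2 z.2 := by
      simp only [accepted, Set.mem_setOf_eq, he, true_and]
      exact dec_reveal M l e _ _ _
    have hdis := (List.nodup_append.1 hnd).2.2
    have het : e ∉ t := fun h => hdis e (by simp) e h rfl
    have hel : e ∉ l := by
      have := (List.nodup_append.1 (List.nodup_append.1 hnd).1).2.2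
      exact fun h => this e h e (by simp) rfl
    have hm : Marked (oracle M z.1.1 z.1.2)
        (run (oracle M z.1.1 z.1.2) ∅ π (fun _ => false, z.2)) e ↔ dec M l e z.1.1 z.1.2 z.2 := by
      conv_lhs => rw [hπ', run_append]
      refine run_marked hg t (List.nodup_append.1 hnd).2.1 _ ?_ _ (by simp)
      intro x hx hx'
      simp only [Finset.union_empty, List.mem_toFinset] at hx'
      exact hdis x hx' x hx rfl
    refine ⟨by rw [hacc, hm]; simp [he], fun h => ?_⟩
    rw [hacc] at h
    conv_lhs => rw [hπ', run_append, run_fst _ _ _ _ het]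
    unfold dec at h
    rw [run_append] at h ⊢
    simp only [run] at h ⊢
    rw [step_accept hg (by simpa using hel) _ h, run_fst _ _ _ _ hel]
    rfl
  · simp [accepted, he]

lemma dec_indep (M : Matroid α) {π : List α} (hπ : π.Nodup) (z : Input α (α → Bool)) :
    M.Indep (accepted (dec M) π z) := by
  refine (greedy_indep M (val z.1.1 z.1.2
    (run (oracle M z.1.1 z.1.2) ∅ π (fun _ => false, z.2)).1)).subset ?_
  intro e he
  exact_mod_cast (((accepted_iff M hπ z e).1.1 he).2).1

noncomputable def greedyOf (M : Matroid α) (R : α → α → Prop) : Finset α :=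
  Finset.univ.filter (fun e => e ∈ M.E ∧ e ∉ M.closure {x | R e x})

lemma dec_measurable (M : Matroid α) (l : List α) (e : α) :
    MeasurableSet {z : Input α (α → Bool) | dec M l e z.1.1 z.1.2 z.2} := by
  let pat : Input α (α → Bool) → ((α → Bool) → α → α → Prop) × (α → Bool) :=
    fun z => (fun u e x => Above (val z.1.1 z.1.2 u) x e, z.2)
  have hv : ∀ (u : α → Bool) (x : α),
      Measurable (fun z : Input α (α → Bool) => val z.1.1 z.1.2 u x) := by
    intro u x
    unfold val
    split_ifs <;> fun_prop
  have hpat : Measurable pat := by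
    refine Measurable.prodMk ?_ measurable_snd
    refine measurable_pi_lambda _ fun u => measurable_pi_lambda _ fun e =>
      measurable_pi_lambda _ fun x => ?_
    refine measurableSet_setOf.1 ?_
    unfold Above
    refine (measurableSet_lt (hv u e) (hv u x)).union
      ((measurableSet_eq_fun (hv u x) (hv u e)).inter (MeasurableSet.const _))
  have : {z : Input α (α → Bool) | dec M l e z.1.1 z.1.2 z.2} = pat ⁻¹'
      {p | Marked (fun u => greedyOf M (p.1 u))
        (run (fun u => greedyOf M (p.1 u)) ∅ (l ++ [e]) (fun _ => false, p.2)) e} := rfl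
  rw [this]
  exact hpat (MeasurableSet.of_discrete)

lemma dec_isRule (M : Matroid α) : IsRule M (dec M) :=
  ⟨dec_measurable M, fun _ hπ z => dec_indep M hπ z⟩

end Vale.Agent.P331
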