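import Mathlib
import Vale.Agent.P331.Rule

open MeasureTheory ProbabilityTheory
open scoped NNReal ENNReal
open Classical

namespace Vale.Agent.P331

variable {α : Type} [Fintype α] [DecidableEq α]

def mix (p : St α) (z : Input α (α → Bool)) : Input α (α → Bool) :=
  ((val z.1.1 z.1.2 p.1, val z.1.1 z.1.2 (fun x => !p.1 x)), shift p.2 z.2)

omit [Fintype α] [DecidableEq α] in
lemma val_mix (X Y : α → ℝ≥0) (c u : α → Bool) :
    val (val X Y c) (val X Y (fun x => !c x)) u = val X Y (shift c u) := by
  funext x
  cases hc : c x <;> cases hu : u x <;> simp [val, shift, hc, hu]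

omit [Fintype α] [DecidableEq α] in
lemma shift_shift (c u : α → Bool) : shift c (shift c u) = u := by
  funext x
  simp [shift]

noncomputable def final (M : Matroid α) (π : Input α (α → Bool) → List α)
    (z : Input α (α → Bool)) (p : St α) : St α :=
  run (oracle M z.1.1 z.1.2) ∅ (π (mix p z)) (p.1, shift p.2 z.2)

lemma final_spec (M : Matroid α) {π : Input α (α → Bool) → List α} (hπ : ∀ z, IsOrder (π z))
    (z : Input α (α → Bool)) (p : St α) (e : α) :
    (e ∈ accepted (dec M) (π (mix p z)) (mix p z) ↔
      Marked (oracle M z.1.1 z.1.2) (final M π z p) e) ∧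
    (e ∈ accepted (dec M) (π (mix p z)) (mix p z) →
      (mix p z).1.2 e = val z.1.1 z.1.2 (final M π z p).1 e) := by
  have ho : oracle M (mix p z).1.1 (mix p z).1.2 =
      fun u => oracle M z.1.1 z.1.2 (shift p.1 u) := by
    funext u
    simp only [oracle, mix, val_mix]
  have hs := run_shift (oracle M z.1.1 z.1.2) p.1 (π (mix p z)) ∅ (fun _ => false, shift p.2 z.2)
  have h0 : shift p.1 (fun _ => false) = p.1 := by funext x; simp [shift]
  simp only [h0] at hs
  obtain ⟨h1, h2⟩ := accepted_iff M (hπ (mix p z)).1 (mix p z) e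
  rw [ho] at h1 h2
  have hz : (mix p z).2 = shift p.2 z.2 := rfl
  rw [hz] at h1 h2
  unfold final
  rw [← hs]
  refine ⟨by rw [h1]; simp [(hπ (mix p z)).2 e, Marked], fun h => ?_⟩
  have := h2 h
  show val z.1.1 z.1.2 (fun x => !p.1 x) e = val z.1.1 z.1.2 (shift p.1 _) e
  unfold val
  rw [shift, this]
  cases hp : p.1 e <;> simp [hp]

lemma final_injective (M : Matroid α) {π : Input α (α → Bool) → List α}
    (hπ : ∀ z, IsOrder (π z)) (hs : SeesOnlyDecisions (dec M) π) (z : Input α (α → Bool)) :
    Function.Injective (final M π z) := by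
  intro p q h
  have hk : ∀ k, (π (mix p z)).take k = (π (mix q z)).take k := by
    intro k
    induction k with
    | zero => simp
    | succ k ih =>
      refine hs _ _ k ih fun e _ => ?_
      obtain ⟨a, b⟩ := final_spec M hπ z p e
      obtain ⟨c, d⟩ := final_spec M hπ z q e
      have hiff : e ∈ accepted (dec M) (π (mix p z)) (mix p z) ↔
          e ∈ accepted (dec M) (π (mix q z)) (mix q z) := by rw [a, c, h]
      exact ⟨hiff, fun he => by rw [b he, d (hiff.1 he), h]⟩
  have hl : π (mix p z) = π (mix q z) := by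
    have := hk (max (π (mix p z)).length (π (mix q z)).length)
    rwa [List.take_of_length_le (le_max_left _ _), List.take_of_length_le (le_max_right _ _)]
      at this
  unfold final at h
  rw [← hl] at h
  have h1 := run_injective (oracle_good M z.1.1 z.1.2) _ (hπ (mix p z)).1 ∅ (by simp) h
  obtain ⟨h2, h3⟩ := Prod.ext_iff.1 h1
  refine Prod.ext h2 ?_
  funext x
  have := congrFun h3 x
  simp only [shift] at this
  cases hp : p.2 x <;> cases hq : q.2 x <;> cases hz : z.2 x <;> simp_all

lemma sum_marks (e : α) (a : ℝ≥0∞) :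
    2 * ∑ m : α → Bool, (if m e = true then a else 0) = ∑ _m : α → Bool, a := by
  have h1 : ∑ m : α → Bool, (if m e = true then a else 0) =
      ∑ m : α → Bool, (if m e = true then 0 else a) := by
    refine Finset.sum_bij' (fun m _ => flipAt e m) (fun m _ => flipAt e m) (by simp) (by simp)
      (fun m _ => flipAt_flipAt e m) (fun m _ => flipAt_flipAt e m) ?_
    intro m _
    cases hm : m e <;> simp [flipAt_self, hm]
  rw [two_mul]
  conv_lhs => rw [h1]
  rw [← h1]
  conv_lhs => enter [2]; rw [h1]
  rw [← Finset.sum_add_distrib]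
  refine Finset.sum_congr rfl fun m _ => ?_
  split_ifs <;> simp

lemma pointwise (M : Matroid α) {π : Input α (α → Bool) → List α}
    (hπ : ∀ z, IsOrder (π z)) (hs : SeesOnlyDecisions (dec M) π) (z : Input α (α → Bool)) :
    ∑ p : St α, opt M (mix p z).1.2 ≤ 2 * ∑ p : St α, gain (dec M) (π (mix p z)) (mix p z) := by
  let F : St α → ℝ≥0∞ := fun s => ∑ e, if Marked (oracle M z.1.1 z.1.2) s e then
    (val z.1.1 z.1.2 s.1 e : ℝ≥0∞) else 0
  have h1 : ∀ p, gain (dec M) (π (mix p z)) (mix p z) = F (final M π z p) := by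
    intro p
    refine Finset.sum_congr rfl fun e _ => ?_
    obtain ⟨a, b⟩ := final_spec M hπ z p e
    by_cases he : e ∈ accepted (dec M) (π (mix p z)) (mix p z)
    · rw [Set.indicator_of_mem he, if_pos (a.1 he), b he]
    · rw [Set.indicator_of_notMem he, if_neg (fun h => he (a.2 h))]
  have hbij : Function.Bijective (final M π z) :=
    Finite.injective_iff_bijective.1 (final_injective M hπ hs z)
  have h2 : ∑ p : St α, gain (dec M) (π (mix p z)) (mix p z) = ∑ s, F s := by
    simp only [h1]
    exact hbij.sum_comp F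
  have h3 : ∑ p : St α, opt M (mix p z).1.2 = ∑ s : St α, opt M (val z.1.1 z.1.2 s.1) := by
    refine Finset.sum_bij' (fun p _ => (fun x => !p.1 x, p.2)) (fun p _ => (fun x => !p.1 x, p.2))
      (by simp) (by simp) (by simp) (by simp) ?_
    intro p _
    rfl
  rw [h2, h3, Fintype.sum_prod_type, Fintype.sum_prod_type, Finset.mul_sum]
  refine Finset.sum_le_sum fun u _ => ?_
  simp only [F]
  rw [Finset.sum_comm, Finset.mul_sum]
  calc ∑ _m : α → Bool, opt M (val z.1.1 z.1.2 u)
      ≤ ∑ _m : α → Bool, ∑ e, if e ∈ oracle M z.1.1 z.1.2 u then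
          (val z.1.1 z.1.2 u e : ℝ≥0∞) else 0 := by
        refine Finset.sum_le_sum fun m _ => ?_
        rw [Finset.sum_ite_mem, Finset.univ_inter]
        exact opt_le_greedy M _
    _ = ∑ e, ∑ _m : α → Bool, if e ∈ oracle M z.1.1 z.1.2 u then
          (val z.1.1 z.1.2 u e : ℝ≥0∞) else 0 := Finset.sum_comm
    _ = _ := by
        refine Finset.sum_congr rfl fun e _ => ?_
        rw [← sum_marks e]
        congr 1
        refine Finset.sum_congr rfl fun m _ => ?_
        by_cases h1 : e ∈ oracle M z.1.1 z.1.2 u <;> by_cases h2 : m e = true <;>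
          simp [Marked, h1, h2]

lemma mix_preserving (D : α → Measure ℝ≥0) [∀ e, IsProbabilityMeasure (D e)] (p : St α) :
    MeasurePreserving (mix p) (inputLaw D (uniformOn (Set.univ : Set (α → Bool))))
      (inputLaw D (uniformOn (Set.univ : Set (α → Bool)))) := by
  have h1 : MeasurePreserving (shift p.2) (uniformOn (Set.univ : Set (α → Bool)))
      (uniformOn (Set.univ : Set (α → Bool))) := by
    refine ⟨Measurable.of_discrete, Measure.ext_of_singleton fun a => ?_⟩
    rw [Measure.map_apply Measurable.of_discrete (MeasurableSet.singleton a)]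
    have : shift p.2 ⁻¹' {a} = {shift p.2 a} := by
      ext u
      simp only [Set.mem_preimage, Set.mem_singleton_iff]
      constructor
      · rintro rfl; rw [shift_shift]
      · rintro rfl; rw [shift_shift]
    rw [this, uniformOn_univ, uniformOn_univ]
    simp
  have h2 : ∀ x, MeasurePreserving
      (fun y : ℝ≥0 × ℝ≥0 => if p.1 x then y.swap else y) ((D x).prod (D x)) ((D x).prod (D x)) := by
    intro x
    cases p.1 x
    · exact MeasurePreserving.id _
    · simpa using Measure.measurePreserving_swap
  have h3 := measurePreserving_pi _ _ h2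
  have h4 := measurePreserving_arrowProdEquivProdArrow ℝ≥0 ℝ≥0 α D D
  have h5 := (h4.comp h3).comp h4.symm
  have h6 := h5.prod h1
  have : mix p = Prod.map (((MeasurableEquiv.arrowProdEquivProdArrow ℝ≥0 ℝ≥0 α) ∘
      fun (a : α → ℝ≥0 × ℝ≥0) i => if p.1 i then (a i).swap else a i) ∘
      (MeasurableEquiv.arrowProdEquivProdArrow ℝ≥0 ℝ≥0 α).symm) (shift p.2) := by
    funext z
    refine Prod.ext (Prod.ext ?_ ?_) rfl <;> funext x <;> cases h : p.1 x <;>
      simp [mix, val, h, MeasurableEquiv.arrowProdEquivProdArrow, Equiv.arrowProdEquivProdArrow]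
  rw [this]
  exact h6

lemma opt_measurable (M : Matroid α) : Measurable (opt M) := by
  unfold opt
  refine Measurable.iSup fun I => Measurable.iSup_Prop _ ?_
  fun_prop

lemma gain_measurable {Ω : Type} [MeasurableSpace Ω] {M : Matroid α} {d : Decision α Ω}
    (hd : IsRule M d) {π : Input α Ω → List α} (hπ : IsAdversary π) :
    Measurable (fun z => gain d (π z) z) := by
  letI : MeasurableSpace (List α) := ⊤
  have h1 : Measurable π := measurable_to_countable' fun l => hπ.2 l
  have h2 : Measurable (fun q : Input α Ω × List α => gain d q.2 q.1) := by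
    refine measurable_from_prod_countable_left fun l => ?_
    refine Finset.measurable_sum _ fun e _ => ?_
    have hs : MeasurableSet {z : Input α Ω | e ∈ accepted d l z} := by
      have hm : Measurable (fun z : Input α Ω =>
          (((z.1.1, reveal (before l e) e z.1.2), z.2) : Input α Ω)) := by
        refine Measurable.prodMk (Measurable.prodMk (by fun_prop) ?_) measurable_snd
        refine measurable_pi_lambda _ fun x => ?_
        unfold reveal
        split_ifs <;> fun_prop
      exact (MeasurableSet.const (e ∈ l)).inter (hm (hd.1 (before l e) e))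
    exact Measurable.ite hs (by fun_prop) measurable_const
  exact h2.comp (measurable_id.prodMk h1)

theorem half_competitive (M : Matroid α) (D : α → Measure ℝ≥0)
    [∀ e, IsProbabilityMeasure (D e)] (π : Input α (α → Bool) → List α) (hπ : IsAdversary π)
    (hs : SeesOnlyDecisions (dec M) π) :
    ∫⁻ z, opt M z.1.2 ∂(inputLaw D (uniformOn (Set.univ : Set (α → Bool)))) ≤
      2 * ∫⁻ z, gain (dec M) (π z) z ∂(inputLaw D (uniformOn (Set.univ : Set (α → Bool)))) := by
  set P := inputLaw D (uniformOn (Set.univ : Set (α → Bool))) with hP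
  have hg := gain_measurable (dec_isRule M) hπ
  have ho : Measurable (fun z : Input α (α → Bool) => opt M z.1.2) :=
    (opt_measurable M).comp (by fun_prop)
  have h1 : ∫⁻ z, ∑ p : St α, opt M (mix p z).1.2 ∂P =
      (Fintype.card (St α) : ℝ≥0∞) * ∫⁻ z, opt M z.1.2 ∂P := by
    rw [lintegral_finsetSum (f := fun (p : St α) z => opt M (mix p z).1.2) _
      fun p _ => ho.comp (mix_preserving D p).measurable]
    rw [Finset.sum_congr rfl fun p _ => (mix_preserving D p).lintegral_comp ho]
    simp [hP]
  have h2 : ∫⁻ z, ∑ p : St α, gain (dec M) (π (mix p z)) (mix p z) ∂P =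
      (Fintype.card (St α) : ℝ≥0∞) * ∫⁻ z, gain (dec M) (π z) z ∂P := by
    rw [lintegral_finsetSum (f := fun (p : St α) z => gain (dec M) (π (mix p z)) (mix p z)) _
      fun p _ => hg.comp (mix_preserving D p).measurable]
    rw [Finset.sum_congr rfl fun p _ => (mix_preserving D p).lintegral_comp hg]
    simp [hP]
  have h3 := lintegral_mono (μ := P) (pointwise M hπ.1 hs)
  rw [lintegral_const_mul' _ _ (by simp), h1, h2, mul_left_comm] at h3
  exact (ENNReal.mul_le_mul_iff_right (by simp) (ENNReal.natCast_ne_top _)).1 h3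

end Vale.Agent.P331
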