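import Mathlib
import Vale.Agent.P331.Spec

open Finset
open Classical

namespace Vale.Agent.P331

variable {α : Type} [Fintype α] [DecidableEq α]

namespace Path

variable {ρ : Rk α} {κ : ℕ}

lemma Xf_mono_succ (hκ : 1 ≤ κ) (Dl Gl : ℤ → Finset α) (N : ℕ) :
    ∀ i, Xf ρ κ Dl Gl N i ⊆ Xf ρ κ Dl Gl (N + 1) i := by
  induction N with
  | zero =>
    intro i
    simp only [Xf]
    exact (Rk.subset_Ex _ _ _).trans subset_union_left
  | succ N ih =>
    intro i
    rw [Xf, Xf]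
    exact union_subset_union (Rk.Ex_mono κ subset_rfl (ih _)) subset_rfl

lemma Xf_mono (hκ : 1 ≤ κ) (Dl Gl : ℤ → Finset α) {N N' : ℕ} (h : N ≤ N') (i : ℤ) :
    Xf ρ κ Dl Gl N i ⊆ Xf ρ κ Dl Gl N' i := by
  induction h with
  | refl => exact subset_rfl
  | step _ ih => exact ih.trans (Xf_mono_succ hκ Dl Gl _ i)

lemma exists_Xf (hκ : 1 ≤ κ) (Dl Gl : ℤ → Finset α) (i : ℤ) :
    ∃ N, ∀ N', N ≤ N' → Xf ρ κ Dl Gl N' i = Xl ρ κ Dl Gl i := by
  have h : ∀ x : α, ∃ N, x ∈ Xl ρ κ Dl Gl i → x ∈ Xf ρ κ Dl Gl N i := by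
    intro x
    by_cases hx : x ∈ Xl ρ κ Dl Gl i
    · obtain ⟨N, hN⟩ : ∃ N, x ∈ Xf ρ κ Dl Gl N i := by simpa [Xl] using hx
      exact ⟨N, fun _ => hN⟩
    · exact ⟨0, fun h => absurd h hx⟩
  choose f hf using h
  refine ⟨univ.sup f, fun N' hN' => Subset.antisymm (fun x hx => ?_) (fun x hx => ?_)⟩
  · simpa [Xl] using ⟨N', hx⟩
  · exact Xf_mono hκ Dl Gl ((le_sup (mem_univ x)).trans hN') i (hf x hx)

lemma Xl_succ (hκ : 1 ≤ κ) (Dl Gl : ℤ → Finset α) (i : ℤ) :
    Xl ρ κ Dl Gl (i + 1) = ρ.Ex κ (Dl i) (Xl ρ κ Dl Gl i) ∪ Gl i := by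
  obtain ⟨N1, h1⟩ := exists_Xf (ρ := ρ) hκ Dl Gl i
  obtain ⟨N2, h2⟩ := exists_Xf (ρ := ρ) hκ Dl Gl (i + 1)
  rw [← h2 (max N1 N2 + 1) (by omega), Xf, add_sub_cancel_right, h1 _ (le_max_left _ _)]

lemma Xl_base (hκ : 1 ≤ κ) (Dl Gl : ℤ → Finset α) (m : ℤ)
    (h : ∀ j, j < m → Dl j = ∅ ∧ Gl j = ∅) {i : ℤ} (hi : i ≤ m) : Xl ρ κ Dl Gl i = ρ.cl ∅ := by
  have key : ∀ N i, i ≤ m → Xf ρ κ Dl Gl N i = ρ.cl ∅ := by
    intro N
    induction N with
    | zero => intro i _; rfl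
    | succ N ih =>
      intro i hi
      rw [Xf, ih _ (by omega), (h _ (by omega)).1, (h _ (by omega)).2, union_empty,
        Rk.Ex_empty hκ, Rk.cl_cl]
  obtain ⟨N1, h1⟩ := exists_Xf (ρ := ρ) hκ Dl Gl i
  rw [← h1 N1 le_rfl, key _ _ hi]

omit [DecidableEq α] in
lemma exists_low (lv : α → Option ℤ) : ∃ m : ℤ, ∀ x j, lv x = some j → m ≤ j := by
  obtain ⟨m, hm⟩ := (univ.image (fun x => (lv x).getD 0)).bddBelow
  refine ⟨m, fun x j hx => ?_⟩
  have := hm (a := j) (by simpa using ⟨x, by simp [hx]⟩)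
  exact this

omit [DecidableEq α] in
/-- upward induction over the levels -/
lemma level_ind (lv : α → Option ℤ) (P : ℤ → Prop)
    (h0 : ∀ i, (∀ x j, lv x = some j → i ≤ j) → P i) (h1 : ∀ i, P i → P (i + 1)) (i : ℤ) : P i := by
  obtain ⟨m, hm⟩ := exists_low lv
  by_cases hi : i ≤ m
  · exact h0 i fun x j hx => hi.trans (hm x j hx)
  · exact Int.le_induction (motive := fun n _ => P n) (h0 m hm) (fun n _ h => h1 n h) i (by omega)

omit [Fintype α] in
lemma mem_lev {lv : α → Option ℤ} {S : Finset α} {g : ℤ} {x : α} :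
    x ∈ lev lv S g ↔ x ∈ S ∧ lv x = some g := by simp [lev]

lemma act_sub (lv : α → Option ℤ) (D : Finset α) (d : ℕ) (g : ℤ) : act lv D d g ⊆ lev lv D g := by
  unfold act
  split_ifs
  · exact subset_rfl
  · exact empty_subset _

lemma act_anti (lv : α → Option ℤ) (D : Finset α) {d d' : ℕ} (h : d ≤ d') (g : ℤ) :
    act lv D d' g ⊆ act lv D d g := by
  unfold act
  split_ifs with h1 h2
  · exact subset_rfl
  · omega
  · exact empty_subset _
  · exact subset_rfl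

lemma XX_base (hκ : 1 ≤ κ) (lv : α → Option ℤ) (D : Finset α) (d : ℕ) (G : Finset α) {i : ℤ}
    (hi : ∀ x j, lv x = some j → i ≤ j) : XX ρ κ lv D d G i = ρ.cl ∅ := by
  refine Xl_base hκ _ _ i (fun j hj => ?_) le_rfl
  have h : ∀ S, lev lv S j = ∅ := fun S => eq_empty_of_forall_notMem fun x hx => by
    have := hi x j (mem_lev.1 hx).2
    omega
  exact ⟨subset_empty.1 ((act_sub lv D d j).trans (h D).subset), h G⟩

lemma XX_succ (hκ : 1 ≤ κ) (lv : α → Option ℤ) (D : Finset α) (d : ℕ) (G : Finset α) (i : ℤ) :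
    XX ρ κ lv D d G (i + 1) = NN ρ κ lv D d G i ∪ lev lv G i := Xl_succ hκ _ _ i

lemma XX_sub_NN (lv : α → Option ℤ) (D : Finset α) (d : ℕ) (G : Finset α) (i : ℤ) :
    XX ρ κ lv D d G i ⊆ NN ρ κ lv D d G i := Rk.subset_Ex _ _ _

/-- the master comparison -/
lemma XX_le (hκ : 1 ≤ κ) (lv : α → Option ℤ) (D D' : Finset α) (d d' : ℕ) (G G' : Finset α) (g : ℤ)
    (hD : ∀ j, j < g → act lv D d j ⊆ act lv D' d' j)
    (hG : ∀ j, j < g → lev lv G j ⊆ NN ρ κ lv D' d' G' j ∪ lev lv G' j) :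
    ∀ i, i ≤ g → XX ρ κ lv D d G i ⊆ XX ρ κ lv D' d' G' i := by
  intro i
  refine level_ind lv (fun i => i ≤ g → XX ρ κ lv D d G i ⊆ XX ρ κ lv D' d' G' i) ?_ ?_ i
  · intro i hi _
    rw [XX_base hκ _ _ _ _ hi, XX_base hκ _ _ _ _ hi]
  · intro i ih hi
    rw [XX_succ hκ, XX_succ hκ]
    refine union_subset (Subset.trans ?_ subset_union_left) (hG i (by omega))
    exact Rk.Ex_mono κ (hD i (by omega)) (ih (by omega))

lemma XX_mono (hκ : 1 ≤ κ) (lv : α → Option ℤ) (D : Finset α) {d d' : ℕ} (hd : d' ≤ d)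
    {G G' : Finset α} (hG : G ⊆ G') (i : ℤ) : XX ρ κ lv D d G i ⊆ XX ρ κ lv D d' G' i :=
  XX_le hκ lv D D d d' G G' i (fun j _ => act_anti lv D hd j)
    (fun j _ => (filter_subset_filter _ hG).trans subset_union_right) i le_rfl

lemma NN_mono (hκ : 1 ≤ κ) (lv : α → Option ℤ) (D : Finset α) {d d' : ℕ} (hd : d' ≤ d)
    {G G' : Finset α} (hG : G ⊆ G') (i : ℤ) : NN ρ κ lv D d G i ⊆ NN ρ κ lv D d' G' i :=
  Rk.Ex_mono κ (act_anti lv D hd i) (XX_mono hκ lv D hd hG i)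

lemma XX_level_mono (hκ : 1 ≤ κ) (lv : α → Option ℤ) (D : Finset α) (d : ℕ) (G : Finset α)
    {i j : ℤ} (h : i ≤ j) : XX ρ κ lv D d G i ⊆ XX ρ κ lv D d G j := by
  refine Int.le_induction (motive := fun n _ => XX ρ κ lv D d G i ⊆ XX ρ κ lv D d G n) subset_rfl
    (fun n _ ih => ?_) j h
  rw [XX_succ hκ]
  exact (ih.trans (XX_sub_NN _ _ _ _ _)).trans subset_union_left

lemma succ_sub_XX (hκ : 1 ≤ κ) (lv : α → Option ℤ) (D : Finset α) (d : ℕ) (G : Finset α)
    {i j : ℤ} (h : i < j) : NN ρ κ lv D d G i ∪ lev lv G i ⊆ XX ρ κ lv D d G j := by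
  rw [← XX_succ hκ]
  exact XX_level_mono hκ lv D d G (by omega)

lemma Cd_eq (lv : α → Option ℤ) (D C : Finset α) (d : ℕ) :
    Cd ρ κ lv D C d = C.filter (geD ρ κ lv D C d) := by
  cases d with
  | zero => ext x; simp [Cd, geD]
  | succ d =>
    ext x
    simp [Cd, geD, inN, Nd]

lemma mem_Cd {lv : α → Option ℤ} {D C : Finset α} {d : ℕ} {x : α} :
    x ∈ Cd ρ κ lv D C d ↔ x ∈ C ∧ geD ρ κ lv D C d x := by
  rw [Cd_eq, mem_filter]

lemma Cd_anti (hκ : 1 ≤ κ) (lv : α → Option ℤ) (D C : Finset α) (d : ℕ) :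
    Cd ρ κ lv D C (d + 1) ⊆ Cd ρ κ lv D C d := by
  induction d with
  | zero => exact filter_subset _ _
  | succ d ih =>
    intro x hx
    rw [mem_Cd] at hx ⊢
    obtain ⟨h1, g, h2, h3⟩ := hx
    exact ⟨h1, g, h2, NN_mono hκ lv D (Nat.le_succ d) ih g h3⟩

lemma Nd_anti (hκ : 1 ≤ κ) (lv : α → Option ℤ) (D C : Finset α) (d : ℕ) (g : ℤ) :
    Nd ρ κ lv D C (d + 1) g ⊆ Nd ρ κ lv D C d g :=
  NN_mono hκ lv D (Nat.le_succ d) (Cd_anti hκ lv D C d) g

lemma Nd_anti' (hκ : 1 ≤ κ) (lv : α → Option ℤ) (D C : Finset α) {d d' : ℕ} (h : d ≤ d') (g : ℤ) :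
    Nd ρ κ lv D C d' g ⊆ Nd ρ κ lv D C d g := by
  induction h with
  | refl => exact subset_rfl
  | step _ ih => exact (Nd_anti hκ lv D C _ g).trans ih

lemma Ad_anti (hκ : 1 ≤ κ) (lv : α → Option ℤ) (D C : Finset α) (d : ℕ) (g : ℤ) :
    Ad ρ κ lv D C (d + 1) g ⊆ Ad ρ κ lv D C d g :=
  XX_mono hκ lv D (Nat.le_succ d) (Cd_anti hκ lv D C d) g

lemma inN_anti (hκ : 1 ≤ κ) {lv : α → Option ℤ} {D C : Finset α} {d d' : ℕ} (h : d ≤ d') {x : α}
    (hx : inN ρ κ lv D C d' x) : inN ρ κ lv D C d x := by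
  obtain ⟨g, h1, h2⟩ := hx
  exact ⟨g, h1, Nd_anti' hκ lv D C h g h2⟩

lemma inN_of_geD (hκ : 1 ≤ κ) {lv : α → Option ℤ} {D C : Finset α} {d d' : ℕ} (h : d' < d) {x : α}
    (hx : geD ρ κ lv D C d x) : inN ρ κ lv D C d' x := by
  cases d with
  | zero => omega
  | succ d => exact inN_anti hκ (by omega) hx

omit [Fintype α] in
lemma below_congr {lv : α → Option ℤ} {D D' : Finset α} {g : ℤ}
    (h : ∀ x j, j < g → lv x = some j → (x ∈ D ↔ x ∈ D')) {i : ℤ} (hi : i ≤ g) :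
    below lv D i = below lv D' i := by
  ext x
  simp only [below, mem_filter]
  constructor
  · rintro ⟨h1, j, h2, h3⟩
    exact ⟨(h x j (by omega) h3).1 h1, j, h2, h3⟩
  · rintro ⟨h1, j, h2, h3⟩
    exact ⟨(h x j (by omega) h3).2 h1, j, h2, h3⟩

omit [Fintype α] in
lemma lev_congr {lv : α → Option ℤ} {D D' : Finset α} {j : ℤ}
    (h : ∀ x, lv x = some j → (x ∈ D ↔ x ∈ D')) : lev lv D j = lev lv D' j := by
  ext x
  simp only [mem_lev]
  constructor
  · rintro ⟨h1, h3⟩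
    exact ⟨(h x h3).1 h1, h3⟩
  · rintro ⟨h1, h3⟩
    exact ⟨(h x h3).2 h1, h3⟩

lemma act_congr {lv : α → Option ℤ} {D D' : Finset α} {g : ℤ}
    (h : ∀ x j, j < g → lv x = some j → (x ∈ D ↔ x ∈ D')) (d : ℕ) {j : ℤ} (hj : j < g) :
    act lv D d j = act lv D' d j := by
  unfold act
  rw [below_congr h (i := j + 1) (by omega), lev_congr (fun x hx => h x j hj hx)]

lemma XX_congr (hκ : 1 ≤ κ) {lv : α → Option ℤ} {D D' G G' : Finset α} {g : ℤ}
    (hD : ∀ x j, j < g → lv x = some j → (x ∈ D ↔ x ∈ D'))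
    (hG : ∀ x j, j < g → lv x = some j → (x ∈ G ↔ x ∈ G')) (d : ℕ) {i : ℤ} (hi : i ≤ g) :
    XX ρ κ lv D d G i = XX ρ κ lv D' d G' i := by
  refine Subset.antisymm (XX_le hκ lv D D' d d G G' g (fun j hj => (act_congr hD d hj).subset)
    (fun j hj => ?_) i hi) (XX_le hκ lv D' D d d G' G g (fun j hj => (act_congr hD d hj).superset)
    (fun j hj => ?_) i hi)
  · rw [lev_congr (fun x hx => hG x j hj hx)]; exact subset_union_right
  · rw [← lev_congr (fun x hx => hG x j hj hx)]; exact subset_union_right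

lemma loc_aux (hκ : 1 ≤ κ) {lv : α → Option ℤ} {D D' C C' : Finset α} {g : ℤ}
    (hD : ∀ x j, j < g → lv x = some j → (x ∈ D ↔ x ∈ D'))
    (hC : ∀ x j, j < g → lv x = some j → (x ∈ C ↔ x ∈ C')) (d : ℕ) :
    ∀ x j, j < g → lv x = some j → (geD ρ κ lv D C d x ↔ geD ρ κ lv D' C' d x) := by
  induction d with
  | zero => intro x j _ _; simp [geD]
  | succ d ih =>
    intro x j hj hx
    have h1 : Nd ρ κ lv D C d j = Nd ρ κ lv D' C' d j := by
      unfold Nd NN
      rw [act_congr hD d hj, XX_congr hκ hD (G' := Cd ρ κ lv D' C' d) _ d hj.le]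
      intro y i hi hy
      rw [mem_Cd, mem_Cd, hC y i hi hy, ih y i hi hy]
    simp only [geD, inN, hx, Option.some.injEq, exists_eq_left', h1]

lemma loc (hκ : 1 ≤ κ) (lv : α → Option ℤ) (D D' C C' T T' : Finset α) (g : ℤ)
    (h : ∀ x j, j < g → lv x = some j → (x ∈ D ↔ x ∈ D') ∧ (x ∈ C ↔ x ∈ C') ∧ (x ∈ T ↔ x ∈ T')) :
    K0 lv D g = K0 lv D' g ∧ ∀ d, Ad ρ κ lv D C d g = Ad ρ κ lv D' C' d g ∧
      Bd ρ κ lv D C T d g = Bd ρ κ lv D' C' T' d g := by
  have hD := fun x j a b => (h x j a b).1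
  have hC := fun x j a b => (h x j a b).2.1
  have hT := fun x j a b => (h x j a b).2.2
  have hg := loc_aux (ρ := ρ) hκ hD hC
  refine ⟨by unfold K0; rw [below_congr hD le_rfl], fun d => ⟨XX_congr hκ hD ?_ d le_rfl,
    XX_congr hκ hD ?_ d le_rfl⟩⟩
  · intro y i hi hy
    rw [mem_Cd, mem_Cd, hC y i hi hy, hg d y i hi hy]
  · intro y i hi hy
    have h2 := hg (d + 1) y i hi hy
    simp only [mem_union, mem_Cd, Td, mem_filter, hC y i hi hy, hT y i hi hy, hg d y i hi hy, h2]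
    simp only [geD] at h2
    rw [h2]

lemma inv (hκ : 1 ≤ κ) (lv : α → Option ℤ) (D C C' : Finset α) (d : ℕ) (x : α)
    (hx : geD ρ κ lv D C d x) (h : ∀ y, y ≠ x → (y ∈ C ↔ y ∈ C')) :
    ∀ y, geD ρ κ lv D C d y ↔ geD ρ κ lv D C' d y := by
  have key : ∀ d', d' ≤ d → ∀ y, geD ρ κ lv D C d' y ↔ geD ρ κ lv D C' d' y := by
    intro d'
    induction d' with
    | zero => intro _ y; simp [geD]
    | succ k ih =>
      intro hk y
      obtain ⟨j, hj, hxj⟩ := inN_of_geD hκ (d' := k) (by omega) hx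
      have hag : ∀ z, z ≠ x → (z ∈ Cd ρ κ lv D C k ↔ z ∈ Cd ρ κ lv D C' k) := by
        intro z hz
        rw [mem_Cd, mem_Cd, h z hz, ih (by omega) z]
      have hlow : XX ρ κ lv D k (Cd ρ κ lv D C k) j = XX ρ κ lv D k (Cd ρ κ lv D C' k) j := by
        refine XX_congr hκ (g := j) (fun _ _ _ _ => Iff.rfl) (fun z i hi hz => hag z ?_) k le_rfl
        rintro rfl
        rw [hj] at hz
        simp at hz
        omega
      have hxj' : x ∈ NN ρ κ lv D k (Cd ρ κ lv D C' k) j := by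
        unfold NN
        rw [← hlow]
        exact hxj
      have hall : ∀ i, XX ρ κ lv D k (Cd ρ κ lv D C k) i = XX ρ κ lv D k (Cd ρ κ lv D C' k) i := by
        intro i
        refine Subset.antisymm (XX_le hκ lv D D k k _ _ i (fun _ _ => subset_rfl)
          (fun l _ z hz => ?_) i le_rfl) (XX_le hκ lv D D k k _ _ i (fun _ _ => subset_rfl)
          (fun l _ z hz => ?_) i le_rfl)
        · rw [mem_lev] at hz
          by_cases hzx : z = x
          · subst hzx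
            obtain rfl : l = j := by simpa [hj] using hz.2.symm
            exact mem_union_left _ hxj'
          · exact mem_union_right _ (mem_lev.2 ⟨(hag z hzx).1 hz.1, hz.2⟩)
        · rw [mem_lev] at hz
          by_cases hzx : z = x
          · subst hzx
            obtain rfl : l = j := by simpa [hj] using hz.2.symm
            exact mem_union_left _ hxj
          · exact mem_union_right _ (mem_lev.2 ⟨(hag z hzx).2 hz.1, hz.2⟩)
      simp only [geD, inN, Nd, NN, hall]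
  exact key d le_rfl

omit [Fintype α] in
lemma below_succ_card (lv : α → Option ℤ) (D : Finset α) (g : ℤ) (h : (lev lv D g).Nonempty) :
    (below lv D g).card + 1 ≤ (below lv D (g + 1)).card := by
  obtain ⟨x, hx⟩ := h
  rw [mem_lev] at hx
  have h1 : x ∉ below lv D g := by simp [below, hx.2]
  rw [← card_insert_of_notMem h1]
  refine card_le_card (insert_subset ?_ fun y hy => ?_)
  · simp [below, hx.1, hx.2]
  · simp only [below, mem_filter] at hy ⊢
    obtain ⟨h2, j, h3, h4⟩ := hy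
    exact ⟨h2, j, by omega, h4⟩

lemma act_eq (lv : α → Option ℤ) (D : Finset α) {d : ℕ} {g : ℤ} (h : d < 2 * K0 lv D g) :
    act lv D d g = lev lv D g := by
  unfold act
  split_ifs with h1
  · rfl
  · by_contra hc
    have h2 := below_succ_card lv D g (nonempty_iff_ne_empty.2 (Ne.symm hc))
    unfold K0 at h
    have := Nat.mul_le_mul_left (Fintype.card α + 1) h2
    omega

lemma B_sub_A (hκ : 1 ≤ κ) (lv : α → Option ℤ) (D C T : Finset α) (d : ℕ) (g : ℤ) :
    Bd ρ κ lv D C T (d + 1) g ⊆ Ad ρ κ lv D C d g := by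
  refine XX_le hκ lv D D _ _ _ _ g (fun j _ => act_anti lv D (Nat.le_succ d) j)
    (fun j _ x hx => mem_union_left _ ?_) g le_rfl
  rw [mem_lev] at hx
  have h1 : inN ρ κ lv D C d x := by
    rcases mem_union.1 hx.1 with h | h
    · exact inN_anti hκ (Nat.le_succ d) (mem_Cd.1 h).2
    · exact (mem_filter.1 h).2.1
  obtain ⟨i, h2, h3⟩ := h1
  obtain rfl : i = j := by simpa [h2] using hx.2
  exact h3

lemma Fd_sub (hκ : 1 ≤ κ) (lv : α → Option ℤ) (D C : Finset α) (d : ℕ) (g : ℤ) :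
    Fd ρ κ lv D C d ⊆ ρ.cl (Nd ρ κ lv D C d g ∪ (lev lv C g ∪ above lv (g + 1))) := by
  set W := Nd ρ κ lv D C d g ∪ (lev lv C g ∪ above lv (g + 1)) with hW
  have hab : ∀ (S : Finset α) (i : ℤ), g + 1 ≤ i → lev lv S i ⊆ ρ.cl W := by
    intro S i hi x hx
    refine Rk.subset_cl _ (mem_union_right _ (mem_union_right _ ?_))
    simp only [above, mem_filter, mem_univ, true_and]
    exact ⟨i, hi, (mem_lev.1 hx).2⟩
  have hstep : ∀ i, g + 1 ≤ i → XX ρ κ lv D d (Cd ρ κ lv D C d) i ⊆ ρ.cl W →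
      Nd ρ κ lv D C d i ⊆ ρ.cl W := by
    intro i hi h
    exact (Rk.Ex_subset_cl' hκ _ _).trans
      (Rk.cl_subset_cl (union_subset h ((act_sub lv D d i).trans (hab D i hi))))
  have hup : ∀ i, g + 1 ≤ i → XX ρ κ lv D d (Cd ρ κ lv D C d) i ⊆ ρ.cl W := by
    intro i hi
    refine Int.le_induction (motive := fun n _ => XX ρ κ lv D d (Cd ρ κ lv D C d) n ⊆ ρ.cl W) ?_
      (fun n hn ih => ?_) i hi
    · rw [XX_succ hκ]
      refine Subset.trans (union_subset_union subset_rfl ?_) (Rk.subset_cl _)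
      refine Subset.trans (filter_subset_filter _ ?_) subset_union_left
      rw [Cd_eq]; exact filter_subset _ _
    · rw [XX_succ hκ]
      exact union_subset (hstep n hn ih) (hab _ n hn)
  intro x hx
  obtain ⟨i, hi⟩ : ∃ i, x ∈ Nd ρ κ lv D C d i := by simpa [Fd] using hx
  rcases lt_trichotomy i g with h | rfl | h
  · refine Rk.subset_cl _ (mem_union_left _ (XX_sub_NN _ _ _ _ _ ?_))
    exact succ_sub_XX hκ lv D d _ h (mem_union_left _ hi)
  · exact Rk.subset_cl _ (mem_union_left _ hi)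
  · exact hstep i (by omega) (hup i (by omega)) hi

lemma last (hκ : 1 ≤ κ) (lv : α → Option ℤ) (D C : Finset α) (g : ℤ) :
    Nd ρ κ lv D C (2 * K0 lv D g - 1) g ⊆ ρ.Ex κ (lev lv D g) ∅ := by
  set e := 2 * ((Fintype.card α + 1) * (below lv D g).card) with he
  have hact : ∀ d j, e ≤ d → j < g → act lv D d j = ∅ := by
    intro d j hd hj
    unfold act
    rw [if_neg]
    have h1 : (below lv D (j + 1)).card ≤ (below lv D g).card := by
      refine card_le_card fun y hy => ?_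
      simp only [below, mem_filter] at hy ⊢
      obtain ⟨h2, i, h3, h4⟩ := hy
      exact ⟨h2, i, by omega, h4⟩
    have := Nat.mul_le_mul_left (Fintype.card α + 1) h1
    omega
  have hX : ∀ d G, e ≤ d → ∀ i, i ≤ g → XX ρ κ lv D d G i ⊆ ρ.cl (below lv G i) := by
    intro d G hd i
    refine level_ind lv (fun i => i ≤ g → XX ρ κ lv D d G i ⊆ ρ.cl (below lv G i)) ?_ ?_ i
    · intro i hi _
      rw [XX_base hκ _ _ _ _ hi]
      exact Rk.cl_mono (empty_subset _)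
    · intro i ih hi
      rw [XX_succ hκ, NN, hact d i hd (by omega), Rk.Ex_empty hκ]
      refine union_subset (Rk.cl_subset_cl ((ih (by omega)).trans (Rk.cl_mono fun y hy => ?_)))
        (Subset.trans (fun y hy => ?_) (Rk.subset_cl _))
      · simp only [below, mem_filter] at hy ⊢
        obtain ⟨h2, l, h3, h4⟩ := hy
        exact ⟨h2, l, by omega, h4⟩
      · rw [mem_lev] at hy
        simp only [below, mem_filter]
        exact ⟨hy.1, i, by omega, hy.2⟩
  let S : ℕ → Finset α := fun k => below lv (Cd ρ κ lv D C (e + k)) g \ ρ.cl ∅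
  have hS : ∀ k, S (k + 1) = ∅ ∨ (S (k + 1)).card < (S k).card := by
    intro k
    have hsub : S (k + 1) ⊆ S k :=
      sdiff_subset_sdiff (filter_subset_filter _ (Cd_anti hκ lv D C (e + k))) subset_rfl
    rcases (S k).eq_empty_or_nonempty with h | h
    · exact Or.inl (subset_empty.1 (h ▸ hsub))
    · right
      obtain ⟨x, hx, hmin⟩ := exists_min_image (S k) (fun x => (lv x).getD 0) h
      refine card_lt_card ⟨hsub, fun hc => ?_⟩
      have h1 := mem_sdiff.1 (hc hx)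
      obtain ⟨h2, j, hj, hxj⟩ := mem_filter.1 h1.1
      obtain ⟨i, h3, h4⟩ : inN ρ κ lv D C (e + k) x := (mem_Cd.1 h2).2
      obtain rfl : i = j := by simpa [h3] using hxj
      apply h1.2
      rw [Nd, NN, hact _ i (by omega) hj, Rk.Ex_empty hκ] at h4
      refine Rk.cl_subset_cl ((hX _ _ (by omega) i hj.le).trans (Rk.cl_subset_cl ?_)) h4
      intro y hy
      by_contra hy'
      obtain ⟨h5, l, h6, h7⟩ := mem_filter.1 hy
      have h8 : y ∈ S k := mem_sdiff.2 ⟨mem_filter.2 ⟨h5, l, by omega, h7⟩, hy'⟩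
      have := hmin y h8
      simp [h3, h7] at this
      omega
  have hS2 : ∀ k, S k = ∅ ∨ (S k).card + k ≤ Fintype.card α := by
    intro k
    induction k with
    | zero => exact Or.inr (by simpa using card_le_univ _)
    | succ k ih =>
      rcases hS k with h | h
      · exact Or.inl h
      · rcases ih with h1 | h1
        · rw [h1] at h; simp at h
        · exact Or.inr (by omega)
  have hk : 2 * K0 lv D g - 1 = e + (2 * Fintype.card α + 1) := by
    unfold K0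
    rw [he]
    have : (Fintype.card α + 1) * ((below lv D g).card + 1) =
        (Fintype.card α + 1) * (below lv D g).card + (Fintype.card α + 1) := by ring
    omega
  have hE : S (2 * Fintype.card α + 1) = ∅ := by
    rcases hS2 (2 * Fintype.card α + 1) with h | h
    · exact h
    · omega
  rw [hk]
  have h1 : XX ρ κ lv D (e + (2 * Fintype.card α + 1))
      (Cd ρ κ lv D C (e + (2 * Fintype.card α + 1))) g ⊆ ρ.cl ∅ :=
    (hX _ _ (by omega) g le_rfl).trans (Rk.cl_subset_cl (sdiff_eq_empty_iff_subset.1 hE))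
  have h2 : ρ.cl ∅ ⊆ ρ.Ex κ (lev lv D g) ∅ := Rk.cl_subset_Ex κ _ (empty_subset _)
  rw [← Rk.Ex_eq_of_between κ _ (empty_subset _) h2]
  exact Rk.Ex_mono κ (act_sub _ _ _ _) h1

lemma dep_eq (hκ : 1 ≤ κ) (lv : α → Option ℤ) (D C : Finset α) (d : ℕ) (x : α)
    (h1 : geD ρ κ lv D C d x) (h2 : ¬ inN ρ κ lv D C d x) : dep ρ κ lv D C x = d := by
  refine le_antisymm (Nat.sInf_le h2) ?_
  by_contra hc
  exact Nat.sInf_mem (s := {d | ¬ inN ρ κ lv D C d x}) ⟨d, h2⟩ (inN_of_geD hκ (not_le.1 hc) h1)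

lemma Fd_anti (hκ : 1 ≤ κ) (lv : α → Option ℤ) (D C : Finset α) {d d' : ℕ} (h : d ≤ d') :
    Fd ρ κ lv D C d' ⊆ Fd ρ κ lv D C d := by
  intro x hx
  simp only [Fd, mem_filter, mem_univ, true_and] at hx ⊢
  obtain ⟨g, hg⟩ := hx
  exact ⟨g, Nd_anti' hκ lv D C h g hg⟩

lemma congr (lv lv' : α → Option ℤ) (D C : Finset α) (h : ∀ x ∈ D ∪ C, lv x = lv' x) :
    ∀ d g, Nd ρ κ lv D C d g = Nd ρ κ lv' D C d g := by
  have h1 : ∀ S ⊆ D ∪ C, lev lv S = lev lv' S := by
    intro S hS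
    funext g
    exact filter_congr fun x hx => by rw [h x (hS hx)]
  have h2 : ∀ d, act lv D d = act lv' D d := by
    intro d
    funext g
    unfold act
    have : below lv D (g + 1) = below lv' D (g + 1) :=
      filter_congr fun x hx => by rw [h x (mem_union_left _ hx)]
    rw [this, h1 D subset_union_left]
  have h3 : ∀ d G, G ⊆ D ∪ C → ∀ g, NN ρ κ lv D d G g = NN ρ κ lv' D d G g := by
    intro d G hG g
    unfold NN XX
    rw [h2, h1 G hG]
  have h4 : ∀ d, Cd ρ κ lv D C d ⊆ D ∪ C := fun d => by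
    rw [Cd_eq]; exact (filter_subset _ _).trans subset_union_right
  have h5 : ∀ d, Cd ρ κ lv D C d = Cd ρ κ lv' D C d := by
    intro d
    induction d with
    | zero => rfl
    | succ d ih =>
      rw [Cd, Cd]
      refine filter_congr fun x hx => ?_
      rw [h x (mem_union_right _ hx), ← ih]
      simp only [h3 d _ (h4 d)]
  intro d g
  unfold Nd
  rw [← h5, h3 d _ (h4 d)]

end Path

open Path in
theorem pathStmt : PathStmt α where
  Cd_eq := fun _ _ => Cd_eq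
  NN_mono := fun _ _ hκ lv D _ _ _ hG g => NN_mono hκ lv D le_rfl hG g
  Nd_anti := fun _ _ hκ => Nd_anti hκ
  Ad_anti := fun _ _ hκ => Ad_anti hκ
  loc := fun _ _ hκ => loc hκ
  loc_same := fun ρ κ hκ lv D C C' T T' g h d => by
    have := (loc (ρ := ρ) hκ lv D D C C' T T' g fun x j a b => ⟨Iff.rfl, h x j a b⟩).2 d
    unfold Ad Bd at this
    unfold Nd Bh NN
    rw [this.1, this.2]
    exact ⟨rfl, rfl⟩
  inv := fun _ _ hκ => inv hκ
  act_eq := fun ρ κ lv D C T d g h => by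
    unfold Nd Bh NN Ad Bd
    rw [act_eq lv D h]
    exact ⟨rfl, rfl⟩
  A_sub_B := fun _ _ hκ lv D C T d g => XX_mono hκ lv D (Nat.le_succ d) subset_union_left g
  B_sub_A := fun _ _ hκ => B_sub_A hκ
  N_sub_Bh := fun _ _ hκ lv D C T d g => NN_mono hκ lv D (Nat.le_succ d) subset_union_left g
  Bh_sub_N := fun _ κ hκ lv D C T d g =>
    Rk.Ex_mono κ (act_anti lv D (Nat.le_succ d) g) (B_sub_A hκ lv D C T d g)
  Td_sub := fun _ _ hκ lv D C T d g j x hx hj hjg =>
    XX_sub_NN _ _ _ _ _ (succ_sub_XX hκ lv D d _ hjg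
      (mem_union_right _ (mem_lev.2 ⟨mem_union_right _ hx, hj⟩)))
  Fd_anti := fun _ _ hκ lv D C _ _ h => Fd_anti hκ lv D C h
  Fd_sub := fun _ _ hκ => Fd_sub hκ
  last := fun _ _ hκ => last hκ
  dep_eq := fun _ _ hκ => dep_eq hκ
  chain := fun ρ κ hκ lv D C x y h1 h2 => by
    have h3 : inN ρ κ lv D C (dep ρ κ lv D C x + 1) y := by
      by_contra hc
      have : dep ρ κ lv D C y ≤ dep ρ κ lv D C x + 1 := Nat.sInf_le hc
      omega
    obtain ⟨g, _, h5⟩ := h3
    exact Rk.subset_cl _ (by simpa [Fd] using ⟨g, h5⟩)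
  congr := fun _ _ => congr

end Vale.Agent.P331
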