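import Vale.Agent.P331.Spec

/-! P331, module S: the expected unblocked rank. -/

open Finset
open Classical

namespace Vale.Agent.P331

variable {α : Type} [Fintype α] [DecidableEq α]

namespace PsiB

/-- the number of unblocked elements of one parity -/
noncomputable def JS (ρ : Rk α) (κ : ℕ) (lv : α → Option ℤ) (D C T V : Finset α) (ε : ℕ) (g : ℤ) :
    ℝ := ∑ j ∈ range (K0 lv D g), ((Jd ρ κ lv D C T V (2 * j + ε) g).card : ℝ)

def mix (lv : α → Option ℤ) (g : ℤ) (db b : α → Bool) : α → Bool :=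
  fun x => if lv x = some g then b x else db x

omit [Fintype α] [DecidableEq α] in
lemma mix_mix (lv : α → Option ℤ) (g : ℤ) (db b : α → Bool) :
    mix lv g (mix lv g db b) (mix lv g b db) = db := by
  funext x
  unfold mix
  split_ifs <;> rfl

lemma split (lv : α → Option ℤ) (g : ℤ) (F : (α → Bool) → ℝ) :
    ∑ db, ∑ b, F (mix lv g db b) = Fintype.card (α → Bool) * ∑ db, F db := by
  let e : (α → Bool) × (α → Bool) ≃ (α → Bool) × (α → Bool) :=
    Function.Involutive.toPerm (fun p => (mix lv g p.1 p.2, mix lv g p.2 p.1))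
      (fun p => Prod.ext (mix_mix lv g p.1 p.2) (mix_mix lv g p.2 p.1))
  have h := e.sum_comp (fun p => F p.1)
  rw [Fintype.sum_prod_type, Fintype.sum_prod_type] at h
  rw [mul_sum]
  refine h.trans (sum_congr rfl (fun db _ => ?_))
  simp

lemma low (hP : PathStmt α) (ρ : Rk α) {κ : ℕ} (hκ : 1 ≤ κ) (lv : α → Option ℤ)
    (U B D C T V : Finset α) (g : ℤ) (hB : B ⊆ lev lv U g) (hr : ρ.r B = B.card) (hD : D ⊆ U)
    (bl : α → ℝ) (h0 : ∀ e, 0 ≤ bl e)
    (h1 : ∀ e, (∃ d < 2 * K0 lv D g, e ∉ Nd ρ κ lv D C d g ∧ e ∈ Bh ρ κ lv D C T d g) → 1 ≤ bl e) :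
    ((B ∩ V).card : ℝ) ≤ JS ρ κ lv D C T V 0 g + JS ρ κ lv D C T V 1 g +
      (lev lv U g).card / κ + ∑ e ∈ lev lv U g, bl e := by
  have hK : 1 ≤ K0 lv D g := Nat.succ_le_of_lt (Nat.mul_pos (Nat.succ_pos _) (Nat.succ_pos _))
  have hsub : B ∩ V ⊆ ((range (K0 lv D g)).biUnion (fun j => Jd ρ κ lv D C T V (2 * j + 0) g ∪
      Jd ρ κ lv D C T V (2 * j + 1) g) ∪ B ∩ ρ.Ex κ (lev lv D g) ∅) ∪
      (lev lv U g).filter (fun e => 1 ≤ bl e) := by
    intro e he
    obtain ⟨heB, heV⟩ := mem_inter.1 he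
    have hlv : lv e = some g := (mem_filter.1 (hB heB)).2
    by_cases hE : e ∈ ρ.Ex κ (lev lv D g) ∅
    · exact mem_union_left _ (mem_union_right _ (mem_inter.2 ⟨heB, hE⟩))
    have hex : ∃ d, e ∉ Nd ρ κ lv D C d g := ⟨_, fun h => hE (hP.last ρ hκ lv D C g h)⟩
    have hd1 := Nat.find_spec hex
    have hd2 : Nat.find hex ≤ 2 * K0 lv D g - 1 :=
      Nat.find_min' hex (fun h => hE (hP.last ρ hκ lv D C g h))
    have hd3 : ∀ d < Nat.find hex, e ∈ Nd ρ κ lv D C d g := fun d hd =>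
      not_not.1 (Nat.find_min hex hd)
    generalize Nat.find hex = d at hd1 hd2 hd3
    by_cases hb : e ∈ Bh ρ κ lv D C T d g
    · exact mem_union_right _ (mem_filter.2 ⟨hB heB, h1 e ⟨d, by omega, hd1, hb⟩⟩)
    have hge : geD ρ κ lv D C d e := by
      cases d with
      | zero => trivial
      | succ d => exact ⟨g, hlv, hd3 d (Nat.lt_succ_self d)⟩
    have hJ : e ∈ Jd ρ κ lv D C T V d g :=
      mem_filter.2 ⟨mem_filter.2 ⟨heV, hlv⟩, hge, hd1, hb⟩
    refine mem_union_left _ (mem_union_left _ (mem_biUnion.2 ⟨d / 2, mem_range.2 (by omega), ?_⟩))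
    rcases Nat.mod_two_eq_zero_or_one d with h | h
    · rw [show 2 * (d / 2) + 0 = d by omega]
      exact mem_union_left _ hJ
    · rw [show 2 * (d / 2) + 1 = d by omega]
      exact mem_union_right _ hJ
  have c1 : (((range (K0 lv D g)).biUnion (fun j => Jd ρ κ lv D C T V (2 * j + 0) g ∪
      Jd ρ κ lv D C T V (2 * j + 1) g)).card : ℝ) ≤
      JS ρ κ lv D C T V 0 g + JS ρ κ lv D C T V 1 g := by
    unfold JS
    rw [← sum_add_distrib]
    exact_mod_cast card_biUnion_le.trans (sum_le_sum (fun j _ => card_union_le _ _))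
  have c2 : ((B ∩ ρ.Ex κ (lev lv D g) ∅).card : ℝ) ≤ (lev lv U g).card / κ := by
    have a1 := Rk.indep_mono (ρ := ρ) (W := ∅) (W' := ∅) (I := B)
      (I' := B ∩ ρ.Ex κ (lev lv D g) ∅) (by rw [empty_union, ρ.r_empty, zero_add, hr])
      subset_rfl inter_subset_left
    rw [empty_union, ρ.r_empty, zero_add] at a1
    have a2 : ρ.r (B ∩ ρ.Ex κ (lev lv D g) ∅) ≤ ρ.r (ρ.Ex κ (lev lv D g) ∅) :=
      ρ.mono inter_subset_right
    have a3 := Rk.Ex_cost (ρ := ρ) κ (lev lv D g) (X := ∅) (W := ∅) subset_rfl (empty_subset _)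
    rw [ρ.r_empty, mul_zero, zero_add, sdiff_empty] at a3
    have a4 : (lev lv D g ∩ ρ.Ex κ (lev lv D g) ∅).card ≤ (lev lv U g).card :=
      card_le_card (inter_subset_left.trans (filter_subset_filter _ hD))
    have a5 : (B ∩ ρ.Ex κ (lev lv D g) ∅).card * κ ≤ (lev lv U g).card := by
      rw [← a1, mul_comm]
      exact (Nat.mul_le_mul_left κ a2).trans (a3.trans a4)
    rw [le_div_iff₀ (by exact_mod_cast hκ)]
    exact_mod_cast a5
  have c3 : (((lev lv U g).filter (fun e => 1 ≤ bl e)).card : ℝ) ≤ ∑ e ∈ lev lv U g, bl e := by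
    rw [card_eq_sum_ones, Nat.cast_sum, sum_filter]
    refine sum_le_sum (fun e _ => ?_)
    split_ifs with h
    · exact_mod_cast h
    · exact h0 e
  have c4 := (card_le_card hsub).trans ((card_union_le _ _).trans
    (Nat.add_le_add_right (card_union_le _ _) _))
  have c5 := (Nat.cast_le (α := ℝ)).2 c4
  push_cast at c5
  linarith

/-- the previous set of the chain -/
noncomputable def Pf (A : ℕ → Finset α) : ℕ → Finset α
  | 0 => univ
  | d + 1 => A d

omit [Fintype α] [DecidableEq α] in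
lemma lev_Ds (lv : α → Option ℤ) (g : ℤ) (U : Finset α) (db b : α → Bool) :
    lev lv (Ds U (mix lv g db b)) g = Ds (lev lv U g) b := by
  ext x
  simp only [lev, Ds, mix, mem_filter]
  by_cases h : lv x = some g <;> simp [h]

omit [Fintype α] [DecidableEq α] in
lemma lev_Vs (lv : α → Option ℤ) (g : ℤ) (U : Finset α) (db b : α → Bool) :
    lev lv (Vs U (mix lv g db b)) g = Vs (lev lv U g) b := by
  ext x
  simp only [lev, Vs, mix, mem_filter]
  by_cases h : lv x = some g <;> simp [h]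

omit [Fintype α] in
lemma psi_nn (ρ : Rk α) (X J : ℕ → Finset α) (K : ℕ) :
    0 ≤ ∑ j ∈ range K, ((ρ.r (X j ∪ J j) : ℝ) - ρ.r (X j)) :=
  sum_nonneg (fun _ _ => sub_nonneg.2 (Nat.cast_le.2 (ρ.mono subset_union_left)))

lemma ent1 (hP : PathStmt α) (hN : EntStmt α) {γ : Type} [DecidableEq γ] (PC PT : Finset γ)
    (ρ : Rk α) {κ : ℕ} (hκ : κ = 3000000) (lv : α → Option ℤ) (U : Finset α) (g : ℤ)
    (ct : α → γ) (ε : ℕ) (hε : ε < 2) (db : α → Bool) :
    ∑ b, ((1 / 3 : ℝ) * JS ρ κ lv (Ds U (mix lv g db b)) (Ss (Vs U (mix lv g db b)) PC ct)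
        (Ss (Vs U (mix lv g db b)) PT ct) (Vs U (mix lv g db b)) ε g -
      (9 / 1000 * (lev lv U g).card + 4000000 * Psi ρ κ lv (Ds U (mix lv g db b))
        (Ss (Vs U (mix lv g db b)) PC ct) (Ss (Vs U (mix lv g db b)) PT ct)
          (Vs U (mix lv g db b)) ε g)) ≤ 0 := by
  have hκ1 : 1 ≤ κ := by omega
  set A : ℕ → Finset α := fun d => Ad ρ κ lv (Ds U db) (Ss (Vs U db) PC ct) d g with hA
  set Bb : ℕ → Finset α :=
    fun d => Bd ρ κ lv (Ds U db) (Ss (Vs U db) PC ct) (Ss (Vs U db) PT ct) d g with hBb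
  have hAa : ∀ d, A (d + 1) ⊆ A d := fun d => hP.Ad_anti ρ hκ1 lv _ _ d g
  have hPf : ∀ d, A d ⊆ Pf A d := by
    intro d
    cases d with
    | zero => exact subset_univ _
    | succ d => exact hAa d
  have e2 : ∀ j, 2 * (j + 1) + ε = 2 * j + ε + 1 + 1 := fun j => by ring
  have hmain := hN ρ κ hκ1 (fun j => Pf A (2 * j + ε)) (fun j => A (2 * j + ε))
    (fun j => Bb (2 * j + ε))
    (fun j => by rw [e2]; exact (hAa _).trans (hPf _))
    (fun j => by rw [e2]; exact (hAa _).trans (hAa _))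
    (fun j => by
      rw [e2]
      exact (hP.B_sub_A ρ hκ1 lv _ _ _ _ g).trans (hP.A_sub_B ρ hκ1 lv _ _ _ _ g))
    (fun j => by rw [e2]; exact hAa _)
    (K0 lv (Ds U db) g) (lev lv U g) (1 / 2000) (by norm_num) (by norm_num) _ (fun _ _ => rfl)
  have hloc := fun b => hP.loc ρ hκ1 lv (Ds U (mix lv g db b)) (Ds U db)
    (Ss (Vs U (mix lv g db b)) PC ct) (Ss (Vs U db) PC ct)
    (Ss (Vs U (mix lv g db b)) PT ct) (Ss (Vs U db) PT ct) g (fun x j hj hx => by
      have h : mix lv g db b x = db x := if_neg (by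
        rw [hx]
        exact fun h => hj.ne (Option.some.inj h))
      simp only [Ds, Ss, Vs, mem_filter, h, and_self])
  have hNd : ∀ b d, d < 2 * K0 lv (Ds U db) g →
      Nd ρ κ lv (Ds U (mix lv g db b)) (Ss (Vs U (mix lv g db b)) PC ct) d g =
        ρ.Ex κ (Ds (lev lv U g) b) (A d) ∧
      Bh ρ κ lv (Ds U (mix lv g db b)) (Ss (Vs U (mix lv g db b)) PC ct)
        (Ss (Vs U (mix lv g db b)) PT ct) d g = ρ.Ex κ (Ds (lev lv U g) b) (Bb d) := by
    intro b d hd
    have h := hP.act_eq ρ κ lv (Ds U (mix lv g db b)) (Ss (Vs U (mix lv g db b)) PC ct)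
      (Ss (Vs U (mix lv g db b)) PT ct) d g (by rw [(hloc b).1]; exact hd)
    rw [lev_Ds, ((hloc b).2 d).1, ((hloc b).2 d).2] at h
    exact h
  have hJd : ∀ b d, d < 2 * K0 lv (Ds U db) g →
      Jd ρ κ lv (Ds U (mix lv g db b)) (Ss (Vs U (mix lv g db b)) PC ct)
        (Ss (Vs U (mix lv g db b)) PT ct) (Vs U (mix lv g db b)) d g =
      (Vs (lev lv U g) b).filter (fun x => x ∈ ρ.Ex κ (Ds (lev lv U g) b) (Pf A d) ∧
        x ∉ ρ.Ex κ (Ds (lev lv U g) b) (A d) ∧ x ∉ ρ.Ex κ (Ds (lev lv U g) b) (Bb d)) := by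
    intro b d hd
    ext x
    rw [Jd, lev_Vs, (hNd b d hd).1, (hNd b d hd).2, mem_filter, mem_filter]
    refine and_congr_right (fun hx => and_congr_left (fun _ => ?_))
    have hlv : lv x = some g := (mem_filter.1 (mem_filter.1 hx).1).2
    cases d with
    | zero => exact ⟨fun _ => Rk.subset_Ex _ _ _ (mem_univ x), fun _ => trivial⟩
    | succ d =>
      have h := (hNd b d (by omega)).1
      constructor
      · rintro ⟨g', h1, h2⟩
        rw [hlv] at h1
        rw [← Option.some.inj h1, h] at h2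
        exact h2
      · intro h2
        exact ⟨g, hlv, by rw [h]; exact h2⟩
  have hl0 : 0 ≤ Real.log (1 / (1 / 2000)) := Real.log_nonneg (by norm_num)
  have hl1 : Real.log (1 / (1 / 2000)) ≤ 2000 := by
    have := Real.log_le_sub_one_of_pos (show (0 : ℝ) < 1 / (1 / 2000) by norm_num)
    linarith
  have hκr : (κ : ℝ) = 3000000 := by rw [hκ]; norm_num
  rw [sum_sub_distrib, sub_nonpos, ← mul_sum]
  refine le_trans (le_of_eq ?_) (hmain.trans (sum_le_sum (fun b _ => ?_)))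
  · congr 1
    refine sum_congr rfl (fun b _ => ?_)
    rw [JS, (hloc b).1]
    refine sum_congr rfl (fun j hj => ?_)
    rw [hJd b _ (by have := mem_range.1 hj; omega)]
  · have e : Psi ρ κ lv (Ds U (mix lv g db b)) (Ss (Vs U (mix lv g db b)) PC ct)
        (Ss (Vs U (mix lv g db b)) PT ct) (Vs U (mix lv g db b)) ε g =
        ∑ j ∈ range (K0 lv (Ds U db) g), ((ρ.r (ρ.Ex κ (Ds (lev lv U g) b) (Bb (2 * j + ε)) ∪
          (Vs (lev lv U g) b).filter (fun x => x ∈ ρ.Ex κ (Ds (lev lv U g) b) (Pf A (2 * j + ε)) ∧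
            x ∉ ρ.Ex κ (Ds (lev lv U g) b) (A (2 * j + ε)) ∧
              x ∉ ρ.Ex κ (Ds (lev lv U g) b) (Bb (2 * j + ε)))) : ℝ) -
          ρ.r (ρ.Ex κ (Ds (lev lv U g) b) (Bb (2 * j + ε)))) := by
      rw [Psi, (hloc b).1]
      refine sum_congr rfl (fun j hj => ?_)
      have hd : 2 * j + ε < 2 * K0 lv (Ds U db) g := by have := mem_range.1 hj; omega
      rw [hJd b _ hd, (hNd b _ hd).2]
    rw [e]
    refine add_le_add ?_ (mul_le_mul_of_nonneg_right (by rw [hκr]; linarith) (psi_nn ρ _ _ _))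
    rw [mul_comm]
    refine mul_le_mul_of_nonneg_right ?_ (Nat.cast_nonneg _)
    rw [hκr]
    linarith

lemma half (U B : Finset α) (hB : B ⊆ U) :
    ∑ db : α → Bool, ((B ∩ Vs U db).card : ℝ) = Fintype.card (α → Bool) * B.card / 2 := by
  have e : ∀ db : α → Bool, ((B ∩ Vs U db).card : ℝ) =
      ∑ x ∈ B, (if db x ∈ ({false} : Finset Bool) then (1 : ℝ) else 0) := by
    intro db
    rw [← sum_filter, sum_const, nsmul_eq_mul, mul_one]
    congr 2
    ext x
    simp only [Vs, mem_inter, mem_filter, mem_singleton]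
    exact ⟨fun h => ⟨h.1, h.2.2⟩, fun h => ⟨h.1, hB h.1, h.2⟩⟩
  rw [sum_congr rfl (fun db _ => e db), sum_comm]
  have h : ∀ x, ∑ db : α → Bool, (if db x ∈ ({false} : Finset Bool) then (1 : ℝ) else 0) =
      Fintype.card (α → Bool) / 2 := by
    intro x
    have h1 := coord_sum x ({false} : Finset Bool) univ (subset_univ _) (fun _ => 1)
      (fun _ _ _ _ => rfl)
    simp only [card_univ, Fintype.card_bool, card_singleton, mem_univ, if_true, sum_const,
      nsmul_eq_mul, mul_one, Nat.cast_ofNat, Nat.cast_one, one_mul] at h1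
    linarith
  rw [sum_congr rfl (fun x _ => h x), sum_const, nsmul_eq_mul]
  ring

end PsiB

open PsiB in
theorem psiStmt (hP : PathStmt α) (hK : BlockStmt α) (hN : EntStmt α) : PsiStmt α := by
  intro γ _ _ PC PT hdis h1 h101 ρ lv U B g hB hr
  obtain ⟨κ, hκ⟩ : ∃ κ : ℕ, κ = 3000000 := ⟨_, rfl⟩
  rw [← hκ]
  have hκ1 : 1 ≤ κ := by omega
  have hκr : (κ : ℝ) = 3000000 := by rw [hκ]; norm_num
  have hN1 : (0 : ℝ) < Fintype.card (α → Bool) := by exact_mod_cast Fintype.card_pos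
  have hbl : ∀ (db : α → Bool) (e : α), ∃ bl : (α → γ) → ℝ, (∀ ct, 0 ≤ bl ct) ∧
      (∀ ct, (∃ d < 2 * K0 lv (Ds U db) g, e ∉ Nd ρ κ lv (Ds U db) (Ss (Vs U db) PC ct) d g ∧
        e ∈ Bh ρ κ lv (Ds U db) (Ss (Vs U db) PC ct) (Ss (Vs U db) PT ct) d g) → 1 ≤ bl ct) ∧
      ∑ ct, bl ct ≤ Fintype.card (α → γ) / 100 := by
    intro db e
    have h := hK γ PC PT hdis (by omega) ρ κ hκ1 lv (Ds U db) (Vs U db) g e (2 * K0 lv (Ds U db) g)
    have key : ∀ bl : (α → γ) → ℝ, (∀ ct, 0 ≤ bl ct) →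
        ((PC.card : ℝ) - PT.card) * ∑ ct, bl ct ≤ PT.card * Fintype.card (α → γ) →
        ∑ ct, bl ct ≤ Fintype.card (α → γ) / 100 := by
      intro bl h0 h2
      have h3 : 0 ≤ ∑ ct, bl ct := sum_nonneg (fun ct _ => h0 ct)
      have h4 : (101 : ℝ) * PT.card ≤ PC.card := by exact_mod_cast h101
      have h5 : (1 : ℝ) ≤ PT.card := by exact_mod_cast h1
      have h6 : (PT.card : ℝ) * (100 * ∑ ct, bl ct) ≤ PT.card * Fintype.card (α → γ) := by
        nlinarith
      have h7 := le_of_mul_le_mul_left h6 (by linarith)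
      linarith
    refine ⟨_, ?_, ?_, key _ ?_ h⟩
    · intro ct
      split_ifs <;> norm_num
    · intro ct hct
      rw [if_pos hct]
    · intro ct
      split_ifs <;> norm_num
  choose bl hb0 hb1 hb2 using hbl
  have hent : ∀ (ct : α → γ) (ε : ℕ), ε < 2 →
      (1 / 3 : ℝ) * ∑ db, JS ρ κ lv (Ds U db) (Ss (Vs U db) PC ct) (Ss (Vs U db) PT ct)
        (Vs U db) ε g ≤ Fintype.card (α → Bool) * (9 / 1000 * (lev lv U g).card) +
        4000000 * ∑ db, Psi ρ κ lv (Ds U db) (Ss (Vs U db) PC ct) (Ss (Vs U db) PT ct)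
          (Vs U db) ε g := by
    intro ct ε hε
    have h2 := split lv g (fun db => (1 / 3 : ℝ) * JS ρ κ lv (Ds U db) (Ss (Vs U db) PC ct)
      (Ss (Vs U db) PT ct) (Vs U db) ε g - (9 / 1000 * (lev lv U g).card +
        4000000 * Psi ρ κ lv (Ds U db) (Ss (Vs U db) PC ct) (Ss (Vs U db) PT ct) (Vs U db) ε g))
    have h3 := sum_nonpos (s := univ) (fun db _ => ent1 hP hN PC PT ρ hκ lv U g ct ε hε db)
    rw [h2] at h3
    have h4 := nonpos_of_mul_nonpos_right h3 hN1
    rw [sum_sub_distrib, sum_add_distrib, ← mul_sum, ← mul_sum _ _ (4000000 : ℝ), sum_const,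
      card_univ, nsmul_eq_mul] at h4
    linarith
  have hlow : ∀ ct : α → γ, Fintype.card (α → Bool) * B.card / 2 ≤
      ∑ db, JS ρ κ lv (Ds U db) (Ss (Vs U db) PC ct) (Ss (Vs U db) PT ct) (Vs U db) 0 g +
      ∑ db, JS ρ κ lv (Ds U db) (Ss (Vs U db) PC ct) (Ss (Vs U db) PT ct) (Vs U db) 1 g +
      Fintype.card (α → Bool) * ((lev lv U g).card / κ : ℝ) +
      ∑ db, ∑ e ∈ lev lv U g, bl db e ct := by
    intro ct
    rw [← half U B (hB.trans (filter_subset _ _))]
    refine (sum_le_sum (fun db _ => low hP ρ hκ1 lv U B (Ds U db) (Ss (Vs U db) PC ct)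
      (Ss (Vs U db) PT ct) (Vs U db) g hB hr (filter_subset _ _) (fun e => bl db e ct)
      (fun e => hb0 db e ct) (fun e => hb1 db e ct))).trans (le_of_eq ?_)
    rw [sum_add_distrib, sum_add_distrib, sum_add_distrib, sum_const, card_univ, nsmul_eq_mul]
  have hblk : ∑ ct : α → γ, ∑ db, ∑ e ∈ lev lv U g, bl db e ct ≤
      Fintype.card (α → Bool) * ((lev lv U g).card * (Fintype.card (α → γ) / 100 : ℝ)) := by
    rw [sum_comm]
    calc _ ≤ ∑ _db : α → Bool, ((lev lv U g).card * (Fintype.card (α → γ) / 100 : ℝ)) := by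
          refine sum_le_sum (fun db _ => ?_)
          rw [sum_comm, ← nsmul_eq_mul, ← sum_const]
          exact sum_le_sum (fun e _ => hb2 db e)
      _ = _ := by rw [sum_const, card_univ, nsmul_eq_mul]
  have hpt : ∀ ct : α → γ, Fintype.card (α → Bool) * ((B.card : ℝ) / 6 -
      (lev lv U g).card * (18 / 1000 + 1 / 9000000)) - 1 / 3 * ∑ db, ∑ e ∈ lev lv U g, bl db e ct ≤
      4000000 * ∑ db, (Psi ρ κ lv (Ds U db) (Ss (Vs U db) PC ct) (Ss (Vs U db) PT ct) (Vs U db) 0 g +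
        Psi ρ κ lv (Ds U db) (Ss (Vs U db) PC ct) (Ss (Vs U db) PT ct) (Vs U db) 1 g) := by
    intro ct
    have a1 := hent ct 0 (by norm_num)
    have a2 := hent ct 1 (by norm_num)
    have a3 := hlow ct
    rw [hκr] at a3
    rw [sum_add_distrib]
    linarith
  have hfin := sum_le_sum (s := univ) (fun ct _ => hpt ct)
  rw [sum_sub_distrib, sum_const, card_univ, nsmul_eq_mul, ← mul_sum, ← mul_sum] at hfin
  rw [sum_comm]
  have hpos : (0 : ℝ) ≤ Fintype.card (α → Bool) * Fintype.card (α → γ) * (lev lv U g).card := by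
    positivity
  nlinarith

end Vale.Agent.P331
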