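import Vale.Agent.P331.Spec

/-! Module U of P331: the algorithm is an online rule. -/

open Finset MeasureTheory
open scoped NNReal ENNReal
open Classical

namespace Vale.Agent.P331

variable {α : Type} [Fintype α] [DecidableEq α]

namespace RuleA

omit [Fintype α] [DecidableEq α] in
lemma cast_rk (M : Matroid α) (X : Finset α) :
    (((M.eRk (X : Set α)).toNat : ℕ) : ℕ∞) = M.eRk (X : Set α) :=
  ENat.natCast_toNat ((M.eRk_le_encard _).trans_lt X.finite_toSet.encard_lt_top).ne

/-- the rank function of a matroid -/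
noncomputable def rk (M : Matroid α) : Rk α where
  r X := (M.eRk (X : Set α)).toNat
  r_empty := by simp
  mono {X Y} h := by
    rw [← Nat.cast_le (α := ℕ∞), cast_rk, cast_rk]
    exact M.eRk_mono (coe_subset.2 h)
  ins x X := by
    rw [← Nat.cast_le (α := ℕ∞), Nat.cast_add, cast_rk, cast_rk, coe_insert, Nat.cast_one]
    exact M.eRk_insert_le_add_one _ _
  sub X Y := by
    rw [← Nat.cast_le (α := ℕ∞), Nat.cast_add, Nat.cast_add, cast_rk, cast_rk, cast_rk, cast_rk,
      coe_union, coe_inter, add_comm]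
    exact M.eRk_inter_add_eRk_union_le _ _

omit [Fintype α] in
lemma rk_iff (M : Matroid α) (I : Finset α) : (rk M).r I = I.card ↔ M.Indep (I : Set α) := by
  rw [M.indep_iff_eRk_eq_encard_of_finite I.finite_toSet, Set.encard_coe_eq_coe_finsetCard,
    ← cast_rk, Nat.cast_inj]
  rfl

lemma log_meas : Measurable fun r : ℝ => Int.log 1000000000 r :=
  Measurable.ite (measurableSet_le measurable_const measurable_id)
    ((measurable_of_countable fun n : ℕ => (Nat.log 1000000000 n : ℤ)).comp Nat.measurable_floor)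
    ((measurable_of_countable fun n : ℕ => -(Nat.clog 1000000000 n : ℤ)).comp
      (Nat.measurable_ceil.comp measurable_inv))

lemma meas (ρ : Rk α) (κ K : ℕ) (PC PT : Finset (Fin K)) (l : List α) (e : α) :
    MeasurableSet {z : Input α (Seed α (Fin K)) | decS ρ κ PC PT l e z.1.1 z.1.2 z.2} := by
  let : MeasurableSpace (Option ℤ) := ⊤
  have : MeasurableSingletonClass (Option ℤ) := ⟨fun _ => trivial⟩
  have hl : Measurable lvl := Measurable.ite (measurableSet_singleton 0) measurable_const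
    ((measurable_of_countable some).comp (log_meas.comp NNReal.continuous_coe.measurable))
  have hp : Measurable fun z : Input α (Seed α (Fin K)) =>
      ((fun x => lvl (mixW PT z.2 z.1.1 z.1.2 x)), z.2) := by
    refine (measurable_pi_lambda _ fun x => hl.comp ?_).prodMk measurable_snd
    exact Measurable.ite (measurable_snd (Set.to_countable
      {s : Seed α (Fin K) | s.1 x = false ∧ s.2.1 x = false ∧ s.2.2.1 x ∈ PT}).measurableSet)
      (by fun_prop) (by fun_prop)
  exact hp (Set.to_countable {p : (α → Option ℤ) × Seed α (Fin K) |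
    e ∈ accS ρ κ PC PT p.1 p.2 (l ++ [e])}).measurableSet

lemma loc (hP : PathStmt α) (hR : RunStmt α) {γ : Type} [DecidableEq γ] (ρ : Rk α) (κ : ℕ)
    {PC PT : Finset γ} (hd : Disjoint PC PT) (s : Seed α γ) {lv lv' : α → Option ℤ} (l : List α)
    (h1 : ∀ x, ¬ (s.1 x = false ∧ s.2.1 x = false ∧ s.2.2.1 x ∈ PT) → lv x = lv' x)
    (h2 : ∀ x ∈ l, lv x = lv' x) : accS ρ κ PC PT lv s l = accS ρ κ PC PT lv' s l := by
  have hU : ∀ x, lv x = lv' x → (x ∈ Ul ρ lv s.1 ↔ x ∈ Ul ρ lv' s.1) := fun x hx => by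
    have : ∀ g, univ.filter (fun y => s.1 y = true ∧ lv y = some g ∧ idx y < idx x) =
        univ.filter (fun y => s.1 y = true ∧ lv' y = some g ∧ idx y < idx x) := fun g =>
      filter_congr fun y _ => and_congr_right fun hy => by rw [h1 y (by simp [hy])]
    simp only [Ul, mem_filter, this, hx]
  have a1 : ∀ x, s.2.1 x = true → lv x = lv' x := fun x hx => h1 x (by simp [hx])
  have a2 : ∀ x, s.2.2.1 x ∈ PC → lv x = lv' x := fun x hx =>
    h1 x fun h => disjoint_left.1 hd hx h.2.2
  have hD : Ds (Ul ρ lv' s.1) s.2.1 = Ds (Ul ρ lv s.1) s.2.1 := by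
    ext x
    simp only [Ds, mem_filter]
    exact and_congr_left fun hx => (hU x (a1 x hx)).symm
  have hC : Ss (Vs (Ul ρ lv' s.1) s.2.1) PC s.2.2.1 = Ss (Vs (Ul ρ lv s.1) s.2.1) PC s.2.2.1 := by
    ext x
    simp only [Ss, Vs, mem_filter]
    exact and_congr_left fun hx => and_congr_left fun _ => (hU x (a2 x hx)).symm
  unfold accS acc
  rw [hD, hC]
  generalize hD' : Ds (Ul ρ lv s.1) s.2.1 = D
  generalize hC' : Ss (Vs (Ul ρ lv s.1) s.2.1) PC s.2.2.1 = C
  have hN := hP.congr ρ κ lv lv' D C fun x hx => by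
    rcases mem_union.1 hx with hx | hx
    · exact a1 x (mem_filter.1 (hD' ▸ hx : x ∈ Ds _ _)).2
    · exact a2 x (mem_filter.1 (hC' ▸ hx : x ∈ Ss _ _ _)).2
  have hF : Fd ρ κ lv' D C = Fd ρ κ lv D C := by
    funext d
    simp only [Fd, hN]
  rw [hF]
  refine hR.congr _ _ _ _ _ _ _ fun x hx => ?_
  have e := h2 x hx
  have i1 : ∀ d, inN ρ κ lv D C d x ↔ inN ρ κ lv' D C d x := fun d => by simp only [inN, hN, e]
  have i2 : ∀ d, geD ρ κ lv D C d x ↔ geD ρ κ lv' D C d x := fun d => by
    cases d <;> simp only [geD, i1]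
  have i3 : dep ρ κ lv D C x = dep ρ κ lv' D C x := by simp only [dep, i1]
  refine ⟨?_, fun _ => i3⟩
  simp only [Td, Ss, Vs, mem_filter, i1, i2, i3, hU x e]

end RuleA

open RuleA in
theorem ruleStmt (hP : PathStmt α) (hR : RunStmt α) : RuleStmt α := by
  intro M
  refine ⟨rk M, rk_iff M, fun K PC PT hd κ hκ => ?_⟩
  have key : ∀ π : List α, π.Nodup → ∀ z : Input α (Seed α (Fin K)),
      accepted (decS (rk M) κ PC PT) π z =
        (accS (rk M) κ PC PT (fun x => lvl (mixW PT z.2 z.1.1 z.1.2 x)) z.2 π : Set α) := by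
    intro π hπ z
    ext e
    refine (and_congr_right fun _ => ?_).trans (hR.online _ _ _ _ π hπ e).symm
    unfold decS
    rw [loc hP hR (rk M) κ hd z.2 (lv' := fun x => lvl (mixW PT z.2 z.1.1 z.1.2 x))]
    · rfl
    · intro x hx
      simp only [mixW, if_neg hx]
    · intro x hx
      simp only [mixW, reveal, if_pos (show x ∈ before π e ∨ x = e by simpa using hx)]
  refine ⟨⟨meas _ _ _ _ _, fun π hπ z => ?_⟩, fun π hπ z => ⟨key π hπ z, fun x hx => ?_⟩⟩
  · rw [key π hπ z, ← rk_iff]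
    exact hR.indep _ _ _ _ (fun x y hx hy => hP.chain _ hκ _ _ _ x y (hx.2.trans hy.2.symm)) π
  · have h := (hR.sub _ _ _ _ π x hx).1.1
    simp only [Td, Ss, Vs, Ul, mem_filter] at h
    exact if_pos ⟨h.1.1.1.2.1, h.1.1.2, h.1.2⟩

end Vale.Agent.P331
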