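import Vale.Agent.P331.Spec

open Finset
open Classical

namespace Vale.Agent.P331

variable {α : Type} [Fintype α] [DecidableEq α]

namespace Run

variable (ρ : Rk α) (el : α → Prop) (dp : α → ℕ) (F : ℕ → Finset α)

lemma snoc (l : List α) (x : α) :
    grun ρ el dp F (l ++ [x]) = gstep ρ el dp F (grun ρ el dp F l) x := by
  simp [grun, List.foldl_append]

lemma step_sub (A : Finset α) (x : α) : A ⊆ gstep ρ el dp F A x := by
  unfold gstep
  split_ifs
  · exact subset_insert _ _
  · exact subset_rfl

lemma step_mem {A : Finset α} {x y : α} (h : y ∈ gstep ρ el dp F A x) :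
    y ∈ A ∨ (y = x ∧ el x) := by
  unfold gstep at h
  split_ifs at h with k
  · rcases mem_insert.1 h with e | e
    · exact Or.inr ⟨e, k.1⟩
    · exact Or.inl e
  · exact Or.inl h

lemma sub (l : List α) : ∀ x ∈ grun ρ el dp F l, el x ∧ x ∈ l := by
  induction l using List.reverseRecOn with
  | nil => simp [grun]
  | append_singleton l y ih =>
    intro x hx
    rw [snoc] at hx
    rcases step_mem ρ el dp F hx with h | ⟨rfl, h⟩
    · exact ⟨(ih x h).1, List.mem_append_left _ (ih x h).2⟩
    · exact ⟨h, by simp⟩

lemma inv (l : List α) (d : ℕ) :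
    ρ.r (F (d + 1) ∪ (grun ρ el dp F l).filter (fun y => dp y = d)) =
      ρ.r (F (d + 1)) + ((grun ρ el dp F l).filter (fun y => dp y = d)).card := by
  induction l using List.reverseRecOn with
  | nil => simp [grun]
  | append_singleton l y ih =>
    rw [snoc]
    unfold gstep
    split_ifs with k
    · rw [filter_insert]
      split_ifs with e
      · subst e
        have hy : y ∉ (grun ρ el dp F l).filter (fun z => dp z = dp y) := fun h =>
          k.2 (Rk.subset_cl _ (mem_union_right _ h))
        rw [union_insert, Rk.notMem_cl.1 k.2, ih, card_insert_of_notMem hy, add_assoc]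
      · exact ih
    · exact ih

lemma layers (h : ∀ x y, el x → el y → dp x < dp y → y ∈ ρ.cl (F (dp x + 1))) (A : Finset α)
    (hA : ∀ x ∈ A, el x) (hi : ∀ d, ρ.r (F (d + 1) ∪ A.filter (fun y => dp y = d)) =
      ρ.r (F (d + 1)) + (A.filter (fun y => dp y = d)).card) :
    ∀ B ⊆ A, ρ.r B = B.card := by
  intro B
  induction B using Finset.strongInduction with
  | H B ih =>
    intro hB
    rcases B.eq_empty_or_nonempty with rfl | hne
    · simp [ρ.r_empty]
    obtain ⟨x, hx, hm⟩ := exists_min_image B dp hne
    have h1 : B.filter (fun y => ¬ dp y = dp x) ⊂ B := filter_ssubset.2 ⟨x, hx, by simp⟩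
    have h2 : B.filter (fun y => ¬ dp y = dp x) ⊆ ρ.cl (F (dp x + 1)) := fun y hy =>
      h x y (hA x (hB hx)) (hA y (hB (mem_filter.1 hy).1))
        (lt_of_le_of_ne (hm y (mem_filter.1 hy).1) (Ne.symm (mem_filter.1 hy).2))
    have h3 : ρ.r (ρ.cl (F (dp x + 1)) ∪ A.filter (fun y => dp y = dp x)) =
        ρ.r (ρ.cl (F (dp x + 1))) + (A.filter (fun y => dp y = dp x)).card := by
      refine le_antisymm (Rk.r_union_le_card _ _) ?_
      rw [Rk.r_cl, ← hi]
      exact ρ.mono (union_subset_union (Rk.subset_cl _) subset_rfl)
    have h4 := Rk.indep_mono h3 h2 (filter_subset_filter (fun y => dp y = dp x) hB)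
    rw [union_comm, filter_union_filter_not_eq, ih _ h1 (h1.subset.trans hB)] at h4
    rw [h4, add_comm, card_filter_add_card_filter_not]

lemma mono (l t : List α) : grun ρ el dp F l ⊆ grun ρ el dp F (l ++ t) := by
  induction t using List.reverseRecOn with
  | nil => simp
  | append_singleton t y ih =>
    rw [← List.append_assoc, snoc]
    exact ih.trans (step_sub ρ el dp F _ _)

lemma span (l : List α) : ∀ x ∈ l, el x →
    x ∈ ρ.cl (F (dp x + 1) ∪ (grun ρ el dp F l).filter (fun y => dp y = dp x)) := by
  induction l using List.reverseRecOn with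
  | nil => simp
  | append_singleton l y ih =>
    intro x hx he
    rcases List.mem_append.1 hx with h | h
    · exact Rk.cl_mono (union_subset_union subset_rfl
        (filter_subset_filter _ (mono ρ el dp F l [y]))) (ih x h he)
    · obtain rfl : x = y := by simpa using h
      rw [snoc]
      unfold gstep
      split_ifs with k
      · exact Rk.subset_cl _ (mem_union_right _ (mem_filter.2 ⟨mem_insert_self _ _, rfl⟩))
      · by_contra k'
        exact k ⟨he, k'⟩

lemma later (l t : List α) {x : α} (hx : x ∉ t) (h : x ∈ grun ρ el dp F (l ++ t)) :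
    x ∈ grun ρ el dp F l := by
  induction t using List.reverseRecOn with
  | nil => simpa using h
  | append_singleton t y ih =>
    rw [← List.append_assoc, snoc] at h
    rcases step_mem ρ el dp F h with k | ⟨k, -⟩
    · exact ih (fun k' => hx (List.mem_append_left _ k')) k
    · exact absurd (by simp [k]) hx

omit [Fintype α] in
lemma split (π : List α) {e : α} (he : e ∈ π) : ∃ t, π = before π e ++ e :: t := by
  induction π with
  | nil => simp at he
  | cons a l ih =>
    by_cases h : a = e
    · subst h
      exact ⟨l, by simp [before]⟩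
    · obtain ⟨t, ht⟩ := ih (by simpa [Ne.symm h] using he)
      refine ⟨t, ?_⟩
      have : before (a :: l) e = a :: before l e := by simp [before, h]
      rw [this, List.cons_append, ← ht]

lemma online (l : List α) (hl : l.Nodup) (x : α) :
    x ∈ grun ρ el dp F l ↔ x ∈ l ∧ x ∈ grun ρ el dp F (before l x ++ [x]) := by
  constructor
  · intro h
    have hx := (sub ρ el dp F l x h).2
    obtain ⟨t, ht⟩ := split l hx
    have e : l = (before l x ++ [x]) ++ t := by simpa using ht
    refine ⟨hx, later ρ el dp F _ t (fun k => ?_) (e ▸ h)⟩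
    rw [ht] at hl
    exact (List.nodup_cons.1 (List.nodup_append.1 hl).2.1).1 k
  · rintro ⟨hx, h⟩
    obtain ⟨t, ht⟩ := split l hx
    have e : l = (before l x ++ [x]) ++ t := by simpa using ht
    rw [e]
    exact mono ρ el dp F _ t h

lemma congr (el' : α → Prop) (dp' : α → ℕ) (l : List α)
    (h : ∀ x ∈ l, (el x ↔ el' x) ∧ (el x → dp x = dp' x)) :
    grun ρ el dp F l = grun ρ el' dp' F l := by
  induction l using List.reverseRecOn with
  | nil => simp [grun]
  | append_singleton l y ih =>
    have h1 := ih fun x hx => h x (List.mem_append_left _ hx)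
    have h2 := h y (by simp)
    rw [snoc, snoc, ← h1]
    unfold gstep
    by_cases k : el y
    · have e : (grun ρ el dp F l).filter (fun z => dp z = dp y) =
          (grun ρ el dp F l).filter (fun z => dp' z = dp' y) := by
        refine filter_congr fun z hz => ?_
        have := sub ρ el dp F l z hz
        rw [(h z (List.mem_append_left _ this.2)).2 this.1, h2.2 k]
      rw [e, h2.2 k]
      simp only [k, h2.1.1 k]
    · rw [if_neg (fun k' => k k'.1), if_neg (fun k' => k (h2.1.2 k'.1))]

end Run

theorem runStmt : RunStmt α where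
  indep ρ el dp F h l := Run.layers ρ el dp F h _ (fun x hx => (Run.sub ρ el dp F l x hx).1)
    (Run.inv ρ el dp F l) _ subset_rfl
  sub := Run.sub
  span := Run.span
  online := Run.online
  congr ρ el el' dp dp' F l h := Run.congr ρ el dp F el' dp' l h

end Vale.Agent.P331
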